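import Crest.Agent.GadCap.Pow

/-! The capacity of the tensor powers. -/

set_option autoImplicit false
set_option linter.unusedSectionVars false

namespace Crest.Agent.GadCap

open Matrix Finset Filter Topology Real
open Crest.Quantum Crest.MathPhysics.AmpDamp
open scoped ComplexOrder Kronecker

variable {d e : Type*} [Fintype e] [DecidableEq e] [Fintype d] [DecidableEq d]

lemma vnEntropy_submatrix {d' : Type*} [Fintype d'] [DecidableEq d'] {ρ : Matrix d d ℂ}
    (h : ρ.IsHermitian) (f : d' ≃ d) : vnEntropy (ρ.submatrix f f) = vnEntropy ρ := by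
  rw [vnEntropy_eq h, vnEntropy_eq (h.submatrix f), specSum_submatrix]

lemma density_submatrix {d' : Type*} [Fintype d'] [DecidableEq d'] {ρ : Matrix d d ℂ}
    (h : IsDensity ρ) (f : d' ≃ d) : IsDensity (ρ.submatrix f f) := by
  refine ⟨h.1.submatrix _, ?_⟩
  have h2 : (ρ.submatrix f f).trace = ρ.trace := by
    unfold Matrix.trace
    simp only [Matrix.diag_apply, Matrix.submatrix_apply]
    exact Equiv.sum_comp f (fun i => ρ i i)
  rw [h2, h.2]

/-- the Holevo information of the power, as one of the tensor map -/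
lemma hol_succ {γ ν : ℝ} (hγ : γ ∈ Set.Icc (0 : ℝ) 1) (hν : ν ∈ Set.Icc (0 : ℝ) 1) (n : ℕ)
    {ι : Type*} [Fintype ι] {q : ι → ℝ}
    {ρ : ι → Matrix (Fin (n + 1) → Bool) (Fin (n + 1) → Bool) ℂ} (h : IsEns q ρ) :
    hol (qubitPower (n + 1) (gadMap γ ν)) q ρ
      = hol (qubitTensor (gadMap γ ν) (qubitPower n (gadMap γ ν))) q
        (fun a => (ρ a).submatrix (cEq n) (cEq n)) := by
  have hT := tensor_channel hγ hν (power_channel hγ hν n)
  have hP := power_channel hγ hν (n + 1)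
  have h' : IsEns q (fun a => (ρ a).submatrix (cEq n) (cEq n)) :=
    ⟨h.1, h.2.1, fun a => density_submatrix (h.2.2 a) _⟩
  have key : ∀ M : Matrix (Fin (n + 1) → Bool) (Fin (n + 1) → Bool) ℂ, IsDensity M →
      vnEntropy (qubitPower (n + 1) (gadMap γ ν) M)
        = vnEntropy (qubitTensor (gadMap γ ν) (qubitPower n (gadMap γ ν))
          (M.submatrix (cEq n) (cEq n))) := by
    intro M hM
    rw [power_succ', vnEntropy_submatrix]
    exact (channel_density hT (density_submatrix hM _)).1.isHermitian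
  unfold hol
  rw [sum_linear hP.1, sum_linear hT.1, key _ (avg_density h)]
  have e1 : (∑ a, (q a : ℂ) • ρ a).submatrix (cEq n) (cEq n)
      = ∑ a, (q a : ℂ) • (ρ a).submatrix (cEq n) (cEq n) := by
    ext i j
    simp [Matrix.sum_apply]
  rw [e1]
  congr 1
  refine Finset.sum_congr rfl fun a _ => ?_
  rw [key _ (h.2.2 a)]

/-- entropy of a state on a one-dimensional space -/
lemma entropy_unique [Unique d] {ρ : Matrix d d ℂ} (h : IsDensity ρ) : vnEntropy ρ = 0 := by
  rw [vnEntropy_eq h.1.isHermitian]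
  have d1 := isDz_of_isHermitian h.1.isHermitian
  have s1 : ∑ i, h.1.isHermitian.eigenvalues i = 1 := by
    have := d1.trace.symm.trans h.2
    exact_mod_cast this
  rw [d1.specSum]
  rw [Fintype.sum_unique] at s1 ⊢
  rw [s1]
  simp

lemma hol_zero {γ ν : ℝ} {ι : Type*} [Fintype ι] {q : ι → ℝ}
    {ρ : ι → Matrix (Fin 0 → Bool) (Fin 0 → Bool) ℂ} (h : IsEns q ρ) :
    hol (qubitPower 0 (gadMap γ ν)) q ρ = 0 := by
  unfold hol
  simp only [power_zero]
  rw [entropy_unique (avg_density h)]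
  have : ∀ a, q a * vnEntropy (ρ a) = 0 := by
    intro a
    rw [entropy_unique (h.2.2 a), mul_zero]
  simp [this]

theorem power_upper {γ ν : ℝ} (hγ : γ ∈ Set.Icc (0 : ℝ) 1) (hν : ν ∈ Set.Icc (0 : ℝ) 1) {R : ℝ}
    (hR : ∀ p ∈ Set.Icc (0 : ℝ) 1, gadRate γ ν p ≤ R) (n : ℕ) :
    ∀ {ι : Type} [Fintype ι] {q : ι → ℝ} {ρ : ι → Matrix (Fin n → Bool) (Fin n → Bool) ℂ},
      IsEns q ρ → hol (qubitPower n (gadMap γ ν)) q ρ ≤ n * R := by
  induction n with
  | zero =>
    intro ι _ q ρ h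
    rw [hol_zero h]
    simp
  | succ n ih =>
    intro ι _ q ρ h
    rw [hol_succ hγ hν n h]
    obtain ⟨D, hD⟩ := exists_density (d := Fin n → Bool)
    have h' : IsEns q (fun a => (ρ a).submatrix (cEq n) (cEq n)) :=
      ⟨h.1, h.2.1, fun a => density_submatrix (h.2.2 a) _⟩
    have h1 := upper hγ hν (power_channel hγ hν n) hD h'
    have h2 := ih (ens2 h' hD)
    have hp : ∀ a, pop ((ρ a).submatrix (cEq n) (cEq n)) ∈ Set.Icc (0 : ℝ) 1 := fun a =>
      pop_mem (h'.2.2 a)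
    set p : ι → ℝ := fun a => pop ((ρ a).submatrix (cEq n) (cEq n)) with hpdef
    have h3 : gfun γ ν (∑ a, q a * p a) ≤ ∑ a, q a * gfun γ ν (p a) := by
      have := (gfun_convexOn hγ hν).map_sum_le (t := Finset.univ) (w := q) (p := p)
        (fun a _ => h.1 a) h.2.1 (fun a _ => hp a)
      simpa using this
    have hpb : ∑ a, q a * p a ∈ Set.Icc (0 : ℝ) 1 := by
      have := (convex_Icc (0 : ℝ) 1).sum_mem (t := Finset.univ) (w := q) (z := p)
        (fun a _ => h.1 a) h.2.1 (fun a _ => hp a)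
      simpa using this
    have h4 := hR _ hpb
    rw [gadRate_eq] at h4
    push_cast
    linarith

theorem power_lower {γ ν : ℝ} (hγ : γ ∈ Set.Icc (0 : ℝ) 1) (hν : ν ∈ Set.Icc (0 : ℝ) 1) {p : ℝ}
    (hp : p ∈ Set.Icc (0 : ℝ) 1) (n : ℕ) :
    ∃ (ι : Type) (_ : Fintype ι) (q : ι → ℝ) (ρ : ι → Matrix (Fin n → Bool) (Fin n → Bool) ℂ),
      IsEns q ρ ∧ hol (qubitPower n (gadMap γ ν)) q ρ = n * gadRate γ ν p := by
  induction n with
  | zero =>
    obtain ⟨D, hD⟩ := exists_density (d := Fin 0 → Bool)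
    have hE : IsEns (fun _ : Unit => (1 : ℝ)) (fun _ => D) :=
      ⟨fun _ => zero_le_one, by simp, fun _ => hD⟩
    refine ⟨Unit, inferInstance, fun _ => 1, fun _ => D, hE, ?_⟩
    rw [hol_zero hE]
    simp
  | succ n ih =>
    obtain ⟨ι, hι, q, ρ, hE, hh⟩ := ih
    have hE1 : IsEns (q1 (fun _ : Unit => (1 : ℝ))) (ρ1 (fun _ : Unit => p)) :=
      ens1 (fun _ => zero_le_one) (by simp) (fun _ => hp)
    have hh1 : hol (gadMap γ ν) (q1 (fun _ : Unit => (1 : ℝ))) (ρ1 (fun _ : Unit => p))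
        = gadRate γ ν p := by
      rw [hol1 hγ (by simp) (fun _ => hp), gadRate_eq]
      simp
    obtain ⟨hEp, hhp⟩ := hol_prod (gad_channel hγ hν) (power_channel hγ hν n) hE1 hE
    set qq := fun i : (Unit × Bool) × ι => q1 (fun _ : Unit => (1 : ℝ)) i.1 * q i.2 with hqq
    set ρρ := fun i : (Unit × Bool) × ι => ρ1 (fun _ : Unit => p) i.1 ⊗ₖ ρ i.2 with hρρ
    have hE' : IsEns qq (fun i => (ρρ i).submatrix (cEq n).symm (cEq n).symm) :=
      ⟨hEp.1, hEp.2.1, fun i => density_submatrix (hEp.2.2 i) _⟩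
    refine ⟨(Unit × Bool) × ι, inferInstance, qq, fun i => (ρρ i).submatrix (cEq n).symm
      (cEq n).symm, hE', ?_⟩
    rw [hol_succ hγ hν n hE']
    have : (fun a => ((ρρ a).submatrix (cEq n).symm (cEq n).symm).submatrix (cEq n) (cEq n))
        = ρρ := by
      funext a
      simp
    rw [this, hhp, hh1, hh]
    push_cast
    ring

lemma exists_max {γ ν : ℝ} : ∃ p ∈ Set.Icc (0 : ℝ) 1, ∀ p' ∈ Set.Icc (0 : ℝ) 1,
    gadRate γ ν p' ≤ gadRate γ ν p := by
  have hc : Continuous (gadRate γ ν) := by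
    unfold gadRate
    exact (binEntropy_continuous.comp (by fun_prop)).sub
      (binEntropy_continuous.comp (by fun_prop))
  obtain ⟨p, hp, hm⟩ := isCompact_Icc.exists_isMaxOn (Set.nonempty_Icc.mpr zero_le_one)
    hc.continuousOn
  exact ⟨p, hp, fun p' hp' => hm hp'⟩

end Crest.Agent.GadCap
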