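import Crest.Agent.GadCap.Spec

/-! Continuity of spectral sums along convergent families of Hermitian matrices. -/

set_option autoImplicit false
set_option linter.unusedSectionVars false

namespace Crest.Agent.GadCap

open Matrix Finset Filter Topology
open scoped ComplexOrder

variable {n : Type*} [Fintype n] [DecidableEq n]

lemma IsDz.trace_pow {M U : Matrix n n ℂ} {x : n → ℝ} (d : IsDz M U x) (k : ℕ) :
    (M ^ k).trace = ((∑ i, x i ^ k : ℝ) : ℂ) := by
  have h : M ^ k = U * diagonal (fun i => ((x i ^ k : ℝ) : ℂ)) * Uᴴ := by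
    induction k with
    | zero =>
      have : diagonal (fun i => ((x i ^ 0 : ℝ) : ℂ)) = (1 : Matrix n n ℂ) := by
        simp
      rw [pow_zero, this, Matrix.mul_one, d.hU']
    | succ k ih =>
      rw [pow_succ, ih]
      conv_lhs => rw [d.hM]
      calc U * diagonal (fun i => ((x i ^ k : ℝ) : ℂ)) * Uᴴ
            * (U * diagonal (fun i => (x i : ℂ)) * Uᴴ)
          = U * (diagonal (fun i => ((x i ^ k : ℝ) : ℂ)) * (Uᴴ * U)
            * diagonal (fun i => (x i : ℂ))) * Uᴴ := by simp only [Matrix.mul_assoc]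
        _ = _ := by
          rw [d.hU, Matrix.mul_one, diagonal_mul_diagonal]
          congr 3
          ext i
          push_cast
          ring
  rw [h, Matrix.trace_mul_comm, ← Matrix.mul_assoc, d.hU, Matrix.one_mul, trace_diagonal]
  push_cast
  rfl

lemma specSum_eval {M : Matrix n n ℂ} (h : M.IsHermitian) (p : Polynomial ℝ) :
    specSum (fun x => p.eval x) M
      = ∑ k ∈ Finset.range (p.natDegree + 1), p.coeff k * ((M ^ k).trace).re := by
  have d := isDz_of_isHermitian h
  rw [d.specSum]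
  simp_rw [d.trace_pow, Complex.ofReal_re, Polynomial.eval_eq_sum_range, Finset.mul_sum]
  rw [Finset.sum_comm]

/-- all eigenvalues are bounded by the Frobenius norm -/
lemma IsDz.abs_le {M U : Matrix n n ℂ} {x : n → ℝ} (d : IsDz M U x) {B : ℝ} (hB : 0 ≤ B)
    (h : ((M ^ 2).trace).re ≤ B ^ 2) (i : n) : |x i| ≤ B := by
  rw [d.trace_pow, Complex.ofReal_re] at h
  have h1 : x i ^ 2 ≤ ∑ j, x j ^ 2 :=
    Finset.single_le_sum (f := fun j => x j ^ 2) (fun j _ => sq_nonneg _) (Finset.mem_univ i)
  exact abs_le_of_sq_le_sq (h1.trans h) hB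

theorem tendsto_specSum {f : ℝ → ℝ} (hf : Continuous f) {l : Filter ℝ} {M : ℝ → Matrix n n ℂ}
    {M0 : Matrix n n ℂ} (hM : ∀ᶠ ε in l, (M ε).IsHermitian) (hM0 : M0.IsHermitian)
    (hc : Tendsto M l (𝓝 M0)) :
    Tendsto (fun ε => specSum f (M ε)) l (𝓝 (specSum f M0)) := by
  -- a bound on the spectra
  set B : ℝ := 1 + |((M0 ^ 2).trace).re| with hBdef
  have hB1 : 1 ≤ B := by
    have := abs_nonneg ((M0 ^ 2).trace).re
    linarith
  have hB0 : 0 ≤ B := by linarith
  have hBsq : |((M0 ^ 2).trace).re| < B ^ 2 := by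
    have : |((M0 ^ 2).trace).re| < B := by linarith
    nlinarith
  have hctr : ∀ k : ℕ, Tendsto (fun ε => ((M ε ^ k).trace).re) l (𝓝 ((M0 ^ k).trace).re) := by
    intro k
    have h1 : Continuous fun N : Matrix n n ℂ => ((N ^ k).trace).re :=
      Complex.continuous_re.comp ((continuous_id.pow k).matrix_trace)
    exact (h1.tendsto M0).comp hc
  have hbd : ∀ᶠ ε in l, ((M ε ^ 2).trace).re ≤ B ^ 2 := by
    have h1 : ((M0 ^ 2).trace).re < B ^ 2 := lt_of_le_of_lt (le_abs_self _) hBsq
    filter_upwards [(hctr 2).eventually_lt_const h1] with ε hε using hε.le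
  have hM0b : ∀ i, |hM0.eigenvalues i| ≤ B := fun i =>
    (isDz_of_isHermitian hM0).abs_le hB0 (le_trans (le_abs_self _) hBsq.le) i
  -- approximate
  rw [Metric.tendsto_nhds]
  intro δ hδ
  set c : ℝ := Fintype.card n + 1 with hcdef
  have hcp : 0 < c := by positivity
  obtain ⟨p, hp⟩ := exists_polynomial_near_of_continuousOn (-B) B f hf.continuousOn
    (δ / (3 * c)) (by positivity)
  have hpoly : ∀ (N : Matrix n n ℂ) (hN : N.IsHermitian), (∀ i, |hN.eigenvalues i| ≤ B) →
      |specSum f N - specSum (fun x => p.eval x) N| ≤ δ / 3 := by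
    intro N hN hb
    rw [specSum_eq f hN, specSum_eq _ hN, ← Finset.sum_sub_distrib]
    calc |∑ i, (f (hN.eigenvalues i) - p.eval (hN.eigenvalues i))|
        ≤ ∑ i, |f (hN.eigenvalues i) - p.eval (hN.eigenvalues i)| :=
          Finset.abs_sum_le_sum_abs _ _
      _ ≤ ∑ _i : n, δ / (3 * c) := by
          refine Finset.sum_le_sum fun i _ => ?_
          rw [abs_sub_comm]
          exact (hp _ (abs_le.mp (hb i))).le
      _ = Fintype.card n * (δ / (3 * c)) := by
          rw [Finset.sum_const, Finset.card_univ, nsmul_eq_mul]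
      _ ≤ c * (δ / (3 * c)) := by
          refine mul_le_mul_of_nonneg_right ?_ (by positivity)
          rw [hcdef]; linarith
      _ = δ / 3 := by field_simp
  have hpt : Tendsto (fun ε => specSum (fun x => p.eval x) (M ε)) l
      (𝓝 (specSum (fun x => p.eval x) M0)) := by
    rw [specSum_eval hM0]
    have : Tendsto (fun ε => ∑ k ∈ Finset.range (p.natDegree + 1),
        p.coeff k * ((M ε ^ k).trace).re) l (𝓝 (∑ k ∈ Finset.range (p.natDegree + 1),
        p.coeff k * ((M0 ^ k).trace).re)) :=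
      tendsto_finsetSum _ fun k _ => (hctr k).const_mul _
    refine this.congr' ?_
    filter_upwards [hM] with ε hε
    rw [specSum_eval hε]
  rw [Metric.tendsto_nhds] at hpt
  filter_upwards [hpt (δ / 3) (by positivity), hM, hbd] with ε h1 h2 h3
  have h4 := hpoly _ h2 (fun i => (isDz_of_isHermitian h2).abs_le hB0 h3 i)
  have h5 := hpoly _ hM0 hM0b
  rw [Real.dist_eq] at h1 ⊢
  rw [abs_lt] at *
  rw [abs_le] at h4 h5
  constructor <;> linarith [h4.1, h4.2, h5.1, h5.2, h1.1, h1.2]

end Crest.Agent.GadCap
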