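import Crest.Agent.GadCap.Core2
import Crest.Agent.GadCap.Cont

/-! The entropy inequality for all parameters. -/

set_option autoImplicit false
set_option linter.unusedSectionVars false

namespace Crest.Agent.GadCap

open Matrix Finset Filter Topology Real
open scoped ComplexOrder

variable {e f : Type*} [Fintype e] [DecidableEq e] [Fintype f] [DecidableEq f]

lemma posSemidef_factor {M : Matrix e e ℂ} (h : M.PosSemidef) :
    ∃ B : Matrix e e ℂ, M = B * Bᴴ := by
  have d := isDz_of_isHermitian h.isHermitian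
  set x := h.isHermitian.eigenvalues with hx
  set U : Matrix e e ℂ := (h.isHermitian.eigenvectorUnitary : Matrix e e ℂ) with hU
  have hx0 : ∀ i, 0 ≤ x i := fun i => d.nonneg h i
  refine ⟨U * diagonal (fun i => ((√(x i) : ℝ) : ℂ)), ?_⟩
  rw [conjTranspose_mul, diagonal_conjTranspose]
  conv_lhs => rw [d.hM]
  have : diagonal (fun i => (x i : ℂ)) = diagonal (fun i => ((√(x i) : ℝ) : ℂ))
      * diagonal (star (fun i => ((√(x i) : ℝ) : ℂ))) := by
    rw [diagonal_mul_diagonal]
    congr 1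
    ext i
    simp only [Pi.star_apply, RCLike.star_def, Complex.conj_ofReal]
    rw [← Complex.ofReal_mul, Real.mul_self_sqrt (hx0 i)]
  rw [this]
  simp only [Matrix.mul_assoc]

noncomputable def mu1 (T D : ℝ) : ℝ := (T + √(T ^ 2 - 4 * D)) / 2

noncomputable def mu2 (T D : ℝ) : ℝ := (T - √(T ^ 2 - 4 * D)) / 2

/-- determinant of the scalar output -/
noncomputable def Dfun (γ ν u w : ℝ) : ℝ :=
  ((1 - γ * ν) * u + γ * (1 - ν) * w) * (γ * ν * u + (1 - γ + γ * ν) * w) - (1 - γ) * u * w

lemma exists_spar {γ ν u w : ℝ} (hγ : 0 < γ) (hγ1 : γ < 1) (hν : 0 < ν) (hν1 : ν < 1)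
    (hu : 0 < u) (hw : 0 < w) :
    ∃ P : SPar, P.a = 1 - γ * ν ∧ P.b = γ * (1 - ν) ∧ P.a' = γ * ν ∧ P.b' = 1 - γ + γ * ν ∧
      P.u = u ∧ P.w = w ∧ P.μ1 = mu1 (u + w) (Dfun γ ν u w) ∧
      P.μ2 = mu2 (u + w) (Dfun γ ν u w) := by
  have h1γ : 0 < 1 - γ := by linarith
  have h1ν : 0 < 1 - ν := by linarith
  have hgn : 0 < γ * ν := by positivity
  have hgn1 : γ * ν < 1 := by nlinarith
  have pa : 0 < 1 - γ * ν := by linarith
  have pb : 0 < γ * (1 - ν) := by positivity
  have pb' : 0 < 1 - γ + γ * ν := by positivity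
  set D := Dfun γ ν u w with hD
  set m0 := (1 - γ * ν) * u + γ * (1 - ν) * w with hm0
  set m1 := γ * ν * u + (1 - γ + γ * ν) * w with hm1
  have hDe : D = m0 * m1 - (1 - γ) * u * w := rfl
  have hT : m0 + m1 = u + w := by rw [hm0, hm1]; ring
  have hDpos : 0 < D := by
    have : D = (1 - γ * ν) * (γ * ν) * u ^ 2 + γ * (1 - ν) * (1 - γ + γ * ν) * w ^ 2
        + 2 * (γ * ν) * (γ * (1 - ν)) * u * w := by
      rw [hDe, hm0, hm1]; ring
    rw [this]
    positivity
  have hdisc : (u + w) ^ 2 - 4 * D = (m0 - m1) ^ 2 + 4 * ((1 - γ) * u * w) := by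
    rw [hDe, ← hT]; ring
  have hkuw : 0 < (1 - γ) * u * w := by positivity
  set s := √((u + w) ^ 2 - 4 * D) with hs
  have hdpos : 0 < (u + w) ^ 2 - 4 * D := by rw [hdisc]; positivity
  have hspos : 0 < s := Real.sqrt_pos.mpr hdpos
  have hssq : s ^ 2 = (u + w) ^ 2 - 4 * D := Real.sq_sqrt hdpos.le
  have hsm : |m0 - m1| ≤ s := by
    rw [hs, hdisc]
    apply Real.abs_le_sqrt
    linarith
  rw [abs_le] at hsm
  set μ1 := mu1 (u + w) D with hμ1
  set μ2 := mu2 (u + w) D with hμ2
  have e1 : μ1 = ((u + w) + s) / 2 := rfl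
  have e2 : μ2 = ((u + w) - s) / 2 := rfl
  have hsub : μ1 - μ2 = s := by rw [e1, e2]; ring
  have hsum : μ1 + μ2 = m0 + m1 := by rw [e1, e2, hT]; ring
  have hprod : μ1 * μ2 = D := by
    rw [e1, e2]
    have : (u + w + s) / 2 * ((u + w - s) / 2) = ((u + w) ^ 2 - s ^ 2) / 4 := by ring
    rw [this, hssq]; ring
  have pμ1 : 0 < μ1 := by rw [e1]; positivity
  have pμ2 : 0 < μ2 := by
    by_contra h
    push Not at h
    have : μ1 * μ2 ≤ 0 := mul_nonpos_of_nonneg_of_nonpos pμ1.le h
    linarith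
  have hm0le : m0 ≤ μ1 := by rw [e1, ← hT]; linarith [hsm.2]
  have hm0ge : μ2 ≤ m0 := by rw [e2, ← hT]; linarith [hsm.1]
  have hne : μ1 - μ2 ≠ 0 := by rw [hsub]; exact hspos.ne'
  refine ⟨⟨1 - γ * ν, γ * (1 - ν), γ * ν, 1 - γ + γ * ν, u, w, μ1, μ2, (μ1 - m0) / (μ1 - μ2),
    (m0 - μ2) / (μ1 - μ2), by ring, by ring, pa, pb, hgn, pb', by linarith, hu, hw, ?_, ?_, ?_,
    pμ2, pμ1, ?_, ?_, ?_⟩, rfl, rfl, rfl, rfl, rfl, rfl, rfl, rfl⟩
  · rw [← add_div, div_eq_one_iff_eq hne]; ring
  · exact div_nonneg (by linarith) (by rw [hsub]; exact hspos.le)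
  · exact div_nonneg (by linarith) (by rw [hsub]; exact hspos.le)
  · rw [← hm0, div_mul_eq_mul_div, div_mul_eq_mul_div, ← add_div, div_eq_iff hne]; ring
  · rw [← hm1, div_mul_eq_mul_div, div_mul_eq_mul_div, ← add_div, div_eq_iff hne]
    have : m1 = μ1 + μ2 - m0 := by linarith
    rw [this]; ring
  · rw [← hm0, ← hm1, hprod, hDe]; ring

/-- the output of the channel on the qubit side of a block matrix -/
noncomputable def outM (γ ν : ℝ) (A R R' C : Matrix e e ℂ) : Matrix (e ⊕ e) (e ⊕ e) ℂ :=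
  fromBlocks (((1 - γ * ν : ℝ) : ℂ) • A + ((γ * (1 - ν) : ℝ) : ℂ) • C)
    (((√(1 - γ) : ℝ) : ℂ) • R) (((√(1 - γ) : ℝ) : ℂ) • R')
    (((γ * ν : ℝ) : ℂ) • A + ((1 - γ + γ * ν : ℝ) : ℂ) • C)

lemma specSum_negMulLog {M U : Matrix e e ℂ} {x : e → ℝ} (d : IsDz M U x) :
    specSum negMulLog M = - ∑ i, ell (x i) := by
  rw [d.specSum, ← Finset.sum_neg_distrib]
  refine Finset.sum_congr rfl fun i _ => ?_
  unfold ell negMulLog
  ring

theorem key_pd {γ ν : ℝ} (hγ : 0 < γ) (hγ1 : γ < 1) (hν : 0 < ν) (hν1 : ν < 1)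
    [Nonempty e] {A R R' C : Matrix e e ℂ} (h : (fromBlocks A R R' C).PosSemidef)
    (hA : A.PosDef) (hC : C.PosDef) :
    specSum negMulLog A + specSum negMulLog C
      + negMulLog (mu1 (A.trace.re + C.trace.re) (Dfun γ ν A.trace.re C.trace.re))
      + negMulLog (mu2 (A.trace.re + C.trace.re) (Dfun γ ν A.trace.re C.trace.re))
      - negMulLog A.trace.re - negMulLog C.trace.re
      ≤ specSum negMulLog (outM γ ν A R R' C) := by
  have dA := isDz_of_isHermitian hA.isHermitian
  have dC := isDz_of_isHermitian hC.isHermitian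
  set av := hA.isHermitian.eigenvalues with hav
  set cv := hC.isHermitian.eigenvalues with hcv
  have pav : ∀ k, 0 < av k := fun k => dA.pos hA k
  have pcv : ∀ k, 0 < cv k := fun k => dC.pos hC k
  have htA : A.trace.re = ∑ k, av k := by rw [dA.trace, Complex.ofReal_re]
  have htC : C.trace.re = ∑ k, cv k := by rw [dC.trace, Complex.ofReal_re]
  have hu : 0 < A.trace.re := by
    rw [htA]; exact Finset.sum_pos (fun k _ => pav k) Finset.univ_nonempty
  have hw : 0 < C.trace.re := by
    rw [htC]; exact Finset.sum_pos (fun k _ => pcv k) Finset.univ_nonempty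
  obtain ⟨P, ea, eb, ea', eb', eu, ew, e1, e2⟩ := exists_spar hγ hγ1 hν hν1 hu hw
  obtain ⟨B, hB⟩ := posSemidef_factor h
  -- factors
  set X0 : Matrix e (e ⊕ e) ℂ := B.submatrix Sum.inl id with hX0
  set X1 : Matrix e (e ⊕ e) ℂ := B.submatrix Sum.inr id with hX1
  have hfb : ∀ i j, (fromBlocks A R R' C) i j = ∑ k, B i k * Bᴴ k j := by
    intro i j
    rw [hB, Matrix.mul_apply]
  have eA : A = X0 * X0ᴴ := by
    ext i j
    have := hfb (Sum.inl i) (Sum.inl j)
    rw [fromBlocks_apply₁₁] at this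
    rw [this, Matrix.mul_apply]
    refine Finset.sum_congr rfl fun k _ => ?_
    simp [hX0]
  have eC : C = X1 * X1ᴴ := by
    ext i j
    have := hfb (Sum.inr i) (Sum.inr j)
    rw [fromBlocks_apply₂₂] at this
    rw [this, Matrix.mul_apply]
    refine Finset.sum_congr rfl fun k _ => ?_
    simp [hX1]
  have eR : R = X0 * X1ᴴ := by
    ext i j
    have := hfb (Sum.inl i) (Sum.inr j)
    rw [fromBlocks_apply₁₂] at this
    rw [this, Matrix.mul_apply]
    refine Finset.sum_congr rfl fun k _ => ?_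
    simp [hX0, hX1]
  have eR' : R' = X1 * X0ᴴ := by
    ext i j
    have := hfb (Sum.inr i) (Sum.inl j)
    rw [fromBlocks_apply₂₁] at this
    rw [this, Matrix.mul_apply]
    refine Finset.sum_congr rfl fun k _ => ?_
    simp [hX0, hX1]
  have hMh : (outM γ ν A R R' C).IsHermitian := by
    have hR : R'ᴴ = R := by rw [eR', eR, conjTranspose_mul, conjTranspose_conjTranspose]
    have hR2 : Rᴴ = R' := by rw [← hR, conjTranspose_conjTranspose]
    unfold outM Matrix.IsHermitian
    rw [fromBlocks_conjTranspose]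
    congr 1
    · rw [conjTranspose_add, conjTranspose_smul, conjTranspose_smul, hA.isHermitian.eq,
        hC.isHermitian.eq]
      simp
    · rw [conjTranspose_smul, hR]
      simp
    · rw [conjTranspose_smul, hR2]
      simp
    · rw [conjTranspose_add, conjTranspose_smul, conjTranspose_smul, hA.isHermitian.eq,
        hC.isHermitian.eq]
      simp
  have dM := isDz_of_isHermitian hMh
  have hκ : √(1 - γ) * √(1 - γ) = P.a - P.b := by
    rw [Real.mul_self_sqrt (by linarith), ea, eb]; ring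
  have hc := core P hκ eA eC dA dC pav pcv (by rw [eu, htA]) (by rw [ew, htC]) dM (by
    unfold outM
    rw [ea, eb, ea', eb', eR, eR'])
  rw [specSum_negMulLog dA, specSum_negMulLog dC, specSum_negMulLog dM]
  rw [e1, e2, eu, ew] at hc
  have hneg : ∀ z, negMulLog z = - ell z := by
    intro z; unfold ell negMulLog; ring
  rw [hneg, hneg, hneg, hneg]
  linarith

lemma outM_isHermitian {γ ν : ℝ} {A R R' C : Matrix e e ℂ}
    (h : (fromBlocks A R R' C).IsHermitian) : (outM γ ν A R R' C).IsHermitian := by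
  rw [isHermitian_fromBlocks_iff] at h
  obtain ⟨hA, hR, hR', hC⟩ := h
  unfold outM
  rw [isHermitian_fromBlocks_iff]
  refine ⟨?_, ?_, ?_, ?_⟩
  · unfold Matrix.IsHermitian
    rw [conjTranspose_add, conjTranspose_smul, conjTranspose_smul, hA.eq, hC.eq]
    simp
  · rw [conjTranspose_smul, hR]
    simp
  · rw [conjTranspose_smul, hR']
    simp
  · unfold Matrix.IsHermitian
    rw [conjTranspose_add, conjTranspose_smul, conjTranspose_smul, hA.eq, hC.eq]
    simp

lemma trace_shift (A : Matrix e e ℂ) (ε : ℝ) :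
    ((ε : ℂ) • (1 : Matrix e e ℂ) + A).trace.re = ε * Fintype.card e + A.trace.re := by
  rw [trace_add, trace_smul, trace_one, smul_eq_mul, Complex.add_re, Complex.re_ofReal_mul]
  simp

lemma posSemidef_blocks {A R R' C : Matrix e e ℂ} (h : (fromBlocks A R R' C).PosSemidef) :
    A.PosSemidef ∧ C.PosSemidef := by
  constructor
  · have := h.submatrix (Sum.inl : e → e ⊕ e)
    exact this
  · have := h.submatrix (Sum.inr : e → e ⊕ e)
    exact this

theorem key {γ ν : ℝ} (hγ : γ ∈ Set.Icc (0 : ℝ) 1) (hν : ν ∈ Set.Icc (0 : ℝ) 1)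
    [Nonempty e] {A R R' C : Matrix e e ℂ} (h : (fromBlocks A R R' C).PosSemidef) :
    specSum negMulLog A + specSum negMulLog C
      + negMulLog (mu1 (A.trace.re + C.trace.re) (Dfun γ ν A.trace.re C.trace.re))
      + negMulLog (mu2 (A.trace.re + C.trace.re) (Dfun γ ν A.trace.re C.trace.re))
      - negMulLog A.trace.re - negMulLog C.trace.re
      ≤ specSum negMulLog (outM γ ν A R R' C) := by
  obtain ⟨hγ0, hγ1⟩ := hγ
  obtain ⟨hν0, hν1⟩ := hν
  obtain ⟨pA, pC⟩ := posSemidef_blocks h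
  set g : ℝ → ℝ := fun ε => γ * (1 - ε) + ε / 2 with hg
  set v : ℝ → ℝ := fun ε => ν * (1 - ε) + ε / 2 with hv
  set Ae : ℝ → Matrix e e ℂ := fun ε => (ε : ℂ) • (1 : Matrix e e ℂ) + A with hAe
  set Ce : ℝ → Matrix e e ℂ := fun ε => (ε : ℂ) • (1 : Matrix e e ℂ) + C with hCe
  have cg : Continuous g := by simp only [hg]; fun_prop
  have cv : Continuous v := by simp only [hv]; fun_prop
  have cAe : Continuous Ae := by simp only [hAe]; fun_prop
  have cCe : Continuous Ce := by simp only [hCe]; fun_prop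
  have g0 : g 0 = γ := by simp [hg]
  have v0 : v 0 = ν := by simp [hv]
  have A0 : Ae 0 = A := by simp [hAe]
  have C0 : Ce 0 = C := by simp [hCe]
  have hblk : ∀ ε : ℝ, 0 < ε → (fromBlocks (Ae ε) R R' (Ce ε)).PosDef := by
    intro ε hε
    have := posDef_shift h hε
    convert this using 1
    rw [← fromBlocks_one, fromBlocks_smul, fromBlocks_add]
    congr 1 <;> simp
  set M : ℝ → Matrix (e ⊕ e) (e ⊕ e) ℂ := fun ε => outM (g ε) (v ε) (Ae ε) R R' (Ce ε) with hM
  have cM : Continuous M := by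
    simp only [hM, outM]
    apply Continuous.matrix_fromBlocks
    · fun_prop
    · fun_prop
    · fun_prop
    · fun_prop
  have hMh : ∀ᶠ ε in 𝓝[>] (0 : ℝ), (M ε).IsHermitian := by
    filter_upwards [self_mem_nhdsWithin] with ε hε
    exact outM_isHermitian (hblk ε hε).isHermitian
  have hM0h : (outM γ ν A R R' C).IsHermitian := outM_isHermitian h.isHermitian
  have M0 : M 0 = outM γ ν A R R' C := by
    simp only [hM]
    rw [g0, v0, A0, C0]
  have tM : Tendsto (fun ε => specSum negMulLog (M ε)) (𝓝[>] 0)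
      (𝓝 (specSum negMulLog (outM γ ν A R R' C))) := by
    apply tendsto_specSum continuous_negMulLog hMh hM0h
    rw [← M0]
    exact (cM.tendsto 0).mono_left nhdsWithin_le_nhds
  have tA : Tendsto (fun ε => specSum negMulLog (Ae ε)) (𝓝[>] 0) (𝓝 (specSum negMulLog A)) := by
    apply tendsto_specSum continuous_negMulLog _ pA.isHermitian
    · have := (cAe.tendsto 0).mono_left (nhdsWithin_le_nhds (s := Set.Ioi 0))
      rwa [A0] at this
    · filter_upwards [self_mem_nhdsWithin] with ε hε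
      exact (posDef_shift pA hε).isHermitian
  have tC : Tendsto (fun ε => specSum negMulLog (Ce ε)) (𝓝[>] 0) (𝓝 (specSum negMulLog C)) := by
    apply tendsto_specSum continuous_negMulLog _ pC.isHermitian
    · have := (cCe.tendsto 0).mono_left (nhdsWithin_le_nhds (s := Set.Ioi 0))
      rwa [C0] at this
    · filter_upwards [self_mem_nhdsWithin] with ε hε
      exact (posDef_shift pC hε).isHermitian
  have htrA : ∀ ε, (Ae ε).trace.re = ε * Fintype.card e + A.trace.re := fun ε => trace_shift A ε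
  have htrC : ∀ ε, (Ce ε).trace.re = ε * Fintype.card e + C.trace.re := fun ε => trace_shift C ε
  set F : ℝ → ℝ := fun ε =>
    negMulLog (mu1 ((Ae ε).trace.re + (Ce ε).trace.re)
        (Dfun (g ε) (v ε) (Ae ε).trace.re (Ce ε).trace.re))
      + negMulLog (mu2 ((Ae ε).trace.re + (Ce ε).trace.re)
        (Dfun (g ε) (v ε) (Ae ε).trace.re (Ce ε).trace.re))
      - negMulLog (Ae ε).trace.re - negMulLog (Ce ε).trace.re with hF
  have cF : Continuous F := by
    simp only [hF, htrA, htrC]
    have c1 : Continuous fun ε : ℝ => Dfun (g ε) (v ε) (ε * Fintype.card e + A.trace.re)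
        (ε * Fintype.card e + C.trace.re) := by
      unfold Dfun
      fun_prop
    have c2 : Continuous fun ε : ℝ => mu1 (ε * Fintype.card e + A.trace.re
        + (ε * Fintype.card e + C.trace.re)) (Dfun (g ε) (v ε) (ε * Fintype.card e + A.trace.re)
        (ε * Fintype.card e + C.trace.re)) := by
      unfold mu1
      fun_prop
    have c3 : Continuous fun ε : ℝ => mu2 (ε * Fintype.card e + A.trace.re
        + (ε * Fintype.card e + C.trace.re)) (Dfun (g ε) (v ε) (ε * Fintype.card e + A.trace.re)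
        (ε * Fintype.card e + C.trace.re)) := by
      unfold mu2
      fun_prop
    have c4 : Continuous fun ε : ℝ => negMulLog (ε * Fintype.card e + A.trace.re) :=
      continuous_negMulLog.comp (by fun_prop)
    have c5 : Continuous fun ε : ℝ => negMulLog (ε * Fintype.card e + C.trace.re) :=
      continuous_negMulLog.comp (by fun_prop)
    exact (((continuous_negMulLog.comp c2).add (continuous_negMulLog.comp c3)).sub c4).sub c5
  have tF : Tendsto F (𝓝[>] 0) (𝓝 (F 0)) := (cF.tendsto 0).mono_left nhdsWithin_le_nhds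
  have hF0 : F 0 = negMulLog (mu1 (A.trace.re + C.trace.re) (Dfun γ ν A.trace.re C.trace.re))
      + negMulLog (mu2 (A.trace.re + C.trace.re) (Dfun γ ν A.trace.re C.trace.re))
      - negMulLog A.trace.re - negMulLog C.trace.re := by
    simp only [hF]
    rw [g0, v0, A0, C0]
  have hineq : ∀ᶠ ε in 𝓝[>] (0 : ℝ),
      specSum negMulLog (Ae ε) + specSum negMulLog (Ce ε) + F ε ≤ specSum negMulLog (M ε) := by
    have hlt : ∀ᶠ ε : ℝ in 𝓝[>] (0 : ℝ), ε < 1 :=
      nhdsWithin_le_nhds (eventually_lt_nhds one_pos)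
    filter_upwards [self_mem_nhdsWithin, hlt] with ε hε hε1
    have hε : 0 < ε := hε
    have b1 : 0 < g ε := by
      simp only [hg]
      have : 0 ≤ γ * (1 - ε) := mul_nonneg hγ0 (by linarith)
      linarith
    have b2 : g ε < 1 := by
      simp only [hg]
      have : γ * (1 - ε) ≤ 1 * (1 - ε) := mul_le_mul_of_nonneg_right hγ1 (by linarith)
      linarith
    have b3 : 0 < v ε := by
      simp only [hv]
      have : 0 ≤ ν * (1 - ε) := mul_nonneg hν0 (by linarith)
      linarith
    have b4 : v ε < 1 := by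
      simp only [hv]
      have : ν * (1 - ε) ≤ 1 * (1 - ε) := mul_le_mul_of_nonneg_right hν1 (by linarith)
      linarith
    have := key_pd b1 b2 b3 b4 (hblk ε hε).posSemidef (posDef_shift pA hε) (posDef_shift pC hε)
    simp only [hF]
    linarith
  have := le_of_tendsto_of_tendsto ((tA.add tC).add tF) tM hineq
  rw [hF0] at this
  linarith

end Crest.Agent.GadCap
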