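import Crest.Prelude.Def_QState
import Crest.Prelude.Def_QChannel
import Crest.Prelude.Def_AmpDamp
import Crest.Agent.GadCap.Key

/-! Channels, ensembles and entropies: bookkeeping. -/

set_option autoImplicit false
set_option linter.unusedSectionVars false

namespace Crest.Agent.GadCap

open Matrix Finset Filter Topology Real
open Crest.Quantum Crest.MathPhysics.AmpDamp
open scoped ComplexOrder

variable {d e : Type*} [Fintype e] [DecidableEq e] [Fintype d] [DecidableEq d]

lemma vnEntropy_eq {ρ : Matrix e e ℂ} (h : ρ.IsHermitian) :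
    vnEntropy ρ = specSum negMulLog ρ := by
  unfold vnEntropy
  rw [dif_pos h, specSum_eq _ h, ← Finset.sum_neg_distrib]
  refine Finset.sum_congr rfl fun i _ => ?_
  unfold negMulLog
  ring

/-- Holevo information for a general finite index type -/
noncomputable def hol {ι : Type*} [Fintype ι] (Φ : Matrix d d ℂ → Matrix e e ℂ) (q : ι → ℝ)
    (ρ : ι → Matrix d d ℂ) : ℝ :=
  vnEntropy (∑ a, (q a : ℂ) • Φ (ρ a)) - ∑ a, q a * vnEntropy (Φ (ρ a))

def IsEns {ι : Type*} [Fintype ι] (q : ι → ℝ) (ρ : ι → Matrix d d ℂ) : Prop :=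
  (∀ a, 0 ≤ q a) ∧ ∑ a, q a = 1 ∧ ∀ a, IsDensity (ρ a)

lemma exists_fin {ι : Type*} [Fintype ι] {q : ι → ℝ} {ρ : ι → Matrix d d ℂ} (h : IsEns q ρ)
    (Φ : Matrix d d ℂ → Matrix e e ℂ) :
    ∃ (m : ℕ) (q' : Fin m → ℝ) (ρ' : Fin m → Matrix d d ℂ), IsEnsemble q' ρ' ∧
      holevoInfo Φ q' ρ' = hol Φ q ρ := by
  refine ⟨Fintype.card ι, fun i => q ((Fintype.equivFin ι).symm i),
    fun i => ρ ((Fintype.equivFin ι).symm i), ⟨fun a => h.1 _, ?_, fun a => h.2.2 _⟩, ?_⟩
  · rw [← h.2.1]
    exact Equiv.sum_comp (Fintype.equivFin ι).symm q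
  · unfold holevoInfo hol
    rw [Equiv.sum_comp (Fintype.equivFin ι).symm (fun a => (q a : ℂ) • Φ (ρ a)),
      Equiv.sum_comp (Fintype.equivFin ι).symm (fun a => q a * vnEntropy (Φ (ρ a)))]

lemma isEns_of_isEnsemble {m : ℕ} {q : Fin m → ℝ} {ρ : Fin m → Matrix d d ℂ}
    (h : IsEnsemble q ρ) : IsEns q ρ := h

/-! ### blocks -/

lemma block_posSemidef {ρ : Matrix (Bool × d) (Bool × d) ℂ} (h : ρ.PosSemidef) (s : Bool) :
    (block ρ s s).PosSemidef := h.submatrix (fun i => (s, i))

lemma trace_block (ρ : Matrix (Bool × d) (Bool × d) ℂ) :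
    (block ρ false false).trace + (block ρ true true).trace = ρ.trace := by
  simp only [Matrix.trace, Matrix.diag_apply, block, Matrix.of_apply, Fintype.sum_prod_type,
    Fintype.sum_bool]
  ring

lemma trace_eq_re {F : Matrix d d ℂ} (h : F.PosSemidef) : F.trace = (F.trace.re : ℂ) := by
  have d1 := isDz_of_isHermitian h.isHermitian
  rw [d1.trace, Complex.ofReal_re]

lemma trace_re_nonneg {F : Matrix d d ℂ} (h : F.PosSemidef) : 0 ≤ F.trace.re := by
  have := h.trace_nonneg
  exact (Complex.le_def.mp this).1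

/-- some density matrix -/
lemma exists_density [Nonempty d] : ∃ D : Matrix d d ℂ, IsDensity D := by
  refine ⟨(((Fintype.card d : ℝ)⁻¹ : ℝ) : ℂ) • (1 : Matrix d d ℂ),
    posSemidef_smul Matrix.PosSemidef.one (by positivity), ?_⟩
  rw [trace_smul, trace_one, smul_eq_mul]
  have : (Fintype.card d : ℂ) ≠ 0 := by
    exact_mod_cast Fintype.card_ne_zero
  push_cast
  field_simp

open Classical in
/-- normalisation of a positive semidefinite matrix -/
noncomputable def nrm (D F : Matrix d d ℂ) : Matrix d d ℂ :=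
  if F.trace.re = 0 then D else (((F.trace.re)⁻¹ : ℝ) : ℂ) • F

lemma nrm_density {D F : Matrix d d ℂ} (hD : IsDensity D) (hF : F.PosSemidef) :
    IsDensity (nrm D F) := by
  unfold nrm
  split_ifs with h
  · exact hD
  · refine ⟨posSemidef_smul hF (inv_nonneg.mpr (trace_re_nonneg hF)), ?_⟩
    have h1 := trace_eq_re hF
    rw [trace_smul, smul_eq_mul, h1, Complex.ofReal_re, ← Complex.ofReal_mul, inv_mul_cancel₀ h,
      Complex.ofReal_one]

lemma nrm_smul {D F : Matrix d d ℂ} (hF : F.PosSemidef) :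
    (F.trace.re : ℂ) • nrm D F = F := by
  unfold nrm
  split_ifs with h
  · have : F = 0 := by
      rw [← hF.trace_eq_zero_iff, trace_eq_re hF, h, Complex.ofReal_zero]
    rw [h, this, Complex.ofReal_zero, zero_smul]
  · rw [smul_smul, ← Complex.ofReal_mul, mul_inv_cancel₀ h, Complex.ofReal_one, one_smul]

/-- entropy of a scaled state -/
lemma specSum_smul {X : Matrix e e ℂ} (hX : IsDensity X) (c : ℝ) :
    specSum negMulLog ((c : ℂ) • X) = c * specSum negMulLog X + negMulLog c := by
  have d1 := isDz_of_isHermitian hX.1.isHermitian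
  have h1 : ∑ i, hX.1.isHermitian.eigenvalues i = 1 := by
    have := d1.trace.symm.trans hX.2
    exact_mod_cast this
  rw [(d1.smul c).specSum, d1.specSum]
  simp_rw [Real.negMulLog_mul]
  rw [Finset.sum_add_distrib, ← Finset.sum_mul, h1, one_mul, ← Finset.mul_sum, add_comm]

/-! ### channels -/

lemma channel_psd {Ψ : Matrix d d ℂ → Matrix e e ℂ} (hΨ : IsCompletelyPositive Ψ)
    {κ : Type*} [Fintype κ] [DecidableEq κ] {M : Matrix (κ × d) (κ × d) ℂ} (hM : M.PosSemidef) :
    (blockwise (k := κ) Ψ M).PosSemidef := by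
  set eq := (Fintype.equivFin κ) with heq
  have h1 := hΨ (Fintype.card κ) (M.submatrix (Prod.map eq.symm id) (Prod.map eq.symm id))
    (hM.submatrix _)
  have h2 := h1.submatrix (Prod.map eq id : κ × e → Fin (Fintype.card κ) × e)
  convert h2 using 1
  ext p q
  simp [blockwise, block, Prod.map]

lemma channel_psd_one {Ψ : Matrix d d ℂ → Matrix e e ℂ} (hΨ : IsCompletelyPositive Ψ)
    {F : Matrix d d ℂ} (hF : F.PosSemidef) : (Ψ F).PosSemidef := by
  have h1 := channel_psd hΨ (κ := Unit) (hF.submatrix (fun p : Unit × d => p.2))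
  have h2 := h1.submatrix (fun i : e => ((), i))
  exact h2

lemma channel_density {Ψ : Matrix d d ℂ → Matrix e e ℂ} (hΨ : IsChannel Ψ)
    {F : Matrix d d ℂ} (hF : IsDensity F) : IsDensity (Ψ F) :=
  ⟨channel_psd_one hΨ.2.1 hF.1, by rw [hΨ.2.2, hF.2]⟩

/-- the entropy of the unnormalised block output -/
lemma weight_entropy {Ψ : Matrix d d ℂ → Matrix e e ℂ} (hΨ : IsChannel Ψ) {D F : Matrix d d ℂ}
    (hD : IsDensity D) (hF : F.PosSemidef) :
    F.trace.re * vnEntropy (Ψ (nrm D F)) = specSum negMulLog (Ψ F) - negMulLog F.trace.re := by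
  have h1 := nrm_density hD hF
  have h2 := channel_density hΨ h1
  rw [vnEntropy_eq h2.1.isHermitian]
  have h3 : Ψ F = (F.trace.re : ℂ) • Ψ (nrm D F) := by
    rw [← hΨ.1.map_smul, nrm_smul hF]
  rw [h3, specSum_smul h2]
  ring

/-! ### the tensor map -/

abbrev sumEquiv (e : Type*) : e ⊕ e ≃ Bool × e := (Equiv.boolProdEquivSum e).symm

lemma gad_coeff (γ ν : ℝ) (s t s' t' : Bool) : qubitCoeff (gadMap γ ν) s t s' t' =
    if s = false ∧ t = false then
      (if s' = false ∧ t' = false then ((1 - γ * ν : ℝ) : ℂ) else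
        if s' = true ∧ t' = true then ((γ * (1 - ν) : ℝ) : ℂ) else 0)
    else if s = true ∧ t = true then
      (if s' = false ∧ t' = false then ((γ * ν : ℝ) : ℂ) else
        if s' = true ∧ t' = true then ((1 - γ + γ * ν : ℝ) : ℂ) else 0)
    else if s = s' ∧ t = t' then ((√(1 - γ) : ℝ) : ℂ) else 0 := by
  unfold qubitCoeff gadMap
  cases s <;> cases t <;> cases s' <;> cases t' <;> simp [Matrix.single_apply]

lemma qubitTensor_submatrix (γ ν : ℝ) (Ψ : Matrix d d ℂ → Matrix e e ℂ)
    (M : Matrix (Bool × d) (Bool × d) ℂ) :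
    (qubitTensor (gadMap γ ν) Ψ M).submatrix (sumEquiv e) (sumEquiv e)
      = outM γ ν (Ψ (block M false false)) (Ψ (block M false true)) (Ψ (block M true false))
        (Ψ (block M true true)) := by
  unfold outM
  ext i j
  rcases i with i | i <;> rcases j with j | j <;>
    simp [qubitTensor, gad_coeff, add_comm]

lemma blockwise_submatrix (Ψ : Matrix d d ℂ → Matrix e e ℂ)
    (M : Matrix (Bool × d) (Bool × d) ℂ) :
    (blockwise (k := Bool) Ψ M).submatrix (sumEquiv e) (sumEquiv e)
      = fromBlocks (Ψ (block M false false)) (Ψ (block M false true)) (Ψ (block M true false))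
        (Ψ (block M true true)) := by
  ext i j
  rcases i with i | i <;> rcases j with j | j <;> simp [blockwise]

lemma blocks_psd {Ψ : Matrix d d ℂ → Matrix e e ℂ} (hΨ : IsCompletelyPositive Ψ)
    {M : Matrix (Bool × d) (Bool × d) ℂ} (hM : M.PosSemidef) :
    (fromBlocks (Ψ (block M false false)) (Ψ (block M false true)) (Ψ (block M true false))
        (Ψ (block M true true))).PosSemidef := by
  rw [← blockwise_submatrix]
  exact (channel_psd hΨ hM).submatrix _

end Crest.Agent.GadCap
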