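import Crest.Agent.GadCap.Qubit

/-! Convexity of the output entropy of pure states in the population. -/

set_option autoImplicit false

namespace Crest.Agent.GadCap

open Finset Filter Topology Real

/-- entropy as a function of the concurrence -/
noncomputable def EoC (c : ℝ) : ℝ := binEntropy ((1 + √(1 - c ^ 2)) / 2)

noncomputable def Kf (s : ℝ) : ℝ := √(1 - s ^ 2) * (log (1 + s) - log (1 - s)) / (2 * s)

lemma two_mul_le_log {s : ℝ} (h0 : 0 < s) (h1 : s < 1) : 2 * s ≤ log (1 + s) - log (1 - s) := by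
  have h := Real.hasSum_log_sub_log_of_abs_lt_one (x := s) (by rw [abs_of_pos h0]; exact h1)
  have h2 := h.tsum_eq
  have h3 := h.summable.le_tsum 0 (fun k _ => by positivity)
  rw [h2] at h3
  simpa using h3

lemma Kf_hasDerivAt {s : ℝ} (h0 : 0 < s) (h1 : s < 1) :
    HasDerivAt Kf ((2 * s - (log (1 + s) - log (1 - s))) / (2 * s ^ 2 * √(1 - s ^ 2))) s := by
  have hs2 : 0 < 1 - s ^ 2 := by nlinarith
  have hr : 0 < √(1 - s ^ 2) := Real.sqrt_pos.mpr hs2
  have hrr : √(1 - s ^ 2) ^ 2 = 1 - s ^ 2 := Real.sq_sqrt hs2.le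
  have d1 : HasDerivAt (fun s : ℝ => √(1 - s ^ 2)) (-(2 * s) / (2 * √(1 - s ^ 2))) s := by
    have := ((hasDerivAt_pow 2 s).const_sub 1).sqrt hs2.ne'
    simpa using this
  have d2 : HasDerivAt (fun s : ℝ => log (1 + s)) (1 / (1 + s)) s := by
    have := ((hasDerivAt_id s).const_add 1).log (by simp; linarith)
    simpa using this
  have d3 : HasDerivAt (fun s : ℝ => log (1 - s)) (-1 / (1 - s)) s := by
    have := ((hasDerivAt_id s).const_sub 1).log (by simp; linarith)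
    simpa using this
  have d4 : HasDerivAt (fun s : ℝ => 2 * s) 2 s := by
    simpa using (hasDerivAt_id s).const_mul 2
  have := ((d1.mul (d2.sub d3)).div d4 (by positivity))
  refine HasDerivAt.congr_deriv this ?_
  have e1 : 1 / (1 + s) - -1 / (1 - s) = 2 / (1 - s ^ 2) := by
    have : 1 + s ≠ 0 := by linarith
    have : 1 - s ≠ 0 := by linarith
    have : 1 - s ^ 2 ≠ 0 := hs2.ne'
    field_simp
    ring
  simp only [Pi.sub_apply, Pi.mul_apply]
  rw [e1]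
  set L := log (1 + s) - log (1 - s) with hL
  set r := √(1 - s ^ 2) with hrdef
  rw [← hrr]
  have hs : s ^ 2 = 1 - r ^ 2 := by linarith
  field_simp
  linear_combination (-L) * hs

lemma Kf_nonneg {s : ℝ} (h0 : 0 < s) (h1 : s < 1) : 0 ≤ Kf s := by
  unfold Kf
  have := two_mul_le_log h0 h1
  have h2 : 0 ≤ log (1 + s) - log (1 - s) := by linarith
  positivity

lemma Kf_antitoneOn : AntitoneOn Kf (Set.Ioo 0 1) := by
  refine antitoneOn_of_deriv_nonpos (convex_Ioo 0 1) ?_ ?_ ?_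
  · intro s hs
    exact (Kf_hasDerivAt hs.1 hs.2).continuousAt.continuousWithinAt
  · intro s hs
    rw [interior_Ioo] at hs
    exact (Kf_hasDerivAt hs.1 hs.2).differentiableAt.differentiableWithinAt
  · intro s hs
    rw [interior_Ioo] at hs
    rw [(Kf_hasDerivAt hs.1 hs.2).deriv]
    have := two_mul_le_log hs.1 hs.2
    exact div_nonpos_of_nonpos_of_nonneg (by linarith) (by positivity)

lemma EoC_continuous : Continuous EoC := by
  unfold EoC
  exact binEntropy_continuous.comp (by fun_prop)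

lemma EoC_hasDerivAt {c : ℝ} (h0 : 0 < c) (h1 : c < 1) :
    HasDerivAt EoC (Kf √(1 - c ^ 2)) c := by
  have hc2 : 0 < 1 - c ^ 2 := by nlinarith
  set s := √(1 - c ^ 2) with hs
  have hs0 : 0 < s := Real.sqrt_pos.mpr hc2
  have hss : s ^ 2 = 1 - c ^ 2 := Real.sq_sqrt hc2.le
  have hs1 : s < 1 := by nlinarith
  have d1 : HasDerivAt (fun c : ℝ => √(1 - c ^ 2)) (-(2 * c) / (2 * s)) c := by
    have := ((hasDerivAt_pow 2 c).const_sub 1).sqrt hc2.ne'
    simpa using this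
  have d2 : HasDerivAt (fun c : ℝ => (1 + √(1 - c ^ 2)) / 2) (-(2 * c) / (2 * s) / 2) c :=
    (d1.const_add 1).div_const 2
  have d3 := Real.hasDerivAt_binEntropy (p := (1 + s) / 2) (by linarith) (by linarith)
  have d4 := HasDerivAt.comp c d3 d2
  refine HasDerivAt.congr_deriv d4 ?_
  unfold Kf
  have e1 : √(1 - s ^ 2) = c := by
    rw [hss]
    have : 1 - (1 - c ^ 2) = c ^ 2 := by ring
    rw [this, Real.sqrt_sq h0.le]
  have e2 : 1 - (1 + s) / 2 = (1 - s) / 2 := by ring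
  rw [e1, e2, Real.log_div (by linarith) (by norm_num), Real.log_div (by linarith) (by norm_num)]
  field_simp
  ring

lemma EoC_convexOn : ConvexOn ℝ (Set.Icc 0 1) EoC := by
  refine MonotoneOn.convexOn_of_deriv (convex_Icc 0 1) EoC_continuous.continuousOn ?_ ?_
  · intro c hc
    rw [interior_Icc] at hc
    exact (EoC_hasDerivAt hc.1 hc.2).differentiableAt.differentiableWithinAt
  · rw [interior_Icc]
    intro c hc c' hc' hcc
    rw [(EoC_hasDerivAt hc.1 hc.2).deriv, (EoC_hasDerivAt hc'.1 hc'.2).deriv]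
    have hm : ∀ x : ℝ, x ∈ Set.Ioo (0 : ℝ) 1 → √(1 - x ^ 2) ∈ Set.Ioo (0 : ℝ) 1 := by
      intro x hx
      have hx2 : 0 < 1 - x ^ 2 := by nlinarith [hx.1, hx.2]
      refine ⟨Real.sqrt_pos.mpr hx2, ?_⟩
      rw [Real.sqrt_lt' one_pos]
      nlinarith [hx.1]
    apply Kf_antitoneOn (hm _ hc') (hm _ hc)
    apply Real.sqrt_le_sqrt
    nlinarith [hc.1, hc'.1]

lemma EoC_monotoneOn : MonotoneOn EoC (Set.Icc 0 1) := by
  refine monotoneOn_of_deriv_nonneg (convex_Icc 0 1) EoC_continuous.continuousOn ?_ ?_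
  · intro c hc
    rw [interior_Icc] at hc
    exact (EoC_hasDerivAt hc.1 hc.2).differentiableAt.differentiableWithinAt
  · intro c hc
    rw [interior_Icc] at hc
    rw [(EoC_hasDerivAt hc.1 hc.2).deriv]
    have hx2 : 0 < 1 - c ^ 2 := by nlinarith [hc.1, hc.2]
    apply Kf_nonneg (Real.sqrt_pos.mpr hx2)
    rw [Real.sqrt_lt' one_pos]
    nlinarith [hc.1]

/-- concurrence -/
noncomputable def conc (γ ν p : ℝ) : ℝ :=
  √(4 * (γ * ν * (1 - ν) + γ * (1 - γ) * (p - ν) ^ 2))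

lemma gfun_eq_EoC {γ ν p : ℝ} (hγ : γ ∈ Set.Icc (0 : ℝ) 1) (hν : ν ∈ Set.Icc (0 : ℝ) 1) :
    gfun γ ν p = EoC (conc γ ν p) := by
  unfold gfun EoC conc
  rw [Real.sq_sqrt]
  have h1 : 0 ≤ γ * ν * (1 - ν) := mul_nonneg (mul_nonneg hγ.1 hν.1) (by linarith [hν.2])
  have h2 : 0 ≤ γ * (1 - γ) * (p - ν) ^ 2 :=
    mul_nonneg (mul_nonneg hγ.1 (by linarith [hγ.2])) (sq_nonneg _)
  linarith

lemma conc_mem {γ ν p : ℝ} (hγ : γ ∈ Set.Icc (0 : ℝ) 1) (hp : p ∈ Set.Icc (0 : ℝ) 1) :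
    conc γ ν p ∈ Set.Icc (0 : ℝ) 1 := by
  unfold conc
  refine ⟨Real.sqrt_nonneg _, ?_⟩
  rw [Real.sqrt_le_iff]
  refine ⟨zero_le_one, ?_⟩
  have h1 : 0 ≤ (1 - γ) * (p * (1 - p)) :=
    mul_nonneg (by linarith [hγ.2]) (mul_nonneg hp.1 (by linarith [hp.2]))
  have h2 : γ * ν * (1 - ν) + γ * (1 - γ) * (p - ν) ^ 2
      = ((1 - γ) * p + γ * ν) * (1 - ((1 - γ) * p + γ * ν)) - (1 - γ) * (p * (1 - p)) := by ring
  rw [h2]
  nlinarith [sq_nonneg (1 - 2 * ((1 - γ) * p + γ * ν))]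

lemma conc_convex {γ ν : ℝ} (hγ : γ ∈ Set.Icc (0 : ℝ) 1) (hν : ν ∈ Set.Icc (0 : ℝ) 1)
    {x y a b : ℝ} (ha : 0 ≤ a) (hb : 0 ≤ b) (hab : a + b = 1) :
    conc γ ν (a * x + b * y) ≤ a * conc γ ν x + b * conc γ ν y := by
  have h1 : 0 ≤ γ * ν * (1 - ν) := mul_nonneg (mul_nonneg hγ.1 hν.1) (by linarith [hν.2])
  have h2 : 0 ≤ γ * (1 - γ) := mul_nonneg hγ.1 (by linarith [hγ.2])
  set z : ℝ → ℂ := fun p => ⟨2 * √(γ * ν * (1 - ν)), 2 * √(γ * (1 - γ)) * (p - ν)⟩ with hz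
  have hn : ∀ p, conc γ ν p = ‖z p‖ := by
    intro p
    rw [Complex.norm_def, Complex.normSq_apply]
    unfold conc
    congr 1
    simp only [hz]
    have e1 := Real.mul_self_sqrt h1
    have e2 := Real.mul_self_sqrt h2
    have : 2 * √(γ * ν * (1 - ν)) * (2 * √(γ * ν * (1 - ν)))
        + 2 * √(γ * (1 - γ)) * (p - ν) * (2 * √(γ * (1 - γ)) * (p - ν))
        = 4 * (√(γ * ν * (1 - ν)) * √(γ * ν * (1 - ν)))
          + 4 * (√(γ * (1 - γ)) * √(γ * (1 - γ))) * (p - ν) ^ 2 := by ring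
    rw [this, e1, e2]
    ring
  rw [hn, hn, hn]
  have hz2 : z (a * x + b * y) = (a : ℂ) * z x + (b : ℂ) * z y := by
    apply Complex.ext
    · simp only [hz, Complex.add_re, Complex.re_ofReal_mul]
      rw [← add_mul, hab, one_mul]
    · simp only [hz, Complex.add_im, Complex.im_ofReal_mul]
      have : b = 1 - a := by linarith
      rw [this]
      ring
  rw [hz2]
  calc ‖(a : ℂ) * z x + (b : ℂ) * z y‖ ≤ ‖(a : ℂ) * z x‖ + ‖(b : ℂ) * z y‖ := norm_add_le _ _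
    _ = a * ‖z x‖ + b * ‖z y‖ := by
      rw [norm_mul, norm_mul, Complex.norm_real, Complex.norm_real, Real.norm_of_nonneg ha,
        Real.norm_of_nonneg hb]

theorem gfun_convexOn {γ ν : ℝ} (hγ : γ ∈ Set.Icc (0 : ℝ) 1) (hν : ν ∈ Set.Icc (0 : ℝ) 1) :
    ConvexOn ℝ (Set.Icc 0 1) (gfun γ ν) := by
  refine ⟨convex_Icc 0 1, ?_⟩
  intro x hx y hy a b ha hb hab
  simp only [smul_eq_mul]
  rw [gfun_eq_EoC hγ hν, gfun_eq_EoC hγ hν, gfun_eq_EoC hγ hν]
  have hxy : a * x + b * y ∈ Set.Icc (0 : ℝ) 1 := convex_Icc 0 1 hx hy ha hb hab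
  have hcx := conc_mem (ν := ν) hγ hx
  have hcy := conc_mem (ν := ν) hγ hy
  have hcc : a * conc γ ν x + b * conc γ ν y ∈ Set.Icc (0 : ℝ) 1 :=
    convex_Icc 0 1 hcx hcy ha hb hab
  calc EoC (conc γ ν (a * x + b * y)) ≤ EoC (a * conc γ ν x + b * conc γ ν y) :=
        EoC_monotoneOn (conc_mem hγ hxy) hcc (conc_convex hγ hν ha hb hab)
    _ ≤ a * EoC (conc γ ν x) + b * EoC (conc γ ν y) := by
        have := EoC_convexOn.2 hcx hcy ha hb hab
        simpa using this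

end Crest.Agent.GadCap
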