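import Crest.Agent.GadCap.Scalar

/-! Integrals and asymptotics of the scalar potentials. -/

set_option autoImplicit false

namespace Crest.Agent.GadCap

open Real Filter Topology MeasureTheory intervalIntegral

/-- `z log z` -/
noncomputable def ell (z : ℝ) : ℝ := z * log z

lemma intInt_log (μ a b : ℝ) : IntervalIntegrable (fun t => log (t + μ)) volume a b := by
  have := (intervalIntegrable_log' (a := a + μ) (b := b + μ)).comp_add_right μ
  simpa using this

lemma int_log (μ Λ : ℝ) : ∫ t in (0 : ℝ)..Λ, log (t + μ) = ell (Λ + μ) - ell μ - Λ := by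
  rw [intervalIntegral.integral_comp_add_right (fun t => log t), integral_log]
  unfold ell
  ring_nf

lemma ell_asym (μ : ℝ) :
    Tendsto (fun Λ => ell (Λ + μ) - ell Λ - μ * log Λ - μ) atTop (𝓝 0) := by
  have h1 := Real.tendsto_mul_log_one_add_div_atTop μ
  have h2 := (Real.tendsto_log_comp_add_sub_log μ).const_mul μ
  have h3 := (h1.add h2).sub_const μ
  simp only [mul_zero, add_zero, sub_self] at h3
  refine h3.congr' ?_
  filter_upwards [eventually_gt_atTop 0, eventually_gt_atTop (-μ)] with Λ h0 hμ
  have h4 : log (1 + μ / Λ) = log (Λ + μ) - log Λ := by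
    rw [← Real.log_div (by linarith) h0.ne']
    congr 1
    field_simp
  rw [h4]
  unfold ell
  ring

lemma int_phi {p q μ2 μ1 β a u Λ : ℝ} (h2 : 0 < μ2) (h1 : 0 < μ1) (hβ : 0 < β)
    (ha : 0 < a) (hu : 0 < u) (hΛ : a / u * β ≤ Λ) :
    ∫ t in (0 : ℝ)..Λ, phi p q μ2 μ1 β (max (u / a * t - β) 0)
      = a / u * β * phi p q μ2 μ1 β 0
        + a / u * (p * (ell (u / a * Λ - β + μ2) - ell μ2 - (u / a * Λ - β))
          + q * (ell (u / a * Λ - β + μ1) - ell μ1 - (u / a * Λ - β))
          - (ell (u / a * Λ - β + β) - ell β - (u / a * Λ - β))) := by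
  have hua : 0 < u / a := div_pos hu ha
  have hcont : Continuous fun t : ℝ => phi p q μ2 μ1 β (max (u / a * t - β) 0) := by
    have hc : Continuous fun t : ℝ => max (u / a * t - β) 0 := by fun_prop
    refine (phi_continuousOn h2 h1 hβ).comp_continuous hc fun t => ?_
    exact Set.mem_Ici.mpr (le_max_right _ _)
  have ht0 : 0 < a / u * β := by positivity
  rw [← intervalIntegral.integral_add_adjacent_intervals (b := a / u * β)
    (hcont.intervalIntegrable _ _) (hcont.intervalIntegrable _ _)]
  congr 1
  · have : ∀ t ∈ Set.uIcc 0 (a / u * β), phi p q μ2 μ1 β (max (u / a * t - β) 0)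
        = phi p q μ2 μ1 β 0 := by
      intro t ht
      rw [Set.uIcc_of_le ht0.le] at ht
      have h3 : u / a * t ≤ u / a * (a / u * β) := mul_le_mul_of_nonneg_left ht.2 hua.le
      have h4 : u / a * (a / u * β) = β := by field_simp
      rw [max_eq_right (show u / a * t - β ≤ 0 by linarith)]
    rw [intervalIntegral.integral_congr this, intervalIntegral.integral_const]
    simp
  · have : ∀ t ∈ Set.uIcc (a / u * β) Λ, phi p q μ2 μ1 β (max (u / a * t - β) 0)
        = phi p q μ2 μ1 β (u / a * t - β) := by
      intro t ht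
      rw [Set.uIcc_of_le hΛ] at ht
      have h3 : u / a * (a / u * β) ≤ u / a * t := mul_le_mul_of_nonneg_left ht.1 hua.le
      have h4 : u / a * (a / u * β) = β := by field_simp
      rw [max_eq_left (show 0 ≤ u / a * t - β by linarith)]
    rw [intervalIntegral.integral_congr this,
      intervalIntegral.integral_comp_mul_sub _ hua.ne']
    have h4 : u / a * (a / u * β) - β = 0 := by field_simp; ring
    rw [h4]
    have h5 : ∫ s in (0 : ℝ)..(u / a * Λ - β), phi p q μ2 μ1 β s
        = p * (ell (u / a * Λ - β + μ2) - ell μ2 - (u / a * Λ - β))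
          + q * (ell (u / a * Λ - β + μ1) - ell μ1 - (u / a * Λ - β))
          - (ell (u / a * Λ - β + β) - ell β - (u / a * Λ - β)) := by
      unfold phi
      rw [intervalIntegral.integral_sub, intervalIntegral.integral_add,
        intervalIntegral.integral_const_mul, intervalIntegral.integral_const_mul,
        int_log, int_log, int_log]
      · exact (intInt_log _ _ _).const_mul _
      · exact (intInt_log _ _ _).const_mul _
      · exact ((intInt_log _ _ _).const_mul _).add ((intInt_log _ _ _).const_mul _)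
      · exact intInt_log _ _ _
    rw [h5, smul_eq_mul]
    congr 1
    rw [inv_div]

lemma int_phi_asym {p q μ2 μ1 β a u : ℝ} (hpq : p + q = 1) (h2 : 0 < μ2) (h1 : 0 < μ1)
    (hβ : 0 < β) (ha : 0 < a) (hu : 0 < u) :
    Tendsto (fun Λ => (∫ t in (0 : ℝ)..Λ, phi p q μ2 μ1 β (max (u / a * t - β) 0))
      - a / u * β * phi p q μ2 μ1 β 0
      - a / u * ((p * μ2 + q * μ1 - β) * (log Λ + log (u / a) + 1))) atTop
      (𝓝 (- (a / u * (p * ell μ2 + q * ell μ1 - ell β)))) := by
  have hua : 0 < u / a := div_pos hu ha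
  have hZ : Tendsto (fun Λ : ℝ => u / a * Λ) atTop atTop :=
    tendsto_id.const_mul_atTop hua
  have e2 := ((ell_asym (μ2 - β)).comp hZ).const_mul p
  have e1 := ((ell_asym (μ1 - β)).comp hZ).const_mul q
  have e := ((e2.add e1).const_mul (a / u)).sub_const (a / u * (p * ell μ2 + q * ell μ1 - ell β))
  simp only [mul_zero, add_zero, zero_sub] at e
  refine e.congr' ?_
  filter_upwards [eventually_gt_atTop 0, eventually_ge_atTop (a / u * β)] with Λ h0 hΛ
  rw [int_phi h2 h1 hβ ha hu hΛ]
  simp only [Function.comp_apply]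
  rw [Real.log_mul hua.ne' h0.ne']
  have f2 : u / a * Λ - β + μ2 = u / a * Λ + (μ2 - β) := by ring
  have f1 : u / a * Λ - β + μ1 = u / a * Λ + (μ1 - β) := by ring
  have f0 : u / a * Λ - β + β = u / a * Λ := by ring
  rw [f2, f1, f0]
  have hq : q = 1 - p := by linarith
  subst hq
  ring

end Crest.Agent.GadCap
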