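import Crest.Agent.GadCap.Count
import Crest.Agent.GadCap.Integ

/-! The contribution of one side of the bipartite operator. -/

set_option autoImplicit false
set_option linter.unusedSectionVars false

namespace Crest.Agent.GadCap

open Matrix Finset MeasureTheory intervalIntegral Filter
open scoped ComplexOrder

variable {e f : Type*} [Fintype e] [DecidableEq e] [Fintype f] [DecidableEq f]

lemma IsDz.smul {M U : Matrix e e ℂ} {x : e → ℝ} (d : IsDz M U x) (r : ℝ) :
    IsDz ((r : ℂ) • M) U (fun i => r * x i) where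
  hU := d.hU
  hU' := d.hU'
  hM := by
    have : diagonal (fun i => ((r * x i : ℝ) : ℂ)) = (r : ℂ) • diagonal (fun i => (x i : ℂ)) := by
      rw [← diagonal_smul]
      congr 1
      ext i
      simp
    rw [this, Matrix.mul_smul, Matrix.smul_mul, ← d.hM]

/-- the potential as a function of the eigenvalue -/
noncomputable def Gpot (φ : ℝ → ℝ) (u β x : ℝ) : ℝ := if x ≤ 0 then 0 else φ (max (u / x - β) 0)

lemma step_intervalIntegrable (l a b : ℝ) :
    IntervalIntegrable (fun t : ℝ => if t ≤ l then (1 : ℝ) else 0) volume a b := by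
  apply Antitone.intervalIntegrable
  intro x y hxy
  dsimp only
  by_cases h : y ≤ l
  · rw [if_pos h, if_pos (hxy.trans h)]
  · rw [if_neg h]
    split_ifs <;> norm_num

lemma step_integral (l : ℝ) {Λ : ℝ} (hΛ : 0 ≤ Λ) :
    ∫ t in (0 : ℝ)..Λ, (if t ≤ l then (1 : ℝ) else 0) = max 0 (min l Λ) := by
  rcases le_total l 0 with hl | hl
  · rw [max_eq_left ((min_le_left _ _).trans hl)]
    apply intervalIntegral.integral_zero_ae
    refine Filter.Eventually.of_forall fun t ht => ?_
    rw [Set.uIoc_of_le hΛ] at ht
    rw [if_neg (by have := ht.1; linarith)]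
  · rcases le_total l Λ with hl2 | hl2
    · rw [min_eq_left hl2, max_eq_right hl,
        ← intervalIntegral.integral_add_adjacent_intervals (b := l)
          (step_intervalIntegrable _ _ _) (step_intervalIntegrable _ _ _)]
      have h1 : ∫ t in (0 : ℝ)..l, (if t ≤ l then (1 : ℝ) else 0) = l := by
        have : ∫ t in (0 : ℝ)..l, (if t ≤ l then (1 : ℝ) else 0) = ∫ t in (0 : ℝ)..l, (1 : ℝ) := by
          apply intervalIntegral.integral_congr
          intro t ht
          rw [Set.uIcc_of_le hl] at ht
          simp [ht.2]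
        rw [this]
        simp
      have h2 : ∫ t in l..Λ, (if t ≤ l then (1 : ℝ) else 0) = 0 := by
        apply intervalIntegral.integral_zero_ae
        refine Filter.Eventually.of_forall fun t ht => ?_
        rw [Set.uIoc_of_le hl2] at ht
        rw [if_neg (by have := ht.1; linarith)]
      rw [h1, h2, add_zero]
    · rw [min_eq_right hl2, max_eq_right hΛ]
      have : ∫ t in (0 : ℝ)..Λ, (if t ≤ l then (1 : ℝ) else 0) = ∫ t in (0 : ℝ)..Λ, (1 : ℝ) := by
        apply intervalIntegral.integral_congr
        intro t ht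
        rw [Set.uIcc_of_le hΛ] at ht
        simp [ht.2.trans hl2]
      rw [this]
      simp

lemma intInt_sum {ι : Type*} [Fintype ι] {F : ι → ℝ → ℝ} {a b : ℝ}
    (h : ∀ i, IntervalIntegrable (F i) volume a b) :
    IntervalIntegrable (fun t => ∑ i, F i t) volume a b := by
  have e1 : (fun t => ∑ i, F i t) = ∑ i, F i := by
    funext t
    rw [Finset.sum_apply]
  rw [e1]
  exact IntervalIntegrable.sum Finset.univ (fun i _ => h i)

/-- The contribution of one side. -/
theorem side {X : Matrix e f ℂ} {A L UA UL : Matrix e e ℂ} {av lv : e → ℝ}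
    (hA : A = X * Xᴴ) (dA : IsDz A UA av) (dL : IsDz L UL lv) (hL : ∀ k, 0 ≤ lv k)
    (hav : ∀ k, 0 < av k) {u β : ℝ} (hu : 0 < u) (hβ : 0 < β) (hsum : ∑ k, lv k = β)
    {φ : ℝ → ℝ} (hφ : GoodPot φ) {ε : ℝ} (hε : 0 < ε) {Λ : ℝ} (hΛ : 0 ≤ Λ) :
    ∃ g : ℝ → ℝ, IntervalIntegrable g volume 0 Λ ∧
      (∀ t : ℝ, 0 < t → ∀ (Y : Matrix e e ℂ) (α Ua : Matrix f f ℂ) (x : f → ℝ),
        Y = (t : ℂ) • (1 : Matrix e e ℂ) + L → Y.PosDef → α = Xᴴ * Y⁻¹ * X → IsDz α Ua x →
        g t ≤ ∑ i, Gpot φ u β (x i)) ∧
      ∑ k, (∫ t in (0 : ℝ)..Λ, φ (max (u / av k * t - β) 0)) - Fintype.card e * (ε * Λ) - φ 0 * β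
        ≤ ∫ t in (0 : ℝ)..Λ, g t := by
  classical
  obtain ⟨N, s, hs0, hs⟩ := hφ.thresholds hε
  have hAh : A.IsHermitian := dA.isHermitian
  have hLh : L.IsHermitian := dL.isHermitian
  -- thresholds in the eigenvalue variable
  set xx : Fin N → ℝ := fun j => u / (s j + β) with hxx
  have hsp : ∀ j, 0 < s j + β := fun j => by have := hs0 j; linarith
  have hxp : ∀ j, 0 < xx j := fun j => div_pos hu (hsp j)
  have hHh : ∀ j, ((((xx j)⁻¹ : ℝ) : ℂ) • A - L).IsHermitian := by
    intro j
    exact ((dA.smul (xx j)⁻¹).isHermitian).sub hLh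
  set lam : Fin N → e → ℝ := fun j => (hHh j).eigenvalues with hlam
  have dH : ∀ j, IsDz ((((xx j)⁻¹ : ℝ) : ℂ) • A - L)
      ((hHh j).eigenvectorUnitary : Matrix e e ℂ) (lam j) := fun j => isDz_of_isHermitian (hHh j)
  refine ⟨fun t => ε * ∑ j, ∑ k, (if t ≤ lam j k then (1 : ℝ) else 0), ?_, ?_, ?_⟩
  · apply IntervalIntegrable.const_mul
    exact intInt_sum fun j => intInt_sum fun k => step_intervalIntegrable _ _ _
  · intro t ht Y α Ua x hY hYp hα da
    -- pointwise bound
    have h1 : ∀ i, ε * (∑ j, if xx j ≤ x i then (1 : ℝ) else 0) ≤ Gpot φ u β (x i) := by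
      intro i
      unfold Gpot
      split_ifs with h
      · have : ∀ j, (if xx j ≤ x i then (1 : ℝ) else 0) = 0 := by
          intro j
          rw [if_neg (by have := hxp j; linarith)]
        simp [this]
      · push Not at h
        have h2 := (hs (max (u / x i - β) 0) (le_max_right _ _)).1
        refine le_trans (le_of_eq ?_) h2
        congr 1
        refine Finset.sum_congr rfl fun j _ => ?_
        have : xx j ≤ x i ↔ max (u / x i - β) 0 ≤ s j := by
          rw [max_le_iff]
          constructor
          · intro h3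
            refine ⟨?_, hs0 j⟩
            have h4 : u / (s j + β) ≤ x i := h3
            rw [div_le_iff₀ (hsp j)] at h4
            have : u / x i ≤ s j + β := by
              rw [div_le_iff₀ h]
              linarith
            linarith
          · rintro ⟨h3, -⟩
            have h4 : u / x i ≤ s j + β := by linarith
            rw [div_le_iff₀ h] at h4
            change u / (s j + β) ≤ x i
            rw [div_le_iff₀ (hsp j)]
            linarith
        simp only [this]
    have h2 : ∀ j, ∑ k, (if t ≤ lam j k then (1 : ℝ) else 0)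
        ≤ ∑ i, (if xx j ≤ x i then (1 : ℝ) else 0) := by
      intro j
      have := count_pencil (hxp j) hA hY hYp (dH j) rfl da hα
      rw [Fintype.card_subtype, Fintype.card_subtype] at this
      rw [Finset.sum_boole, Finset.sum_boole]
      exact_mod_cast this
    calc ε * ∑ j, ∑ k, (if t ≤ lam j k then (1 : ℝ) else 0)
        ≤ ε * ∑ j, ∑ i, (if xx j ≤ x i then (1 : ℝ) else 0) :=
          mul_le_mul_of_nonneg_left (Finset.sum_le_sum fun j _ => h2 j) hε.le
      _ = ∑ i, ε * (∑ j, if xx j ≤ x i then (1 : ℝ) else 0) := by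
          rw [Finset.sum_comm, Finset.mul_sum]
      _ ≤ _ := Finset.sum_le_sum fun i _ => h1 i
  · -- integral
    have hint : ∀ (ι : Type) [Fintype ι] (l : ι → ℝ),
        ∫ t in (0 : ℝ)..Λ, ∑ i, (if t ≤ l i then (1 : ℝ) else 0) = ∑ i, max 0 (min (l i) Λ) := by
      intro ι _ l
      rw [intervalIntegral.integral_finsetSum (fun i _ => step_intervalIntegrable _ _ _)]
      exact Finset.sum_congr rfl fun i _ => step_integral _ hΛ
    have hg : ∫ t in (0 : ℝ)..Λ, ε * ∑ j, ∑ k, (if t ≤ lam j k then (1 : ℝ) else 0)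
        = ε * ∑ j, ∑ k, max 0 (min (lam j k) Λ) := by
      rw [intervalIntegral.integral_const_mul]
      congr 1
      rw [intervalIntegral.integral_finsetSum]
      · refine Finset.sum_congr rfl fun j _ => ?_
        rw [intervalIntegral.integral_finsetSum (fun i _ => step_intervalIntegrable _ _ _)]
        exact Finset.sum_congr rfl fun i _ => step_integral _ hΛ
      · intro j _
        exact intInt_sum fun k => step_intervalIntegrable _ _ _
    rw [hg]
    -- Jensen
    have hJ : ∀ j, ∑ k, min ((xx j)⁻¹ * av k) Λ - β ≤ ∑ k, min (lam j k) Λ := by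
      intro j
      have hconc : ConcaveOn ℝ Set.univ (fun z : ℝ => min z Λ) :=
        (concaveOn_id convex_univ).inf (concaveOn_const _ convex_univ)
      have := jensen_sum (dH j) (dA.smul (xx j)⁻¹) (dL.smul (-1))
        (by push_cast; rw [neg_smul, one_smul, sub_eq_add_neg]) hconc
        (fun k => min ((xx j)⁻¹ * av k) Λ) (fun k => - lv k) (fun _ _ => Set.mem_univ _) (by
          intro i k
          have h1 := hL k
          have h2 := min_le_left ((xx j)⁻¹ * av i) Λ
          have h3 := min_le_right ((xx j)⁻¹ * av i) Λ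
          refine le_min ?_ ?_ <;> linarith)
      rw [Finset.sum_neg_distrib, hsum] at this
      linarith
    have hN : ε * N ≤ φ 0 := by
      have := (hs 0 le_rfl).1
      have h1 : (∑ j : Fin N, if (0 : ℝ) ≤ s j then (1 : ℝ) else 0) = N := by
        simp [hs0]
      rwa [h1] at this
    have hk : ∀ k, ∫ t in (0 : ℝ)..Λ, φ (max (u / av k * t - β) 0)
        ≤ ε * Λ + ε * ∑ j, min ((xx j)⁻¹ * av k) Λ := by
      intro k
      have e1 : ε * ∑ j, min ((xx j)⁻¹ * av k) Λ
          = ∫ t in (0 : ℝ)..Λ, ε * ∑ j, (if t ≤ (xx j)⁻¹ * av k then (1 : ℝ) else 0) := by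
        rw [intervalIntegral.integral_const_mul,
          intervalIntegral.integral_finsetSum (fun i _ => step_intervalIntegrable _ _ _)]
        congr 1
        refine Finset.sum_congr rfl fun j _ => ?_
        rw [step_integral _ hΛ, max_eq_right]
        exact le_min (mul_nonneg (inv_nonneg.mpr (hxp j).le) (hav k).le) hΛ
      have e2 : ε * Λ = ∫ t in (0 : ℝ)..Λ, ε := by
        simp [mul_comm]
      have hi1 : IntervalIntegrable
          (fun t : ℝ => ε * ∑ j, (if t ≤ (xx j)⁻¹ * av k then (1 : ℝ) else 0)) volume 0 Λ := by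
        apply IntervalIntegrable.const_mul
        exact intInt_sum fun j => step_intervalIntegrable _ _ _
      have hi2 : IntervalIntegrable (fun t : ℝ => φ (max (u / av k * t - β) 0)) volume 0 Λ := by
        apply Continuous.intervalIntegrable
        have hc : Continuous fun t : ℝ => max (u / av k * t - β) 0 := by fun_prop
        refine hφ.cont.comp_continuous hc fun t => ?_
        exact Set.mem_Ici.mpr (le_max_right _ _)
      rw [e1, e2, ← intervalIntegral.integral_add (by simp) hi1]
      refine intervalIntegral.integral_mono_on hΛ hi2 ((by simp : IntervalIntegrable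
        (fun _ => ε) volume 0 Λ).add hi1) fun t ht => ?_
      have h2 := (hs (max (u / av k * t - β) 0) (le_max_right _ _)).2
      have h3 : ∀ j, (t ≤ (xx j)⁻¹ * av k) ↔ max (u / av k * t - β) 0 ≤ s j := by
        intro j
        rw [max_le_iff]
        have e3 : (xx j)⁻¹ * av k = (s j + β) * (av k / u) := by
          simp only [hxx]
          rw [inv_div]
          ring
        have e4 : u / av k * t = t / (av k / u) := by
          have := (hav k).ne'
          have := hu.ne'
          field_simp
        have hp : 0 < av k / u := div_pos (hav k) hu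
        rw [e3, e4]
        constructor
        · intro h4
          refine ⟨?_, hs0 j⟩
          have : t / (av k / u) ≤ s j + β := (div_le_iff₀ hp).mpr h4
          linarith
        · rintro ⟨h4, -⟩
          exact (div_le_iff₀ hp).mp (by linarith)
      simp only [h3]
      linarith
    calc ∑ k, (∫ t in (0 : ℝ)..Λ, φ (max (u / av k * t - β) 0))
          - Fintype.card e * (ε * Λ) - φ 0 * β
        ≤ ∑ k, (ε * Λ + ε * ∑ j, min ((xx j)⁻¹ * av k) Λ) - Fintype.card e * (ε * Λ) - φ 0 * β := by
          have := Finset.sum_le_sum fun k (_ : k ∈ Finset.univ) => hk k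
          linarith
      _ = ε * ∑ j, ∑ k, min ((xx j)⁻¹ * av k) Λ - φ 0 * β := by
          rw [Finset.sum_add_distrib, Finset.sum_const, Finset.card_univ, nsmul_eq_mul,
            Finset.sum_comm, Finset.mul_sum]
          ring
      _ ≤ ε * ∑ j, ∑ k, min ((xx j)⁻¹ * av k) Λ - ε * N * β := by
          have := mul_le_mul_of_nonneg_right hN hβ.le
          linarith
      _ = ε * ∑ j, (∑ k, min ((xx j)⁻¹ * av k) Λ - β) := by
          rw [Finset.sum_sub_distrib, Finset.sum_const, Finset.card_univ, Fintype.card_fin,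
            nsmul_eq_mul]
          ring
      _ ≤ ε * ∑ j, ∑ k, min (lam j k) Λ :=
          mul_le_mul_of_nonneg_left (Finset.sum_le_sum fun j _ => hJ j) hε.le
      _ ≤ ε * ∑ j, ∑ k, max 0 (min (lam j k) Λ) :=
          mul_le_mul_of_nonneg_left (Finset.sum_le_sum fun j _ =>
            Finset.sum_le_sum fun k _ => le_max_right _ _) hε.le

end Crest.Agent.GadCap
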