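import Crest.Agent.GadCap.Det
import Crest.Agent.GadCap.Side

/-! The entropy inequality for one use of the channel on half of a bipartite state. -/

set_option autoImplicit false
set_option linter.unusedSectionVars false

namespace Crest.Agent.GadCap

open Matrix Finset MeasureTheory intervalIntegral Filter Topology
open scoped ComplexOrder

variable {e f : Type*} [Fintype e] [DecidableEq e] [Fintype f] [DecidableEq f]

lemma isUnit_det_of_posDef {M : Matrix e e ℂ} (h : M.PosDef) : IsUnit M.det :=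
  (Matrix.isUnit_iff_isUnit_det _).mp h.isUnit

lemma posDef_shift {M : Matrix e e ℂ} (h : M.PosSemidef) {t : ℝ} (ht : 0 < t) :
    ((t : ℂ) • (1 : Matrix e e ℂ) + M).PosDef := by
  refine PosDef.add_posSemidef ?_ h
  have : (t : ℂ) • (1 : Matrix e e ℂ) = diagonal fun _ => (t : ℂ) := by
    rw [← diagonal_one, ← diagonal_smul]
    congr 1
    ext i
    simp
  rw [this, posDef_diagonal_iff]
  intro i
  exact_mod_cast ht

lemma posSemidef_smul {M : Matrix e e ℂ} (h : M.PosSemidef) {t : ℝ} (ht : 0 ≤ t) :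
    ((t : ℂ) • M).PosSemidef := by
  apply h.smul
  exact_mod_cast ht

theorem pointwise (P : SPar) {X0 X1 : Matrix e f ℂ} {A C UA UC : Matrix e e ℂ} {av cv : e → ℝ}
    {κ : ℝ} (hκ : κ * κ = P.a - P.b)
    (hA : A = X0 * X0ᴴ) (hC : C = X1 * X1ᴴ) (dA : IsDz A UA av) (dC : IsDz C UC cv)
    {M UM : Matrix (e ⊕ e) (e ⊕ e) ℂ} {mv : e ⊕ e → ℝ} (dM : IsDz M UM mv)
    (hM : M = fromBlocks ((P.a : ℂ) • A + (P.b : ℂ) • C) ((κ : ℂ) • (X0 * X1ᴴ))
      ((κ : ℂ) • (X1 * X0ᴴ)) ((P.a' : ℂ) • A + (P.b' : ℂ) • C))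
    {t : ℝ} (ht : 0 < t) {α ρ Ua Ur : Matrix f f ℂ} {x y : f → ℝ}
    (hα : α = X0ᴴ * ((t : ℂ) • (1 : Matrix e e ℂ) + (P.b : ℂ) • C)⁻¹ * X0) (dα : IsDz α Ua x)
    (hρ : ρ = X1ᴴ * ((t : ℂ) • (1 : Matrix e e ℂ) + (P.a' : ℂ) • A)⁻¹ * X1) (dρ : IsDz ρ Ur y) :
    (∀ k, t + mv k ≠ 0) ∧
    ∑ j, Real.log (t + P.b * cv j) + ∑ k, Real.log (t + P.a' * av k)
      + ∑ i, P.G0 (x i) + ∑ j, P.G1 (y j) ≤ ∑ k, Real.log (t + mv k) := by
  have hAp : A.PosSemidef := by rw [hA]; exact posSemidef_self_mul_conjTranspose _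
  have hCp : C.PosSemidef := by rw [hC]; exact posSemidef_self_mul_conjTranspose _
  set Y0 := (t : ℂ) • (1 : Matrix e e ℂ) + (P.b : ℂ) • C with hY0
  set Y1 := (t : ℂ) • (1 : Matrix e e ℂ) + (P.a' : ℂ) • A with hY1
  have pY0 : Y0.PosDef := posDef_shift (posSemidef_smul hCp P.pb.le) ht
  have pY1 : Y1.PosDef := posDef_shift (posSemidef_smul hAp P.pa'.le) ht
  have pα : α.PosSemidef := by
    rw [hα]; exact pY0.inv.posSemidef.conjTranspose_mul_mul_same X0
  have pρ : ρ.PosSemidef := by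
    rw [hρ]; exact pY1.inv.posSemidef.conjTranspose_mul_mul_same X1
  have hx : ∀ i, 0 ≤ x i := fun i => dα.nonneg pα i
  have hy : ∀ i, 0 ≤ y i := fun i => dρ.nonneg pρ i
  have hcv : ∀ i, 0 ≤ cv i := fun i => dC.nonneg hCp i
  have hav : ∀ i, 0 ≤ av i := fun i => dA.nonneg hAp i
  have pa := P.pa
  have pb := P.pb
  have pa' := P.pa'
  have pb' := P.pb'
  have hc : 0 < P.a' * P.b := mul_pos pa' pb
  have hB : ∀ i, 0 < P.b' + P.a' * P.b * x i := fun i =>
    add_pos_of_pos_of_nonneg pb' (mul_nonneg hc.le (hx i))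
  have hone : ∀ i, 0 < 1 + P.a * x i := fun i =>
    add_pos_of_pos_of_nonneg one_pos (mul_nonneg pa.le (hx i))
  -- the kernel matrix
  set Ξ : Matrix f f ℂ := diagonal (fun i => (((1 + P.a * x i) / (P.b' + P.a' * P.b * x i) : ℝ) : ℂ))
    with hΞ
  set ρ' : Matrix f f ℂ := Uaᴴ * ρ * Ua with hρ'
  have pΞ : Ξ.PosDef := by
    rw [hΞ, posDef_diagonal_iff]
    intro i
    exact_mod_cast div_pos (hone i) (hB i)
  have pρ' : ρ'.PosSemidef := pρ.conjTranspose_mul_mul_same Ua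
  have pN : (Ξ + ρ').PosDef := pΞ.add_posSemidef pρ'
  have dΞ : IsDz Ξ 1 (fun i => (1 + P.a * x i) / (P.b' + P.a' * P.b * x i)) :=
    ⟨by simp, by simp, by simp [hΞ]⟩
  have dρ' : IsDz ρ' (Uaᴴ * Ur) y := by
    refine ⟨?_, ?_, ?_⟩
    · rw [conjTranspose_mul, conjTranspose_conjTranspose]
      calc Urᴴ * Ua * (Uaᴴ * Ur) = Urᴴ * (Ua * Uaᴴ) * Ur := by simp only [Matrix.mul_assoc]
        _ = 1 := by rw [dα.hU', Matrix.mul_one, dρ.hU]
    · rw [conjTranspose_mul, conjTranspose_conjTranspose]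
      calc Uaᴴ * Ur * (Urᴴ * Ua) = Uaᴴ * (Ur * Urᴴ) * Ua := by simp only [Matrix.mul_assoc]
        _ = 1 := by rw [dρ.hU', Matrix.mul_one, dα.hU]
    · rw [conjTranspose_mul, conjTranspose_conjTranspose, hρ', dρ.hM]
      simp only [Matrix.mul_assoc]
  have dN := isDz_of_isHermitian pN.isHermitian
  set nv := pN.isHermitian.eigenvalues with hnv
  have hnvp : ∀ k, 0 < nv k := fun k => dN.pos pN k
  -- determinants
  have hu : IsUnit (1 + (P.a : ℂ) • α).det := by
    apply isUnit_det_of_posDef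
    have := posDef_shift (posSemidef_smul pα pa.le) one_pos
    simpa using this
  have hk : (P.a : ℂ) * (P.b' : ℂ) - (κ : ℂ) * (κ : ℂ) = ((P.a' * P.b : ℝ) : ℂ) := by
    have h1 := P.ha
    have h2 := P.hb
    have : P.a * P.b' - κ * κ = P.a' * P.b := by
      rw [hκ]
      have e1 : P.a' = 1 - P.a := by linarith
      have e2 : P.b' = 1 - P.b := by linarith
      rw [e1, e2]
      ring
    rw [← this]
    push_cast
    ring
  have hdet := det_formula (X0 := X0) (X1 := X1) (isUnit_det_of_posDef pY0)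
    (isUnit_det_of_posDef pY1) hα hρ hu hk
  rw [det_diag dα (fun i => (hB i).ne')] at hdet
  have hMt : (t : ℂ) • (1 : Matrix (e ⊕ e) (e ⊕ e) ℂ) + M
      = fromBlocks (Y0 + (P.a : ℂ) • (X0 * X0ᴴ)) ((κ : ℂ) • (X0 * X1ᴴ)) ((κ : ℂ) • (X1 * X0ᴴ))
        (Y1 + (P.b' : ℂ) • (X1 * X1ᴴ)) := by
    rw [hM, ← fromBlocks_one, fromBlocks_smul, fromBlocks_add, hY0, hY1, ← hA, ← hC]
    congr 1
    · abel
    · simp
    · simp
    · abel
  have hdN : (Ξ + ρ').det = ((∏ k, nv k : ℝ) : ℂ) := by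
    have := dN.det_add 0
    simpa using this
  have hdC : Y0.det = ((∏ j, (t + P.b * cv j) : ℝ) : ℂ) := (dC.smul P.b).det_add t
  have hdA : Y1.det = ((∏ j, (t + P.a' * av j) : ℝ) : ℂ) := (dA.smul P.a').det_add t
  rw [← hMt, dM.det_add, ← hΞ, ← hρ', hdN, hdC, hdA] at hdet
  have hreal : ∏ k, (t + mv k) = (∏ j, (t + P.b * cv j)) * (∏ j, (t + P.a' * av j))
      * ((∏ i, (P.b' + P.a' * P.b * x i)) * ∏ k, nv k) := by
    exact_mod_cast hdet
  have q1 : ∀ j, 0 < t + P.b * cv j := fun j =>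
    add_pos_of_pos_of_nonneg ht (mul_nonneg pb.le (hcv j))
  have q2 : ∀ j, 0 < t + P.a' * av j := fun j =>
    add_pos_of_pos_of_nonneg ht (mul_nonneg pa'.le (hav j))
  have r1 : 0 < ∏ j, (t + P.b * cv j) := Finset.prod_pos fun j _ => q1 j
  have r2 : 0 < ∏ j, (t + P.a' * av j) := Finset.prod_pos fun j _ => q2 j
  have r3 : 0 < ∏ i, (P.b' + P.a' * P.b * x i) := Finset.prod_pos fun j _ => hB j
  have r4 : 0 < ∏ k, nv k := Finset.prod_pos fun j _ => hnvp j
  have hne : ∀ k, t + mv k ≠ 0 := by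
    have : ∏ k, (t + mv k) ≠ 0 := by
      rw [hreal]; positivity
    intro k
    exact Finset.prod_ne_zero_iff.mp this k (Finset.mem_univ _)
  refine ⟨hne, ?_⟩
  have hlog : ∑ k, Real.log (t + mv k) = ∑ j, Real.log (t + P.b * cv j)
      + ∑ k, Real.log (t + P.a' * av k)
      + (∑ i, Real.log (P.b' + P.a' * P.b * x i) + ∑ k, Real.log (nv k)) := by
    rw [← Real.log_prod (fun k _ => hne k), hreal, Real.log_mul (by positivity) (by positivity),
      Real.log_mul (by positivity) (by positivity), Real.log_mul (by positivity) (by positivity),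
      Real.log_prod (fun j _ => (q1 j).ne'), Real.log_prod (fun j _ => (q2 j).ne'),
      Real.log_prod (fun j _ => (hB j).ne'), Real.log_prod (fun j _ => (hnvp j).ne')]
  rw [hlog]
  have hJ := jensen_sum dN dΞ dρ' rfl strictConcaveOn_log_Ioi.concaveOn
    (fun i => P.G0 (x i) - Real.log (P.b' + P.a' * P.b * x i)) (fun j => P.G1 (y j))
    (fun i j => Set.mem_Ioi.mpr (add_pos_of_pos_of_nonneg (div_pos (hone i) (hB i)) (hy j)))
    (by
      intro i j
      have h1 := P.pot (hx i) (hy j)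
      have h2 : 1 + P.a * x i + P.b' * y j + P.a' * P.b * x i * y j
          = (P.b' + P.a' * P.b * x i)
            * ((1 + P.a * x i) / (P.b' + P.a' * P.b * x i) + y j) := by
        rw [mul_add, mul_div_cancel₀ _ (hB i).ne']
        ring
      rw [h2, Real.log_mul (hB i).ne'
        (add_pos_of_pos_of_nonneg (div_pos (hone i) (hB i)) (hy j)).ne'] at h1
      linarith)
  rw [Finset.sum_sub_distrib] at hJ
  linarith

lemma SPar.good0 (P : SPar) : GoodPot P.phi0 := by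
  have pa := P.pa
  have pb := P.pb
  have pa' := P.pa'
  have pb' := P.pb'
  have pu := P.pu
  have pw := P.pw
  have hm0 := P.hm0
  have hm1 := P.hm1
  have hθ := P.hθ
  refine ⟨phi_antitoneOn hθ P.pμ2 P.pμ1 (by positivity) ?_ ?_,
    phi_continuousOn P.pμ2 P.pμ1 (by positivity), phi_tendsto hθ⟩
  · rw [hm0]
    have : 0 < P.a * P.u := by positivity
    linarith
  · rw [hm1, P.hdet]
    have h1 : P.a' = 1 - P.a := by linarith [P.ha]
    have h2 : P.b' = 1 - P.b := by linarith [P.hb]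
    have h3 : 0 ≤ P.u * (P.a * P.a' * P.u + P.a' * P.b * P.w) := by positivity
    have h4 : (P.a * P.u + P.b * P.w) * (P.a' * P.u + P.b' * P.w) - (P.a - P.b) * P.u * P.w
        - (P.a' * P.u + P.b' * P.w) * (P.b * P.w)
        = P.u * (P.a * P.a' * P.u + P.a' * P.b * P.w) := by
      rw [h1, h2]; ring
    linarith

lemma SPar.good1 (P : SPar) : GoodPot P.phi1 := by
  have pa := P.pa
  have pb := P.pb
  have pa' := P.pa'
  have pb' := P.pb'
  have pu := P.pu
  have pw := P.pw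
  have hm0 := P.hm0
  have hm1 := P.hm1
  have hθ : P.θ2 + P.θ1 = 1 := by linarith [P.hθ]
  refine ⟨phi_antitoneOn hθ P.pμ2 P.pμ1 (by positivity) ?_ ?_,
    phi_continuousOn P.pμ2 P.pμ1 (by positivity), phi_tendsto hθ⟩
  · rw [add_comm (P.θ2 * P.μ2), hm1]
    have : 0 < P.b' * P.w := by positivity
    linarith
  · rw [add_comm (P.θ2 * P.μ1), hm0, P.hdet]
    have h1 : P.a' = 1 - P.a := by linarith [P.ha]
    have h2 : P.b' = 1 - P.b := by linarith [P.hb]
    have h3 : 0 ≤ P.w * (P.b * P.b' * P.w + P.a' * P.b * P.u) := by positivity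
    have h4 : (P.a * P.u + P.b * P.w) * (P.a' * P.u + P.b' * P.w) - (P.a - P.b) * P.u * P.w
        - (P.a * P.u + P.b * P.w) * (P.a' * P.u)
        = P.w * (P.b * P.b' * P.w + P.a' * P.b * P.u) := by
      rw [h1, h2]; ring
    linarith

/-- integrated inequality, with the limit `ε → 0` taken -/
theorem core_int (P : SPar) {X0 X1 : Matrix e f ℂ} {A C UA UC : Matrix e e ℂ} {av cv : e → ℝ}
    {κ : ℝ} (hκ : κ * κ = P.a - P.b)
    (hA : A = X0 * X0ᴴ) (hC : C = X1 * X1ᴴ) (dA : IsDz A UA av) (dC : IsDz C UC cv)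
    (hav : ∀ k, 0 < av k) (hcv : ∀ k, 0 < cv k) (hu : ∑ k, av k = P.u) (hw : ∑ k, cv k = P.w)
    {M UM : Matrix (e ⊕ e) (e ⊕ e) ℂ} {mv : e ⊕ e → ℝ} (dM : IsDz M UM mv)
    (hM : M = fromBlocks ((P.a : ℂ) • A + (P.b : ℂ) • C) ((κ : ℂ) • (X0 * X1ᴴ))
      ((κ : ℂ) • (X1 * X0ᴴ)) ((P.a' : ℂ) • A + (P.b' : ℂ) • C))
    {Λ : ℝ} (hΛ : 0 ≤ Λ) :
    ∑ j, (ell (Λ + P.b * cv j) - ell (P.b * cv j) - Λ)
      + ∑ k, (ell (Λ + P.a' * av k) - ell (P.a' * av k) - Λ)
      + (∑ k, (∫ t in (0 : ℝ)..Λ, P.phi0 (max (P.u / av k * t - P.b * P.w) 0))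
        - P.phi0 0 * (P.b * P.w))
      + (∑ k, (∫ t in (0 : ℝ)..Λ, P.phi1 (max (P.w / cv k * t - P.a' * P.u) 0))
        - P.phi1 0 * (P.a' * P.u))
      ≤ ∑ k, (ell (Λ + mv k) - ell (mv k) - Λ) := by
  have pa := P.pa
  have pb := P.pb
  have pa' := P.pa'
  have pb' := P.pb'
  have pu := P.pu
  have pw := P.pw
  -- it suffices to prove it up to ε
  have main : ∀ ε : ℝ, 0 < ε → ∑ j, (ell (Λ + P.b * cv j) - ell (P.b * cv j) - Λ)
      + ∑ k, (ell (Λ + P.a' * av k) - ell (P.a' * av k) - Λ)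
      + (∑ k, (∫ t in (0 : ℝ)..Λ, P.phi0 (max (P.u / av k * t - P.b * P.w) 0))
        - Fintype.card e * (ε * Λ) - P.phi0 0 * (P.b * P.w))
      + (∑ k, (∫ t in (0 : ℝ)..Λ, P.phi1 (max (P.w / cv k * t - P.a' * P.u) 0))
        - Fintype.card e * (ε * Λ) - P.phi1 0 * (P.a' * P.u))
      ≤ ∑ k, (ell (Λ + mv k) - ell (mv k) - Λ) := by
    intro ε hε
    obtain ⟨g0, hi0, hg0, hint0⟩ := side hA dA (dC.smul P.b)
      (fun k => mul_nonneg pb.le (hcv k).le) hav pu (mul_pos pb pw)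
      (by rw [← Finset.mul_sum, hw]) P.good0 hε hΛ
    obtain ⟨g1, hi1, hg1, hint1⟩ := side hC dC (dA.smul P.a')
      (fun k => mul_nonneg pa'.le (hav k).le) hcv pw (mul_pos pa' pu)
      (by rw [← Finset.mul_sum, hu]) P.good1 hε hΛ
    have hAp : A.PosSemidef := by rw [hA]; exact posSemidef_self_mul_conjTranspose _
    have hCp : C.PosSemidef := by rw [hC]; exact posSemidef_self_mul_conjTranspose _
    have hpt : ∀ t : ℝ, 0 < t →
        ∑ j, Real.log (t + P.b * cv j) + ∑ k, Real.log (t + P.a' * av k) + g0 t + g1 t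
          ≤ ∑ k, Real.log (t + mv k) := by
      intro t ht
      have pY0 := posDef_shift (posSemidef_smul hCp pb.le) ht
      have pY1 := posDef_shift (posSemidef_smul hAp pa'.le) ht
      have pα := pY0.inv.posSemidef.conjTranspose_mul_mul_same X0
      have pρ := pY1.inv.posSemidef.conjTranspose_mul_mul_same X1
      have dα := isDz_of_isHermitian pα.isHermitian
      have dρ := isDz_of_isHermitian pρ.isHermitian
      have h1 := (pointwise P hκ hA hC dA dC dM hM ht rfl dα rfl dρ).2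
      have h2 := hg0 t ht _ _ _ _ rfl pY0 rfl dα
      have h3 := hg1 t ht _ _ _ _ rfl pY1 rfl dρ
      have h4 : ∑ i, Gpot P.phi0 P.u (P.b * P.w) (pα.isHermitian.eigenvalues i)
          = ∑ i, P.G0 (pα.isHermitian.eigenvalues i) := rfl
      have h5 : ∑ i, Gpot P.phi1 P.w (P.a' * P.u) (pρ.isHermitian.eigenvalues i)
          = ∑ i, P.G1 (pρ.isHermitian.eigenvalues i) := rfl
      rw [h4] at h2
      rw [h5] at h3
      linarith
    have i1 : IntervalIntegrable (fun t => ∑ j, Real.log (t + P.b * cv j)) volume 0 Λ :=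
      intInt_sum fun j => intInt_log _ _ _
    have i2 : IntervalIntegrable (fun t => ∑ j, Real.log (t + P.a' * av j)) volume 0 Λ :=
      intInt_sum fun j => intInt_log _ _ _
    have i3 : IntervalIntegrable (fun t => ∑ j, Real.log (t + mv j)) volume 0 Λ :=
      intInt_sum fun j => intInt_log _ _ _
    have hI := intervalIntegral.integral_mono_on_of_le_Ioo hΛ
      (((i1.add i2).add hi0).add hi1) i3 (fun t ht => hpt t ht.1)
    have e0 : ∀ (ι : Type _) [Fintype ι] (v : ι → ℝ),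
        ∫ t in (0 : ℝ)..Λ, ∑ j, Real.log (t + v j) = ∑ j, (ell (Λ + v j) - ell (v j) - Λ) := by
      intro ι _ v
      rw [intervalIntegral.integral_finsetSum (fun j _ => intInt_log _ _ _)]
      exact Finset.sum_congr rfl fun j _ => int_log _ _
    rw [intervalIntegral.integral_add ((i1.add i2).add hi0) hi1,
      intervalIntegral.integral_add (i1.add i2) hi0,
      intervalIntegral.integral_add i1 i2, e0, e0, e0] at hI
    linarith
  -- let ε → 0
  refine le_of_forall_pos_le_add fun δ hδ => ?_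
  have hc : 0 < 2 * (Fintype.card e * Λ) + 1 := by positivity
  have := main (δ / (2 * (Fintype.card e * Λ) + 1)) (div_pos hδ hc)
  have h1 : 2 * (Fintype.card e * (δ / (2 * (Fintype.card e * Λ) + 1) * Λ)) ≤ δ := by
    have : 2 * (Fintype.card e * (δ / (2 * (Fintype.card e * Λ) + 1) * Λ))
        = δ * ((2 * (Fintype.card e * Λ)) / (2 * (Fintype.card e * Λ) + 1)) := by
      field_simp
    rw [this]
    have h2 : (2 * (Fintype.card e * Λ)) / (2 * (Fintype.card e * Λ) + 1) ≤ 1 := by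
      rw [div_le_one hc]
      linarith
    calc _ ≤ δ * 1 := mul_le_mul_of_nonneg_left h2 hδ.le
      _ = δ := mul_one _
  linarith

end Crest.Agent.GadCap
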