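import Crest.Agent.GadCap.Core

/-! The limit `Λ → ∞`: the entropy inequality. -/

set_option autoImplicit false
set_option linter.unusedSectionVars false

namespace Crest.Agent.GadCap

open Matrix Finset MeasureTheory intervalIntegral Filter Topology
open scoped ComplexOrder

variable {e f : Type*} [Fintype e] [DecidableEq e] [Fintype f] [DecidableEq f]

lemma ell_mul {a x : ℝ} (ha : 0 < a) (hx : 0 < x) :
    ell (a * x) = a * Real.log a * x + a * ell x := by
  unfold ell
  rw [Real.log_mul ha.ne' hx.ne']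
  ring

lemma trace_fromBlocks' (A B C D : Matrix e e ℂ) :
    (fromBlocks A B C D).trace = A.trace + D.trace := by
  simp [Matrix.trace, Fintype.sum_sum_type]

theorem core (P : SPar) {X0 X1 : Matrix e f ℂ} {A C UA UC : Matrix e e ℂ} {av cv : e → ℝ}
    {κ : ℝ} (hκ : κ * κ = P.a - P.b)
    (hA : A = X0 * X0ᴴ) (hC : C = X1 * X1ᴴ) (dA : IsDz A UA av) (dC : IsDz C UC cv)
    (hav : ∀ k, 0 < av k) (hcv : ∀ k, 0 < cv k) (hu : ∑ k, av k = P.u) (hw : ∑ k, cv k = P.w)
    {M UM : Matrix (e ⊕ e) (e ⊕ e) ℂ} {mv : e ⊕ e → ℝ} (dM : IsDz M UM mv)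
    (hM : M = fromBlocks ((P.a : ℂ) • A + (P.b : ℂ) • C) ((κ : ℂ) • (X0 * X1ᴴ))
      ((κ : ℂ) • (X1 * X0ᴴ)) ((P.a' : ℂ) • A + (P.b' : ℂ) • C)) :
    ∑ k, ell (mv k) ≤ ∑ k, ell (av k) + ∑ k, ell (cv k) - ell P.u - ell P.w
      + ell P.μ1 + ell P.μ2 := by
  have pa := P.pa
  have pb := P.pb
  have pa' := P.pa'
  have pb' := P.pb'
  have pu := P.pu
  have pw := P.pw
  have ha' : P.a' = 1 - P.a := by linarith [P.ha]
  have hb' : P.b' = 1 - P.b := by linarith [P.hb]
  -- the trace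
  have htr : ∑ k, mv k = P.u + P.w := by
    have h1 := dM.trace
    have h2 : M.trace = (((P.a + P.a') * P.u + (P.b + P.b') * P.w : ℝ) : ℂ) := by
      rw [hM, trace_fromBlocks', trace_add, trace_add, trace_smul, trace_smul, trace_smul,
        trace_smul, dA.trace, dC.trace, hu, hw]
      simp only [smul_eq_mul]
      push_cast
      ring
    rw [h2, P.ha, P.hb] at h1
    have h3 : (1 * P.u + 1 * P.w) = ∑ k, mv k := by exact_mod_cast h1
    linarith
  set T : ℝ → ℝ → ℝ := fun Λ μ => ell (Λ + μ) - ell Λ - μ * Real.log Λ - μ with hT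
  have tT : ∀ μ, Tendsto (fun Λ => T Λ μ) atTop (𝓝 0) := fun μ => ell_asym μ
  set m0 := P.θ1 * P.μ2 + P.θ2 * P.μ1 with hm0
  set m1 := P.θ2 * P.μ2 + P.θ1 * P.μ1 with hm1
  have em0 : m0 - P.b * P.w = P.a * P.u := by
    have := P.hm0
    rw [← hm0] at this
    linarith
  have em1 : m1 - P.a' * P.u = P.b' * P.w := by
    have := P.hm1
    rw [add_comm, ← hm1] at this
    linarith
  set E0 := P.θ1 * ell P.μ2 + P.θ2 * ell P.μ1 - ell (P.b * P.w) with hE0
  set E1 := P.θ2 * ell P.μ2 + P.θ1 * ell P.μ1 - ell (P.a' * P.u) with hE1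
  set K0 : ℝ → e → ℝ := fun Λ k =>
    (∫ t in (0 : ℝ)..Λ, P.phi0 (max (P.u / av k * t - P.b * P.w) 0))
      - av k / P.u * (P.b * P.w) * P.phi0 0
      - av k / P.u * ((m0 - P.b * P.w) * (Real.log Λ + Real.log (P.u / av k) + 1)) with hK0
  set K1 : ℝ → e → ℝ := fun Λ k =>
    (∫ t in (0 : ℝ)..Λ, P.phi1 (max (P.w / cv k * t - P.a' * P.u) 0))
      - cv k / P.w * (P.a' * P.u) * P.phi1 0
      - cv k / P.w * ((m1 - P.a' * P.u) * (Real.log Λ + Real.log (P.w / cv k) + 1)) with hK1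
  have tK0 : ∀ k, Tendsto (fun Λ => K0 Λ k) atTop (𝓝 (-(av k / P.u * E0))) := fun k =>
    int_phi_asym P.hθ P.pμ2 P.pμ1 (by positivity) (hav k) pu
  have tK1 : ∀ k, Tendsto (fun Λ => K1 Λ k) atTop (𝓝 (-(cv k / P.w * E1))) := fun k =>
    int_phi_asym (by linarith [P.hθ]) P.pμ2 P.pμ1 (by positivity) (hcv k) pw
  have hlim : Tendsto (fun Λ => ∑ k, T Λ (mv k) - ∑ j, T Λ (P.b * cv j)
      - ∑ k, T Λ (P.a' * av k) - ∑ k, K0 Λ k - ∑ k, K1 Λ k) atTop
      (𝓝 (∑ _k : e ⊕ e, (0 : ℝ) - ∑ _j : e, (0 : ℝ) - ∑ _k : e, (0 : ℝ)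
        - ∑ k, (-(av k / P.u * E0)) - ∑ k, (-(cv k / P.w * E1)))) := by
    refine ((((tendsto_finsetSum _ fun k _ => tT (mv k)).sub
      (tendsto_finsetSum _ fun j _ => tT (P.b * cv j))).sub
      (tendsto_finsetSum _ fun k _ => tT (P.a' * av k))).sub
      (tendsto_finsetSum _ fun k _ => tK0 k)).sub (tendsto_finsetSum _ fun k _ => tK1 k)
  have hsu : ∑ k, av k / P.u = 1 := by rw [← Finset.sum_div, hu, div_self pu.ne']
  have hsw : ∑ k, cv k / P.w = 1 := by rw [← Finset.sum_div, hw, div_self pw.ne']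
  -- the lower bound
  have hlow : ∀ᶠ Λ in atTop, ∑ k, ell (mv k) - ∑ j, ell (P.b * cv j) - ∑ k, ell (P.a' * av k)
      + ∑ k, av k * (P.a * Real.log (P.u / av k)) + ∑ k, cv k * (P.b' * Real.log (P.w / cv k))
      ≤ ∑ k, T Λ (mv k) - ∑ j, T Λ (P.b * cv j)
        - ∑ k, T Λ (P.a' * av k) - ∑ k, K0 Λ k - ∑ k, K1 Λ k := by
    filter_upwards [eventually_gt_atTop 0] with Λ hΛ
    have h := core_int P hκ hA hC dA dC hav hcv hu hw dM hM hΛ.le
    have s1 : ∑ k, (ell (Λ + mv k) - ell (mv k) - Λ) = ∑ k, T Λ (mv k)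
        + (2 * Fintype.card e) * (ell Λ - Λ) + (P.u + P.w) * (Real.log Λ + 1)
        - ∑ k, ell (mv k) := by
      have : ∀ k, ell (Λ + mv k) - ell (mv k) - Λ = T Λ (mv k) + (ell Λ - Λ)
          + mv k * (Real.log Λ + 1) - ell (mv k) := by
        intro k
        simp only [hT]
        ring
      rw [Finset.sum_congr rfl fun k _ => this k, Finset.sum_sub_distrib, Finset.sum_add_distrib,
        Finset.sum_add_distrib, ← Finset.sum_mul, htr, Finset.sum_const, Finset.card_univ,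
        Fintype.card_sum, nsmul_eq_mul]
      push_cast
      ring
    have s2 : ∑ k, (ell (Λ + P.b * cv k) - ell (P.b * cv k) - Λ) = ∑ k, T Λ (P.b * cv k)
        + (Fintype.card e) * (ell Λ - Λ) + (P.b * P.w) * (Real.log Λ + 1)
        - ∑ k, ell (P.b * cv k) := by
      have : ∀ k, ell (Λ + P.b * cv k) - ell (P.b * cv k) - Λ = T Λ (P.b * cv k) + (ell Λ - Λ)
          + P.b * cv k * (Real.log Λ + 1) - ell (P.b * cv k) := by
        intro k
        simp only [hT]
        ring
      rw [Finset.sum_congr rfl fun k _ => this k, Finset.sum_sub_distrib, Finset.sum_add_distrib,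
        Finset.sum_add_distrib, ← Finset.sum_mul, ← Finset.mul_sum, hw, Finset.sum_const,
        Finset.card_univ, nsmul_eq_mul]
    have s3 : ∑ k, (ell (Λ + P.a' * av k) - ell (P.a' * av k) - Λ) = ∑ k, T Λ (P.a' * av k)
        + (Fintype.card e) * (ell Λ - Λ) + (P.a' * P.u) * (Real.log Λ + 1)
        - ∑ k, ell (P.a' * av k) := by
      have : ∀ k, ell (Λ + P.a' * av k) - ell (P.a' * av k) - Λ = T Λ (P.a' * av k) + (ell Λ - Λ)
          + P.a' * av k * (Real.log Λ + 1) - ell (P.a' * av k) := by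
        intro k
        simp only [hT]
        ring
      rw [Finset.sum_congr rfl fun k _ => this k, Finset.sum_sub_distrib, Finset.sum_add_distrib,
        Finset.sum_add_distrib, ← Finset.sum_mul, ← Finset.mul_sum, hu, Finset.sum_const,
        Finset.card_univ, nsmul_eq_mul]
    have s4 : ∑ k, (∫ t in (0 : ℝ)..Λ, P.phi0 (max (P.u / av k * t - P.b * P.w) 0))
        = ∑ k, K0 Λ k + (P.b * P.w) * P.phi0 0 + P.a * P.u * (Real.log Λ + 1)
          + ∑ k, av k * (P.a * Real.log (P.u / av k)) := by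
      have : ∀ k, (∫ t in (0 : ℝ)..Λ, P.phi0 (max (P.u / av k * t - P.b * P.w) 0))
          = K0 Λ k + av k / P.u * ((P.b * P.w) * P.phi0 0 + P.a * P.u * (Real.log Λ + 1))
            + av k * (P.a * Real.log (P.u / av k)) := by
        intro k
        simp only [hK0]
        rw [em0]
        have : av k = av k / P.u * P.u := by field_simp
        have e2 : av k * (P.a * Real.log (P.u / av k))
            = av k / P.u * P.u * (P.a * Real.log (P.u / av k)) := by rw [← this]
        rw [e2]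
        ring
      rw [Finset.sum_congr rfl fun k _ => this k, Finset.sum_add_distrib, Finset.sum_add_distrib,
        ← Finset.sum_mul, hsu]
      ring
    have s5 : ∑ k, (∫ t in (0 : ℝ)..Λ, P.phi1 (max (P.w / cv k * t - P.a' * P.u) 0))
        = ∑ k, K1 Λ k + (P.a' * P.u) * P.phi1 0 + P.b' * P.w * (Real.log Λ + 1)
          + ∑ k, cv k * (P.b' * Real.log (P.w / cv k)) := by
      have : ∀ k, (∫ t in (0 : ℝ)..Λ, P.phi1 (max (P.w / cv k * t - P.a' * P.u) 0))
          = K1 Λ k + cv k / P.w * ((P.a' * P.u) * P.phi1 0 + P.b' * P.w * (Real.log Λ + 1))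
            + cv k * (P.b' * Real.log (P.w / cv k)) := by
        intro k
        simp only [hK1]
        rw [em1]
        have : cv k = cv k / P.w * P.w := by field_simp
        have e2 : cv k * (P.b' * Real.log (P.w / cv k))
            = cv k / P.w * P.w * (P.b' * Real.log (P.w / cv k)) := by rw [← this]
        rw [e2]
        ring
      rw [Finset.sum_congr rfl fun k _ => this k, Finset.sum_add_distrib, Finset.sum_add_distrib,
        ← Finset.sum_mul, hsw]
      ring
    rw [s1, s2, s3, s4, s5, ha', hb'] at h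
    rw [ha', hb']
    linarith
  have hfin := ge_of_tendsto hlim hlow
  have f1 : ∑ k, (-(av k / P.u * E0)) = - E0 := by
    rw [Finset.sum_neg_distrib, ← Finset.sum_mul, hsu, one_mul]
  have f2 : ∑ k, (-(cv k / P.w * E1)) = - E1 := by
    rw [Finset.sum_neg_distrib, ← Finset.sum_mul, hsw, one_mul]
  rw [f1, f2] at hfin
  simp only [Finset.sum_const_zero, sub_zero, zero_sub, neg_neg] at hfin
  have g1 : ∑ j, ell (P.b * cv j) = P.b * Real.log P.b * P.w + P.b * ∑ j, ell (cv j) := by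
    rw [Finset.sum_congr rfl fun j _ => ell_mul pb (hcv j), Finset.sum_add_distrib,
      ← Finset.mul_sum, ← Finset.mul_sum, hw]
  have g2 : ∑ j, ell (P.a' * av j) = P.a' * Real.log P.a' * P.u + P.a' * ∑ j, ell (av j) := by
    rw [Finset.sum_congr rfl fun j _ => ell_mul pa' (hav j), Finset.sum_add_distrib,
      ← Finset.mul_sum, ← Finset.mul_sum, hu]
  have g3 : ∑ k, av k * (P.a * Real.log (P.u / av k))
      = P.a * ell P.u - P.a * ∑ k, ell (av k) := by
    have : ∀ k, av k * (P.a * Real.log (P.u / av k))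
        = av k * (P.a * Real.log P.u) - P.a * ell (av k) := by
      intro k
      rw [Real.log_div pu.ne' (hav k).ne']
      unfold ell
      ring
    rw [Finset.sum_congr rfl fun j _ => this j, Finset.sum_sub_distrib, ← Finset.sum_mul,
      ← Finset.mul_sum, hu]
    unfold ell
    ring
  have g4 : ∑ k, cv k * (P.b' * Real.log (P.w / cv k))
      = P.b' * ell P.w - P.b' * ∑ k, ell (cv k) := by
    have : ∀ k, cv k * (P.b' * Real.log (P.w / cv k))
        = cv k * (P.b' * Real.log P.w) - P.b' * ell (cv k) := by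
      intro k
      rw [Real.log_div pw.ne' (hcv k).ne']
      unfold ell
      ring
    rw [Finset.sum_congr rfl fun j _ => this j, Finset.sum_sub_distrib, ← Finset.sum_mul,
      ← Finset.mul_sum, hw]
    unfold ell
    ring
  rw [g1, g2, g3, g4, hE0, hE1, ell_mul pb pw, ell_mul pa' pu] at hfin
  have hθ2 : P.θ2 = 1 - P.θ1 := by linarith [P.hθ]
  have e1 : P.θ1 * ell P.μ2 + P.θ2 * ell P.μ1 + (P.θ2 * ell P.μ2 + P.θ1 * ell P.μ1)
      = ell P.μ1 + ell P.μ2 := by
    rw [hθ2]; ring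
  have e2 : P.a * ell P.u + P.a' * ell P.u = ell P.u := by
    rw [ha']; ring
  have e3 : P.b * ell P.w + P.b' * ell P.w = ell P.w := by
    rw [hb']; ring
  have e4 : P.a * ∑ k, ell (av k) + P.a' * ∑ k, ell (av k) = ∑ k, ell (av k) := by
    rw [ha']; ring
  have e5 : P.b * ∑ k, ell (cv k) + P.b' * ∑ k, ell (cv k) = ∑ k, ell (cv k) := by
    rw [hb']; ring
  linarith

end Crest.Agent.GadCap
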