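import Crest.Agent.GadCap.Spec

/-! Counting eigenvalues: comparison of `X₀ᴴ Y⁻¹ X₀` with the pencil `A/x - L`. -/

set_option autoImplicit false
set_option linter.unusedSectionVars false

namespace Crest.Agent.GadCap

open Matrix Finset
open scoped ComplexOrder

variable {n m : Type*} [Fintype n] [DecidableEq n] [Fintype m] [DecidableEq m]

/-- squared norm -/
noncomputable def nsq (v : n → ℂ) : ℝ := ∑ i, Complex.normSq (v i)

/-- quadratic form -/
noncomputable def qf (M : Matrix n n ℂ) (v : n → ℂ) : ℝ := (star v ⬝ᵥ M *ᵥ v).re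

lemma nsq_nonneg (v : n → ℂ) : 0 ≤ nsq v := Finset.sum_nonneg fun _ _ => Complex.normSq_nonneg _

lemma nsq_pos {v : n → ℂ} (h : v ≠ 0) : 0 < nsq v := by
  obtain ⟨i, hi⟩ := Function.ne_iff.mp h
  refine Finset.sum_pos' (fun _ _ => Complex.normSq_nonneg _) ⟨i, Finset.mem_univ _, ?_⟩
  exact Complex.normSq_pos.mpr hi

lemma star_dot_self (v : n → ℂ) : star v ⬝ᵥ v = ((nsq v : ℝ) : ℂ) := by
  unfold nsq dotProduct
  push_cast
  refine Finset.sum_congr rfl fun i _ => ?_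
  rw [Complex.normSq_eq_conj_mul_self]
  rfl

lemma dot_adj (M : Matrix n m ℂ) (v : n → ℂ) (w : m → ℂ) :
    star v ⬝ᵥ M *ᵥ w = star (Mᴴ *ᵥ v) ⬝ᵥ w := by
  rw [star_mulVec, conjTranspose_conjTranspose, Matrix.dotProduct_mulVec]

lemma nsq_mulVec_of_isometry {W : Matrix m n ℂ} (h : Wᴴ * W = 1) (v : n → ℂ) :
    nsq (W *ᵥ v) = nsq v := by
  have h1 : star (W *ᵥ v) ⬝ᵥ (W *ᵥ v) = star v ⬝ᵥ v := by
    rw [star_mulVec, Matrix.dotProduct_mulVec, vecMul_vecMul, h, vecMul_one]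
  rw [star_dot_self, star_dot_self] at h1
  exact_mod_cast h1

lemma IsDz.qf {M U : Matrix n n ℂ} {x : n → ℝ} (d : IsDz M U x) (v : n → ℂ) :
    qf M v = ∑ i, x i * Complex.normSq ((Uᴴ *ᵥ v) i) := by
  unfold GadCap.qf
  have : star v ⬝ᵥ M *ᵥ v = star (Uᴴ *ᵥ v) ⬝ᵥ (diagonal (fun i => (x i : ℂ)) *ᵥ (Uᴴ *ᵥ v)) := by
    rw [d.hM, star_mulVec, conjTranspose_conjTranspose, ← Matrix.mulVec_mulVec,
      ← Matrix.mulVec_mulVec, Matrix.dotProduct_mulVec]
  rw [this]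
  unfold dotProduct
  rw [Complex.re_sum]
  refine Finset.sum_congr rfl fun i _ => ?_
  rw [mulVec_diagonal]
  have : star (Uᴴ *ᵥ v) i * ((x i : ℂ) * (Uᴴ *ᵥ v) i)
      = ((x i * Complex.normSq ((Uᴴ *ᵥ v) i) : ℝ) : ℂ) := by
    push_cast
    rw [Complex.normSq_eq_conj_mul_self]
    simp only [Pi.star_apply, RCLike.star_def]
    ring
  rw [this, Complex.ofReal_re]

theorem count_le {H UH : Matrix n n ℂ} {l : n → ℝ} (dH : IsDz H UH l)
    {α Ua : Matrix m m ℂ} {a : m → ℝ} (da : IsDz α Ua a) (T : Matrix m n ℂ) (t x : ℝ)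
    (hyp : ∀ v : n → ℂ, v ≠ 0 → t * nsq v ≤ qf H v →
      0 < nsq (T *ᵥ v) ∧ x * nsq (T *ᵥ v) ≤ qf α (T *ᵥ v)) :
    Fintype.card {k // t ≤ l k} ≤ Fintype.card {i // x ≤ a i} := by
  classical
  by_contra hcon
  push Not at hcon
  -- the linear map
  let ext : ({k // t ≤ l k} → ℂ) →ₗ[ℂ] (n → ℂ) :=
    { toFun := fun c k => if h : t ≤ l k then c ⟨k, h⟩ else 0
      map_add' := by
        intro c c'
        ext k
        by_cases h : t ≤ l k <;> simp [h]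
      map_smul' := by
        intro r c
        ext k
        by_cases h : t ≤ l k <;> simp [h] }
  let res : (m → ℂ) →ₗ[ℂ] ({i // x ≤ a i} → ℂ) := LinearMap.funLeft ℂ ℂ (fun i => i.1)
  let L : ({k // t ≤ l k} → ℂ) →ₗ[ℂ] ({i // x ≤ a i} → ℂ) :=
    res ∘ₗ (Uaᴴ * T * UH).mulVecLin ∘ₗ ext
  have hker : LinearMap.ker L ≠ ⊥ := by
    apply LinearMap.ker_ne_bot_of_finrank_lt
    simpa using hcon
  obtain ⟨c, hc, hc0⟩ := (Submodule.ne_bot_iff _).mp hker
  rw [LinearMap.mem_ker] at hc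
  have hext0 : ext c ≠ 0 := by
    intro h
    apply hc0
    ext k
    have := congrFun h k.1
    simpa [ext, k.2] using this
  set v : n → ℂ := UH *ᵥ (ext c) with hv
  have hUv : UHᴴ *ᵥ v = ext c := by
    rw [hv, Matrix.mulVec_mulVec, dH.hU, Matrix.one_mulVec]
  have hv0 : v ≠ 0 := by
    intro h
    apply hext0
    rw [← hUv, h, Matrix.mulVec_zero]
  have hnv : nsq v = nsq (ext c) := nsq_mulVec_of_isometry dH.hU _
  have h1 : t * nsq v ≤ qf H v := by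
    rw [dH.qf, hUv, hnv]
    unfold nsq
    rw [Finset.mul_sum]
    refine Finset.sum_le_sum fun k _ => ?_
    by_cases h : t ≤ l k
    · exact mul_le_mul_of_nonneg_right h (Complex.normSq_nonneg _)
    · have : ext c k = 0 := by simp [ext, h]
      simp [this]
  obtain ⟨h2, h3⟩ := hyp v hv0 h1
  set w : m → ℂ := Uaᴴ *ᵥ (T *ᵥ v) with hw
  have hwz : ∀ i, x ≤ a i → w i = 0 := by
    intro i hi
    have := congrFun hc ⟨i, hi⟩
    simp only [L, res, LinearMap.comp_apply, LinearMap.funLeft_apply, Matrix.mulVecLin_apply,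
      Pi.zero_apply] at this
    rw [hw, hv, Matrix.mulVec_mulVec, Matrix.mulVec_mulVec]
    exact this
  have hnw : nsq w = nsq (T *ᵥ v) := by
    rw [hw]
    exact nsq_mulVec_of_isometry (by simpa using da.hU') _
  rw [da.qf, ← hw, ← hnw] at h3
  rw [← hnw] at h2
  have hwne : w ≠ 0 := by
    intro h
    rw [h] at h2
    simp [nsq] at h2
  obtain ⟨i, hi⟩ := Function.ne_iff.mp hwne
  have hlt : ∑ i, a i * Complex.normSq (w i) < x * nsq w := by
    unfold nsq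
    rw [Finset.mul_sum]
    refine Finset.sum_lt_sum (fun k _ => ?_) ⟨i, Finset.mem_univ _, ?_⟩
    · by_cases h : x ≤ a k
      · simp [hwz k h]
      · push Not at h
        exact mul_le_mul_of_nonneg_right h.le (Complex.normSq_nonneg _)
    · have h : ¬ x ≤ a i := fun h => hi (hwz i h)
      push Not at h
      exact mul_lt_mul_of_pos_right h (Complex.normSq_pos.mpr hi)
  exact absurd h3 (not_le.mpr hlt)

/-- The key comparison: for `Y = t + L` positive definite, `A = X₀ X₀ᴴ`, `x > 0`. -/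
theorem count_pencil {Y A L : Matrix n n ℂ} {X0 : Matrix n m ℂ} {t x : ℝ} (hx : 0 < x)
    (hA : A = X0 * X0ᴴ) (hY : Y = (t : ℂ) • (1 : Matrix n n ℂ) + L) (hYp : Y.PosDef)
    {H UH : Matrix n n ℂ} {l : n → ℝ} (dH : IsDz H UH l)
    (hH : H = ((x⁻¹ : ℝ) : ℂ) • A - L)
    {α Ua : Matrix m m ℂ} {a : m → ℝ} (da : IsDz α Ua a) (hα : α = X0ᴴ * Y⁻¹ * X0) :
    Fintype.card {k // t ≤ l k} ≤ Fintype.card {i // x ≤ a i} := by
  refine count_le dH da X0ᴴ t x ?_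
  intro v hv0 hv
  have hYdet : IsUnit Y.det := (Matrix.isUnit_iff_isUnit_det _).mp hYp.isUnit
  -- p = <v, A v>
  have hTA : star (X0ᴴ *ᵥ v) ⬝ᵥ (X0ᴴ *ᵥ v) = star v ⬝ᵥ A *ᵥ v := by
    rw [← dot_adj, hA, ← Matrix.mulVec_mulVec]
  have hp : nsq (X0ᴴ *ᵥ v) = qf A v := by
    unfold qf
    rw [← hTA, star_dot_self, Complex.ofReal_re]
  -- <v, Y v> ≤ p / x
  have hYv : qf Y v ≤ x⁻¹ * qf A v := by
    have e1 : qf H v = x⁻¹ * qf A v - qf L v := by
      unfold qf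
      rw [hH, Matrix.sub_mulVec, Matrix.smul_mulVec, dotProduct_sub, dotProduct_smul, smul_eq_mul,
        Complex.sub_re, Complex.re_ofReal_mul]
    have e2 : qf Y v = t * nsq v + qf L v := by
      unfold qf
      rw [hY, Matrix.add_mulVec, Matrix.smul_mulVec, dotProduct_add, dotProduct_smul, smul_eq_mul,
        Matrix.one_mulVec, star_dot_self, Complex.add_re, Complex.re_ofReal_mul, Complex.ofReal_re]
    linarith
  have hYpos : 0 < qf Y v := by
    have := hYp.dotProduct_mulVec_pos hv0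
    unfold qf
    exact (Complex.lt_def.mp this).1
  have hppos : 0 < qf A v := by
    by_contra h
    push Not at h
    have : x⁻¹ * qf A v ≤ 0 := mul_nonpos_of_nonneg_of_nonpos (inv_nonneg.mpr hx.le) h
    linarith
  refine ⟨by rw [hp]; exact hppos, ?_⟩
  rw [hp]
  -- q = <A v, Y⁻¹ A v>
  have hAh : A.IsHermitian := by rw [hA]; exact isHermitian_mul_conjTranspose_self _
  have hYh : Y.IsHermitian := hYp.isHermitian
  set z : n → ℂ := Y⁻¹ *ᵥ (A *ᵥ v) with hz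
  have hYz : Y *ᵥ z = A *ᵥ v := by
    rw [hz, Matrix.mulVec_mulVec, Matrix.mul_nonsing_inv _ hYdet, Matrix.one_mulVec]
  have hq : star (X0ᴴ *ᵥ v) ⬝ᵥ α *ᵥ (X0ᴴ *ᵥ v) = star z ⬝ᵥ Y *ᵥ z := by
    have e1 : α *ᵥ (X0ᴴ *ᵥ v) = X0ᴴ *ᵥ z := by
      rw [hα, hz, hA]
      simp only [Matrix.mulVec_mulVec, Matrix.mul_assoc]
    rw [e1, dot_adj, conjTranspose_conjTranspose, Matrix.mulVec_mulVec, ← hA, dot_adj Y, hYh.eq,
      hYz]
  have hzv : star z ⬝ᵥ Y *ᵥ v = star v ⬝ᵥ A *ᵥ v := by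
    rw [dot_adj Y, hYh.eq, hYz, dot_adj A, hAh.eq]
  have hvz : star v ⬝ᵥ Y *ᵥ z = star v ⬝ᵥ A *ᵥ v := by
    rw [hYz]
  -- nonnegativity of <v - z/x, Y (v - z/x)>
  have hnn : 0 ≤ qf Y (v - ((x⁻¹ : ℝ) : ℂ) • z) := by
    have := hYp.posSemidef.dotProduct_mulVec_nonneg (v - ((x⁻¹ : ℝ) : ℂ) • z)
    unfold qf
    exact (Complex.le_def.mp this).1
  have hexp : qf Y (v - ((x⁻¹ : ℝ) : ℂ) • z)
      = qf Y v - 2 * x⁻¹ * qf A v + x⁻¹ * x⁻¹ * qf Y z := by
    unfold qf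
    rw [Matrix.mulVec_sub, Matrix.mulVec_smul, star_sub, star_smul, sub_dotProduct,
      dotProduct_sub, dotProduct_sub, smul_dotProduct, smul_dotProduct, dotProduct_smul,
      dotProduct_smul, hzv, hvz]
    simp only [smul_eq_mul, RCLike.star_def, Complex.conj_ofReal, Complex.sub_re,
      Complex.re_ofReal_mul]
    ring
  have hqα : qf α (X0ᴴ *ᵥ v) = qf Y z := by
    unfold qf
    rw [hq]
  rw [hqα]
  have h1 : 0 ≤ x⁻¹ * x⁻¹ * qf Y z - x⁻¹ * qf A v := by linarith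
  have h2 : x⁻¹ * qf A v ≤ x⁻¹ * (x⁻¹ * qf Y z) := by linarith
  have h3 : qf A v ≤ x⁻¹ * qf Y z := le_of_mul_le_mul_left h2 (inv_pos.mpr hx)
  calc x * qf A v ≤ x * (x⁻¹ * qf Y z) := mul_le_mul_of_nonneg_left h3 hx.le
    _ = qf Y z := by rw [← mul_assoc, mul_inv_cancel₀ hx.ne', one_mul]

end Crest.Agent.GadCap
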