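import Crest.Agent.GadCap.Spec

/-! The determinant formula. -/

set_option autoImplicit false
set_option linter.unusedSectionVars false

namespace Crest.Agent.GadCap

open Matrix Finset
open scoped ComplexOrder

variable {e f : Type*} [Fintype e] [DecidableEq e] [Fintype f] [DecidableEq f]

lemma det_block {A11 A12 A21 A22 : Matrix f f ℂ} (h : IsUnit A11.det)
    (hc : A21 * A11 = A11 * A21) :
    (fromBlocks A11 A12 A21 A22).det = (A11 * A22 - A21 * A12).det := by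
  have : Invertible A11 := invertibleOfIsUnitDet _ h
  rw [det_fromBlocks₁₁, ← det_mul, Matrix.mul_sub]
  congr 2
  rw [← Matrix.mul_assoc, ← Matrix.mul_assoc, ← hc, Matrix.mul_assoc A21, mul_invOf_self,
    Matrix.mul_one]

theorem det_formula {X0 X1 : Matrix e f ℂ} {Y0 Y1 : Matrix e e ℂ} {α ρ : Matrix f f ℂ}
    {a b' κ c : ℂ} (h0 : IsUnit Y0.det) (h1 : IsUnit Y1.det) (hα : α = X0ᴴ * Y0⁻¹ * X0)
    (hρ : ρ = X1ᴴ * Y1⁻¹ * X1)
    (hu : IsUnit (1 + a • α).det) (hk : a * b' - κ * κ = c) :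
    (fromBlocks (Y0 + a • (X0 * X0ᴴ)) (κ • (X0 * X1ᴴ)) (κ • (X1 * X0ᴴ))
      (Y1 + b' • (X1 * X1ᴴ))).det
      = Y0.det * Y1.det * ((1 + a • α) + (b' • (1 : Matrix f f ℂ) + c • α) * ρ).det := by
  set XX : Matrix (e ⊕ e) (f ⊕ f) ℂ := fromBlocks X0 0 0 X1 with hXX
  set WW : Matrix (f ⊕ f) (e ⊕ e) ℂ := fromBlocks (a • X0ᴴ) (κ • X1ᴴ) (κ • X0ᴴ) (b' • X1ᴴ)
    with hWW
  set D : Matrix (e ⊕ e) (e ⊕ e) ℂ := fromBlocks Y0 0 0 Y1 with hD
  set Di : Matrix (e ⊕ e) (e ⊕ e) ℂ := fromBlocks Y0⁻¹ 0 0 Y1⁻¹ with hDi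
  have hDD : D * Di = 1 := by
    rw [hD, hDi, fromBlocks_multiply, ← fromBlocks_one]
    simp [Matrix.mul_nonsing_inv _ h0, Matrix.mul_nonsing_inv _ h1]
  have e1 : fromBlocks (Y0 + a • (X0 * X0ᴴ)) (κ • (X0 * X1ᴴ)) (κ • (X1 * X0ᴴ))
      (Y1 + b' • (X1 * X1ᴴ)) = D * (1 + (Di * XX) * WW) := by
    rw [Matrix.mul_add, Matrix.mul_one, ← Matrix.mul_assoc, ← Matrix.mul_assoc, hDD,
      Matrix.one_mul, hXX, hWW, hD, fromBlocks_multiply, fromBlocks_add]
    simp
  have e2 : WW * (Di * XX) = fromBlocks (a • α) (κ • ρ) (κ • α) (b' • ρ) := by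
    rw [hWW, hDi, hXX, fromBlocks_multiply, fromBlocks_multiply, hα, hρ]
    simp [Matrix.mul_assoc]
  rw [e1, det_mul, det_one_add_mul_comm, e2, hD, det_fromBlocks_zero₂₁, ← fromBlocks_one,
    fromBlocks_add, det_block hu]
  · congr 2
    rw [← hk]
    simp only [zero_add, Matrix.mul_add, Matrix.add_mul, Matrix.mul_one, Matrix.one_mul,
      Matrix.smul_mul, Matrix.mul_smul, smul_smul, sub_smul, Matrix.sub_mul]
    module
  · simp only [zero_add, Matrix.mul_add, Matrix.add_mul, Matrix.mul_one, Matrix.one_mul,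
      Matrix.smul_mul, Matrix.mul_smul, smul_smul]
    module

/-- Diagonalised form. -/
theorem det_diag {α ρ U : Matrix f f ℂ} {x : f → ℝ} (d : IsDz α U x) {a b' c : ℝ}
    (hpos : ∀ i, b' + c * x i ≠ 0) :
    ((1 + (a : ℂ) • α) + ((b' : ℂ) • (1 : Matrix f f ℂ) + (c : ℂ) • α) * ρ).det
      = ((∏ i, (b' + c * x i) : ℝ) : ℂ)
        * (diagonal (fun i => (((1 + a * x i) / (b' + c * x i) : ℝ) : ℂ)) + Uᴴ * ρ * U).det := by
  have e1 : (1 + (a : ℂ) • α) + ((b' : ℂ) • (1 : Matrix f f ℂ) + (c : ℂ) • α) * ρ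
      = U * (diagonal (fun i => ((b' + c * x i : ℝ) : ℂ))
        * (diagonal (fun i => (((1 + a * x i) / (b' + c * x i) : ℝ) : ℂ)) + Uᴴ * ρ * U)) * Uᴴ := by
    have d1 : diagonal (fun i => ((b' + c * x i : ℝ) : ℂ))
        * diagonal (fun i => (((1 + a * x i) / (b' + c * x i) : ℝ) : ℂ))
        = 1 + (a : ℂ) • diagonal (fun i => (x i : ℂ)) := by
      rw [diagonal_mul_diagonal, ← diagonal_one, ← diagonal_smul, diagonal_add]
      congr 1
      ext i
      rw [← Complex.ofReal_mul, mul_div_cancel₀ _ (hpos i)]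
      simp
    have d2 : diagonal (fun i => ((b' + c * x i : ℝ) : ℂ))
        = (b' : ℂ) • (1 : Matrix f f ℂ) + (c : ℂ) • diagonal (fun i => (x i : ℂ)) := by
      rw [← diagonal_one, ← diagonal_smul, ← diagonal_smul, diagonal_add]
      congr 1
      ext i
      simp
    rw [Matrix.mul_add (diagonal (fun i => ((b' + c * x i : ℝ) : ℂ))), d1, d2, Matrix.mul_add U,
      Matrix.add_mul (U * (1 + (a : ℂ) • diagonal (fun i => (x i : ℂ))))]
    congr 1
    · rw [Matrix.mul_add, Matrix.add_mul, Matrix.mul_one, d.hU', Matrix.mul_smul,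
        Matrix.smul_mul, ← d.hM]
    · calc ((b' : ℂ) • (1 : Matrix f f ℂ) + (c : ℂ) • α) * ρ
          = (U * ((b' : ℂ) • (1 : Matrix f f ℂ) + (c : ℂ) • diagonal (fun i => (x i : ℂ))) * Uᴴ)
            * (ρ * (U * Uᴴ)) := by
            have e3 : U * ((b' : ℂ) • (1 : Matrix f f ℂ)
                + (c : ℂ) • diagonal (fun i => (x i : ℂ))) * Uᴴ
                = (b' : ℂ) • (1 : Matrix f f ℂ) + (c : ℂ) • α := by
              rw [Matrix.mul_add, Matrix.add_mul, Matrix.mul_smul,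
                Matrix.smul_mul, Matrix.mul_one, d.hU', Matrix.mul_smul, Matrix.smul_mul, ← d.hM]
            rw [e3, d.hU', Matrix.mul_one]
        _ = _ := by simp only [Matrix.mul_assoc]
  rw [e1, Matrix.det_mul_right_comm, d.hU', Matrix.one_mul, det_mul, det_diagonal]
  push_cast
  rfl

end Crest.Agent.GadCap
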