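import Crest.Agent.GadCap.Prod
import Crest.Agent.GadCap.Conv

/-! Tensor powers. -/

set_option autoImplicit false
set_option linter.unusedSectionVars false

namespace Crest.Agent.GadCap

open Matrix Finset Filter Topology Real
open Crest.Quantum Crest.MathPhysics.AmpDamp
open scoped ComplexOrder Kronecker

variable {d e : Type*} [Fintype e] [DecidableEq e] [Fintype d] [DecidableEq d]

/-- the tensor of the amplitude damping channel with a channel is a channel -/
lemma tensor_channel {γ ν : ℝ} (hγ : γ ∈ Set.Icc (0 : ℝ) 1) (hν : ν ∈ Set.Icc (0 : ℝ) 1)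
    {Ψ : Matrix d d ℂ → Matrix e e ℂ} (hΨ : IsChannel Ψ) :
    IsChannel (qubitTensor (gadMap γ ν) Ψ) := by
  refine ⟨tensor_linear _ hΨ.1, ?_, ?_⟩
  · intro k M hM
    -- apply Ψ on `(Bool × Fin k) × d`
    set N : Matrix ((Bool × Fin k) × d) ((Bool × Fin k) × d) ℂ :=
      M.submatrix (fun p => (p.1.2, (p.1.1, p.2))) (fun p => (p.1.2, (p.1.1, p.2))) with hN
    have hNp : N.PosSemidef := hM.submatrix _
    have h1 := channel_psd hΨ.2.1 hNp
    set N' : Matrix (Bool × (Fin k × e)) (Bool × (Fin k × e)) ℂ :=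
      (blockwise (k := Bool × Fin k) Ψ N).submatrix (fun p => ((p.1, p.2.1), p.2.2))
        (fun p => ((p.1, p.2.1), p.2.2)) with hN'
    have hN'p : N'.PosSemidef := h1.submatrix _
    have h2 : (fromBlocks (block N' false false) (block N' false true) (block N' true false)
        (block N' true true)).PosSemidef := by
      have := hN'p.submatrix (sumEquiv (Fin k × e))
      convert this using 1
      ext i j
      rcases i with i | i <;> rcases j with j | j <;> simp [block]
    have h3 := outM_posSemidef hγ hν h2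
    have h4 := h3.submatrix
      (fun p : Fin k × (Bool × e) => (sumEquiv (Fin k × e)).symm (p.2.1, (p.1, p.2.2)))
    convert h4 using 1
    unfold outM
    ext p q
    obtain ⟨i, s, x⟩ := p
    obtain ⟨j, t, y⟩ := q
    have hb : ∀ s' t' : Bool, Ψ (block (block M i j) s' t') x y
        = block N' s' t' (i, x) (j, y) := by
      intro s' t'
      rfl
    have hl : blockwise (k := Fin k) (qubitTensor (gadMap γ ν) Ψ) M (i, s, x) (j, t, y)
        = ∑ s' : Bool, ∑ t' : Bool, qubitCoeff (gadMap γ ν) s t s' t'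
          * block N' s' t' (i, x) (j, y) := by
      simp only [← hb]
      rfl
    rw [hl]
    clear_value N'
    simp only [Fintype.sum_bool, gad_coeff]
    cases s <;> cases t
    · simp
      ring
    · simp
    · simp
    · simp
      ring
  · intro M
    have h1 : (qubitTensor (gadMap γ ν) Ψ M).trace
        = ((qubitTensor (gadMap γ ν) Ψ M).submatrix (sumEquiv e) (sumEquiv e)).trace := by
      unfold Matrix.trace
      simp only [Matrix.diag_apply, Matrix.submatrix_apply]
      exact (Equiv.sum_comp (sumEquiv e) (fun i => (qubitTensor (gadMap γ ν) Ψ M) i i)).symm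
    rw [h1, qubitTensor_submatrix]
    unfold outM
    rw [trace_fromBlocks', trace_add, trace_add, trace_smul, trace_smul, trace_smul, trace_smul,
      hΨ.2.2, hΨ.2.2, ← trace_block M]
    simp only [smul_eq_mul]
    push_cast
    ring

/-- invariance of the channel property under relabelling -/
lemma channel_reindex {d' e' : Type*} [Fintype e'] [DecidableEq e'] [Fintype d'] [DecidableEq d']
    {Ψ : Matrix d d ℂ → Matrix e e ℂ} (hΨ : IsChannel Ψ) (f : d ≃ d') (g : e ≃ e') :
    IsChannel (fun M : Matrix d' d' ℂ => (Ψ (M.submatrix f f)).submatrix g.symm g.symm) := by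
  refine ⟨⟨?_, ?_⟩, ?_, ?_⟩
  · intro M N
    rw [Matrix.submatrix_add]
    simp only [Pi.add_apply]
    rw [hΨ.1.map_add, Matrix.submatrix_add]
    rfl
  · intro c M
    rw [Matrix.submatrix_smul]
    simp only [Pi.smul_apply]
    rw [hΨ.1.map_smul, Matrix.submatrix_smul]
    rfl
  · intro k M hM
    have h1 := hΨ.2.1 k (M.submatrix (Prod.map id f) (Prod.map id f)) (hM.submatrix _)
    have h2 := h1.submatrix (Prod.map id g.symm : Fin k × e' → Fin k × e)
    exact h2
  · intro M
    have h1 : ((Ψ (M.submatrix f f)).submatrix g.symm g.symm).trace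
        = (Ψ (M.submatrix f f)).trace := by
      unfold Matrix.trace
      simp only [Matrix.diag_apply, Matrix.submatrix_apply]
      exact Equiv.sum_comp g.symm (fun i => Ψ (M.submatrix f f) i i)
    have h2 : (M.submatrix f f).trace = M.trace := by
      unfold Matrix.trace
      simp only [Matrix.diag_apply, Matrix.submatrix_apply]
      exact Equiv.sum_comp f (fun i => M i i)
    change ((Ψ (M.submatrix f f)).submatrix g.symm g.symm).trace = M.trace
    rw [h1, hΨ.2.2, h2]

/-- the relabelling of bit strings -/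
abbrev cEq (n : ℕ) : Bool × (Fin n → Bool) ≃ (Fin (n + 1) → Bool) :=
  Fin.consEquiv (fun _ => Bool)

lemma power_succ (n : ℕ) (Φ : Matrix Bool Bool ℂ → Matrix Bool Bool ℂ)
    (M : Matrix (Fin (n + 1) → Bool) (Fin (n + 1) → Bool) ℂ) :
    (qubitPower (n + 1) Φ M).submatrix (cEq n) (cEq n)
      = qubitTensor Φ (qubitPower n Φ) (M.submatrix (cEq n) (cEq n)) := by
  ext p q
  obtain ⟨s, σ⟩ := p
  obtain ⟨t, τ⟩ := q
  simp only [Matrix.submatrix_apply, qubitPower, qubitTensor, Matrix.of_apply]
  rw [← Equiv.sum_comp (cEq n)]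
  simp only [← Equiv.sum_comp (cEq n) (fun τ' => (∏ i, qubitCoeff Φ _ _ _ (τ' i)) * M _ τ')]
  rw [Fintype.sum_prod_type]
  simp only [Fintype.sum_prod_type]
  refine Finset.sum_congr rfl fun s' _ => ?_
  rw [Finset.sum_comm]
  refine Finset.sum_congr rfl fun t' _ => ?_
  rw [Finset.mul_sum]
  refine Finset.sum_congr rfl fun σ' _ => ?_
  rw [Finset.mul_sum]
  refine Finset.sum_congr rfl fun τ' _ => ?_
  rw [Fin.prod_univ_succ]
  simp only [cEq, Fin.consEquiv_apply, Fin.cons_zero, Fin.cons_succ, block, Matrix.of_apply,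
    Matrix.submatrix_apply]
  ring

lemma power_succ' (n : ℕ) (Φ : Matrix Bool Bool ℂ → Matrix Bool Bool ℂ)
    (M : Matrix (Fin (n + 1) → Bool) (Fin (n + 1) → Bool) ℂ) :
    qubitPower (n + 1) Φ M
      = (qubitTensor Φ (qubitPower n Φ) (M.submatrix (cEq n) (cEq n))).submatrix
        (cEq n).symm (cEq n).symm := by
  rw [← power_succ]
  simp

lemma power_zero (Φ : Matrix Bool Bool ℂ → Matrix Bool Bool ℂ)
    (M : Matrix (Fin 0 → Bool) (Fin 0 → Bool) ℂ) : qubitPower 0 Φ M = M := by
  ext σ τ
  simp only [qubitPower, Matrix.of_apply, Finset.univ_eq_empty, Finset.prod_empty, one_mul,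
    Fintype.sum_unique]
  congr 1 <;> exact Subsingleton.elim _ _

lemma power_channel {γ ν : ℝ} (hγ : γ ∈ Set.Icc (0 : ℝ) 1) (hν : ν ∈ Set.Icc (0 : ℝ) 1) (n : ℕ) :
    IsChannel (qubitPower n (gadMap γ ν)) := by
  induction n with
  | zero =>
    have : qubitPower 0 (gadMap γ ν) = id := by
      funext M
      exact power_zero _ M
    rw [this]
    refine ⟨⟨fun _ _ => rfl, fun _ _ => rfl⟩, ?_, fun _ => rfl⟩
    intro k M hM
    exact hM
  | succ n ih =>
    have h1 := channel_reindex (tensor_channel hγ hν ih) (cEq n) (cEq n)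
    have h2 : qubitPower (n + 1) (gadMap γ ν) = fun M => (qubitTensor (gadMap γ ν)
        (qubitPower n (gadMap γ ν)) (M.submatrix (cEq n) (cEq n))).submatrix
        (cEq n).symm (cEq n).symm := by
      funext M
      exact power_succ' n _ M
    rw [h2]
    exact h1

end Crest.Agent.GadCap
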