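import Crest.Agent.GadCap.Up

/-! Product states and product ensembles. -/

set_option autoImplicit false
set_option linter.unusedSectionVars false

namespace Crest.Agent.GadCap

open Matrix Finset Filter Topology Real
open Crest.Quantum Crest.MathPhysics.AmpDamp
open scoped ComplexOrder Kronecker

variable {d e : Type*} [Fintype e] [DecidableEq e] [Fintype d] [DecidableEq d]

lemma IsDz.kron {M U : Matrix d d ℂ} {x : d → ℝ} {N V : Matrix e e ℂ} {y : e → ℝ}
    (d1 : IsDz M U x) (d2 : IsDz N V y) :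
    IsDz (M ⊗ₖ N) (U ⊗ₖ V) (fun i => x i.1 * y i.2) where
  hU := by
    rw [conjTranspose_kronecker, ← Matrix.mul_kronecker_mul, d1.hU, d2.hU, one_kronecker_one]
  hU' := by
    rw [conjTranspose_kronecker, ← Matrix.mul_kronecker_mul, d1.hU', d2.hU', one_kronecker_one]
  hM := by
    have h : diagonal (fun i : d × e => ((x i.1 * y i.2 : ℝ) : ℂ))
        = diagonal (fun i => (x i : ℂ)) ⊗ₖ diagonal (fun i => (y i : ℂ)) := by
      rw [diagonal_kronecker_diagonal]
      congr 1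
      ext i
      simp
    rw [h, conjTranspose_kronecker, ← Matrix.mul_kronecker_mul, ← Matrix.mul_kronecker_mul,
      ← d1.hM, ← d2.hM]

lemma kron_density {M : Matrix d d ℂ} {N : Matrix e e ℂ} (h1 : IsDensity M) (h2 : IsDensity N) :
    IsDensity (M ⊗ₖ N) := by
  refine ⟨?_, ?_⟩
  · have d1 := isDz_of_isHermitian h1.1.isHermitian
    have d2 := isDz_of_isHermitian h2.1.isHermitian
    exact (d1.kron d2).posSemidef fun i => mul_nonneg (d1.nonneg h1.1 _) (d2.nonneg h2.1 _)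
  · rw [trace_kronecker, h1.2, h2.2, mul_one]

lemma kron_entropy {M : Matrix d d ℂ} {N : Matrix e e ℂ} (h1 : IsDensity M) (h2 : IsDensity N) :
    vnEntropy (M ⊗ₖ N) = vnEntropy M + vnEntropy N := by
  have d1 := isDz_of_isHermitian h1.1.isHermitian
  have d2 := isDz_of_isHermitian h2.1.isHermitian
  have s1 : ∑ i, h1.1.isHermitian.eigenvalues i = 1 := by
    have := d1.trace.symm.trans h1.2
    exact_mod_cast this
  have s2 : ∑ i, h2.1.isHermitian.eigenvalues i = 1 := by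
    have := d2.trace.symm.trans h2.2
    exact_mod_cast this
  rw [vnEntropy_eq (kron_density h1 h2).1.isHermitian, vnEntropy_eq h1.1.isHermitian,
    vnEntropy_eq h2.1.isHermitian, (d1.kron d2).specSum, d1.specSum, d2.specSum]
  simp_rw [Real.negMulLog_mul]
  rw [Fintype.sum_prod_type]
  simp_rw [Finset.sum_add_distrib, ← Finset.mul_sum, ← Finset.sum_mul]
  rw [s1, s2]
  ring_nf

lemma tensor_kron {Φ : Matrix Bool Bool ℂ → Matrix Bool Bool ℂ} (hΦ : IsLinearMap ℂ Φ)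
    {Ψ : Matrix d d ℂ → Matrix e e ℂ} (hΨ : IsLinearMap ℂ Ψ) (M : Matrix Bool Bool ℂ)
    (N : Matrix d d ℂ) : qubitTensor Φ Ψ (M ⊗ₖ N) = Φ M ⊗ₖ Ψ N := by
  have hb : ∀ s t, block (M ⊗ₖ N) s t = M s t • N := by
    intro s t
    ext i j
    simp [block]
  have hM : Φ M = ∑ s' : Bool, ∑ t' : Bool, M s' t' • Φ (Matrix.single s' t' 1) := by
    have h1 : M = ∑ s' : Bool, ∑ t' : Bool, M s' t' • Matrix.single s' t' (1 : ℂ) := by
      ext s t
      simp only [Fintype.sum_bool]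
      cases s <;> cases t <;> simp
    conv_lhs => rw [h1]
    simp only [Fintype.sum_bool, hΦ.map_add, hΦ.map_smul]
  ext p q
  simp only [qubitTensor, Matrix.of_apply, hb, hΨ.map_smul, kroneckerMap_apply]
  rw [hM]
  simp only [Fintype.sum_bool, Matrix.add_apply, Matrix.smul_apply, smul_eq_mul, qubitCoeff]
  ring

theorem hol_prod {Φ : Matrix Bool Bool ℂ → Matrix Bool Bool ℂ} (hΦ : IsChannel Φ)
    {Ψ : Matrix d d ℂ → Matrix e e ℂ} (hΨ : IsChannel Ψ) {ι κ : Type*} [Fintype ι] [Fintype κ]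
    {q : ι → ℝ} {ρ : ι → Matrix Bool Bool ℂ} {q' : κ → ℝ} {ρ' : κ → Matrix d d ℂ}
    (h1 : IsEns q ρ) (h2 : IsEns q' ρ') :
    IsEns (fun i : ι × κ => q i.1 * q' i.2) (fun i : ι × κ => ρ i.1 ⊗ₖ ρ' i.2) ∧
      hol (qubitTensor Φ Ψ) (fun i : ι × κ => q i.1 * q' i.2) (fun i : ι × κ => ρ i.1 ⊗ₖ ρ' i.2)
        = hol Φ q ρ + hol Ψ q' ρ' := by
  have hE : IsEns (fun i : ι × κ => q i.1 * q' i.2) (fun i : ι × κ => ρ i.1 ⊗ₖ ρ' i.2) := by
    refine ⟨fun i => mul_nonneg (h1.1 _) (h2.1 _), ?_, fun i => kron_density (h1.2.2 _) (h2.2.2 _)⟩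
    rw [Fintype.sum_prod_type]
    simp only [← Finset.mul_sum, h2.2.1, mul_one, h1.2.1]
  refine ⟨hE, ?_⟩
  unfold hol
  rw [sum_linear (tensor_linear _ hΨ.1), sum_linear hΦ.1, sum_linear hΨ.1]
  have havg : ∑ i : ι × κ, ((q i.1 * q' i.2 : ℝ) : ℂ) • (ρ i.1 ⊗ₖ ρ' i.2)
      = (∑ a, (q a : ℂ) • ρ a) ⊗ₖ (∑ b, (q' b : ℂ) • ρ' b) := by
    ext p r
    rw [Matrix.sum_apply, kroneckerMap_apply, Matrix.sum_apply, Matrix.sum_apply,
      Finset.sum_mul_sum, Fintype.sum_prod_type]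
    refine Finset.sum_congr rfl fun a _ => Finset.sum_congr rfl fun b _ => ?_
    simp only [Matrix.smul_apply, kroneckerMap_apply, smul_eq_mul]
    push_cast
    ring
  rw [havg, tensor_kron hΦ.1 hΨ.1, kron_entropy (channel_density hΦ (avg_density h1))
    (channel_density hΨ (avg_density h2))]
  have hs : ∑ i : ι × κ, q i.1 * q' i.2 * vnEntropy (qubitTensor Φ Ψ (ρ i.1 ⊗ₖ ρ' i.2))
      = ∑ a, q a * vnEntropy (Φ (ρ a)) + ∑ b, q' b * vnEntropy (Ψ (ρ' b)) := by
    have : ∀ i : ι × κ, q i.1 * q' i.2 * vnEntropy (qubitTensor Φ Ψ (ρ i.1 ⊗ₖ ρ' i.2))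
        = q i.1 * vnEntropy (Φ (ρ i.1)) * q' i.2 + q i.1 * (q' i.2 * vnEntropy (Ψ (ρ' i.2))) := by
      intro i
      rw [tensor_kron hΦ.1 hΨ.1, kron_entropy (channel_density hΦ (h1.2.2 _))
        (channel_density hΨ (h2.2.2 _))]
      ring
    rw [Finset.sum_congr rfl fun i _ => this i, Finset.sum_add_distrib, Fintype.sum_prod_type,
      Fintype.sum_prod_type]
    simp only [← Finset.mul_sum, ← Finset.sum_mul, h1.2.1, h2.2.1, one_mul, mul_one]
  rw [hs]
  ring

/-! ### the amplitude damping map is a channel -/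

lemma gad_tp (γ ν : ℝ) : IsTracePreserving (gadMap γ ν) := by
  intro M
  simp [Matrix.trace, gadMap]
  ring

lemma gad_cp {γ ν : ℝ} (hγ : γ ∈ Set.Icc (0 : ℝ) 1) (hν : ν ∈ Set.Icc (0 : ℝ) 1) :
    IsCompletelyPositive (gadMap γ ν) := by
  intro k M hM
  -- reorder as `Bool × Fin k`
  set N : Matrix (Bool × Fin k) (Bool × Fin k) ℂ := M.submatrix Prod.swap Prod.swap with hN
  have hNp : N.PosSemidef := hM.submatrix _
  have h1 : (fromBlocks (block N false false) (block N false true) (block N true false)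
      (block N true true)).PosSemidef := by
    have := hNp.submatrix (sumEquiv (Fin k))
    convert this using 1
    ext i j
    rcases i with i | i <;> rcases j with j | j <;> simp [block]
  have h2 := outM_posSemidef hγ hν h1
  have h3 := h2.submatrix ((sumEquiv (Fin k)).symm ∘ Prod.swap)
  convert h3 using 1
  unfold outM
  ext p q
  obtain ⟨i, s⟩ := p
  obtain ⟨j, t⟩ := q
  cases s <;> cases t <;> simp [blockwise, block, gadMap, hN]

lemma gad_channel {γ ν : ℝ} (hγ : γ ∈ Set.Icc (0 : ℝ) 1) (hν : ν ∈ Set.Icc (0 : ℝ) 1) :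
    IsChannel (gadMap γ ν) := ⟨gad_linear γ ν, gad_cp hγ hν, gad_tp γ ν⟩

end Crest.Agent.GadCap
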