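import Crest.Agent.GadCap.Chan

/-! Qubit states and the entropy bounds at channel level. -/

set_option autoImplicit false
set_option linter.unusedSectionVars false

namespace Crest.Agent.GadCap

open Matrix Finset Filter Topology Real
open Crest.Quantum Crest.MathPhysics.AmpDamp
open scoped ComplexOrder

variable {d e : Type*} [Fintype e] [DecidableEq e] [Fintype d] [DecidableEq d]

/-- qubit matrix with population `p` and real coherence `c` -/
noncomputable def qst (p c : ℝ) : Matrix Bool Bool ℂ :=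
  Matrix.of fun s t => if s = t then (if s = true then (p : ℂ) else ((1 - p : ℝ) : ℂ)) else (c : ℂ)

lemma qst_isHermitian (p c : ℝ) : (qst p c).IsHermitian := by
  unfold Matrix.IsHermitian
  ext s t
  cases s <;> cases t <;> simp [qst]

lemma qst_trace (p c : ℝ) : (qst p c).trace = 1 := by
  simp [Matrix.trace, qst]

lemma gad_qst (γ ν p c : ℝ) :
    gadMap γ ν (qst p c) = qst ((1 - γ) * p + γ * ν) (√(1 - γ) * c) := by
  ext s t
  cases s <;> cases t <;> simp [qst, gadMap] <;> ring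

lemma qst_density {p s : ℝ} (hp : p ∈ Set.Icc (0 : ℝ) 1) (hs : s ^ 2 = p) :
    IsDensity (qst p (√(1 - p) * s)) := by
  refine ⟨?_, qst_trace _ _⟩
  have h := posSemidef_vecMulVec_self_star
    (fun b : Bool => if b = true then (s : ℂ) else ((√(1 - p) : ℝ) : ℂ))
  convert h using 1
  have h1 : √(1 - p) * √(1 - p) = 1 - p := Real.mul_self_sqrt (by linarith [hp.2])
  ext i j
  cases i <;> cases j
  · simp only [qst, vecMulVec, Matrix.of_apply, Pi.star_apply]
    simp only [if_true, RCLike.star_def, Complex.conj_ofReal, Bool.false_eq_true, if_false]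
    rw [← Complex.ofReal_mul, h1]
  · simp [qst, vecMulVec]
  · simp only [qst, vecMulVec, Matrix.of_apply, Pi.star_apply]
    simp only [if_true, RCLike.star_def, Complex.conj_ofReal, Bool.false_eq_true, if_false]
    rw [← Complex.ofReal_mul]
    simp [mul_comm]
  · simp only [qst, vecMulVec, Matrix.of_apply, Pi.star_apply]
    simp only [if_true, RCLike.star_def, Complex.conj_ofReal]
    rw [← Complex.ofReal_mul, ← sq, hs]

lemma mu_add (T D : ℝ) : mu1 T D + mu2 T D = T := by
  unfold mu1 mu2; ring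

lemma mu_mul {T D : ℝ} (h : 0 ≤ T ^ 2 - 4 * D) : mu1 T D * mu2 T D = D := by
  have h1 := Real.sq_sqrt h
  unfold mu1 mu2
  have : (T + √(T ^ 2 - 4 * D)) / 2 * ((T - √(T ^ 2 - 4 * D)) / 2)
      = (T ^ 2 - √(T ^ 2 - 4 * D) ^ 2) / 4 := by ring
  rw [this, h1]; ring

lemma qst_specSum (f : ℝ → ℝ) (p c : ℝ) :
    specSum f (qst p c) = f (mu1 1 (p * (1 - p) - c ^ 2)) + f (mu2 1 (p * (1 - p) - c ^ 2)) := by
  have hdisc : 0 ≤ (1 : ℝ) ^ 2 - 4 * (p * (1 - p) - c ^ 2) := by
    nlinarith [sq_nonneg (1 - 2 * p), sq_nonneg c]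
  have h1 := mu_add 1 (p * (1 - p) - c ^ 2)
  have h2 := mu_mul hdisc
  set μ1 := mu1 1 (p * (1 - p) - c ^ 2) with hμ1
  set μ2 := mu2 1 (p * (1 - p) - c ^ 2) with hμ2
  rw [← specSum_submatrix f finTwoEquiv (qst p c)]
  have hcp : ((qst p c).submatrix finTwoEquiv finTwoEquiv).charpoly
      = ∏ i : Fin 2, (Polynomial.X - Polynomial.C (((![μ1, μ2] i : ℝ)) : ℂ)) := by
    have f0 : finTwoEquiv 0 = false := rfl
    have f1 : finTwoEquiv 1 = true := rfl
    rw [Matrix.charpoly_fin_two, Fin.prod_univ_two]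
    have ht : ((qst p c).submatrix finTwoEquiv finTwoEquiv).trace = ((μ1 + μ2 : ℝ) : ℂ) := by
      rw [h1]
      simp [Matrix.trace, qst, Fin.sum_univ_two, f0, f1]
    have hd : ((qst p c).submatrix finTwoEquiv finTwoEquiv).det = ((μ1 * μ2 : ℝ) : ℂ) := by
      rw [h2, Matrix.det_fin_two]
      simp [qst, f0, f1]
      ring
    rw [ht, hd]
    simp only [Matrix.cons_val_zero, Matrix.cons_val_one, Complex.ofReal_add, Complex.ofReal_mul,
      Polynomial.C_add, Polynomial.C_mul]
    ring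
  rw [specSum_of_charpoly f _ hcp, Fin.sum_univ_two]
  simp

/-- entropy of the output of a pure state -/
noncomputable def gfun (γ ν p : ℝ) : ℝ :=
  Real.binEntropy ((1 + Real.sqrt (1 - 4 * (γ * ν * (1 - ν) + γ * (1 - γ) * (p - ν) ^ 2))) / 2)

lemma gadRate_eq (γ ν p : ℝ) :
    gadRate γ ν p = Real.binEntropy ((1 - γ) * p + γ * ν) - gfun γ ν p := rfl

lemma binEntropy_mu (D : ℝ) :
    negMulLog (mu1 1 D) + negMulLog (mu2 1 D) = binEntropy ((1 + √(1 - 4 * D)) / 2) := by
  rw [Real.binEntropy_eq_negMulLog_add_negMulLog_one_sub]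
  unfold mu1 mu2
  congr 2
  · rw [one_pow]
  · rw [one_pow]; ring

lemma Dfun_eq (γ ν p : ℝ) :
    Dfun γ ν (1 - p) p = γ * ν * (1 - ν) + γ * (1 - γ) * (p - ν) ^ 2 := by
  unfold Dfun; ring

lemma gad_pure_entropy {γ ν p s : ℝ} (hγ : γ ∈ Set.Icc (0 : ℝ) 1) (hp : p ∈ Set.Icc (0 : ℝ) 1)
    (hs : s ^ 2 = p) : vnEntropy (gadMap γ ν (qst p (√(1 - p) * s))) = gfun γ ν p := by
  rw [gad_qst, vnEntropy_eq (qst_isHermitian _ _), qst_specSum]
  have h1 : √(1 - p) ^ 2 = 1 - p := Real.sq_sqrt (by linarith [hp.2])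
  have h2 : √(1 - γ) ^ 2 = 1 - γ := Real.sq_sqrt (by linarith [hγ.2])
  have h3 : ((1 - γ) * p + γ * ν) * (1 - ((1 - γ) * p + γ * ν)) - (√(1 - γ) * (√(1 - p) * s)) ^ 2
      = γ * ν * (1 - ν) + γ * (1 - γ) * (p - ν) ^ 2 := by
    rw [mul_pow, mul_pow, h1, h2, hs]; ring
  rw [h3, binEntropy_mu]
  rfl

lemma gad_diag_entropy (γ ν p : ℝ) :
    vnEntropy (gadMap γ ν (qst p 0)) = binEntropy ((1 - γ) * p + γ * ν) := by
  rw [gad_qst, vnEntropy_eq (qst_isHermitian _ _)]
  have : qst ((1 - γ) * p + γ * ν) (√(1 - γ) * 0) = diagonal (fun b : Bool =>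
      (((if b = true then ((1 - γ) * p + γ * ν) else 1 - ((1 - γ) * p + γ * ν)) : ℝ) : ℂ)) := by
    ext i j
    cases i <;> cases j <;> simp [qst]
  rw [this, specSum_diagonal, Real.binEntropy_eq_negMulLog_add_negMulLog_one_sub]
  simp

/-! ### the two entropy bounds for the tensor map -/

lemma tensor_isHermitian {γ ν : ℝ} {Ψ : Matrix d d ℂ → Matrix e e ℂ} (hΨ : IsChannel Ψ)
    {ρ : Matrix (Bool × d) (Bool × d) ℂ} (h : ρ.PosSemidef) :
    (qubitTensor (gadMap γ ν) Ψ ρ).IsHermitian := by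
  have h1 := outM_isHermitian (γ := γ) (ν := ν) (blocks_psd hΨ.2.1 h).isHermitian
  rw [← qubitTensor_submatrix] at h1
  have h2 := h1.submatrix (sumEquiv e).symm
  simpa using h2

lemma tensor_entropy {γ ν : ℝ} {Ψ : Matrix d d ℂ → Matrix e e ℂ} (hΨ : IsChannel Ψ)
    {ρ : Matrix (Bool × d) (Bool × d) ℂ} (h : ρ.PosSemidef) :
    vnEntropy (qubitTensor (gadMap γ ν) Ψ ρ) = specSum negMulLog
      (outM γ ν (Ψ (block ρ false false)) (Ψ (block ρ false true)) (Ψ (block ρ true false))
        (Ψ (block ρ true true))) := by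
  rw [vnEntropy_eq (tensor_isHermitian hΨ h), ← qubitTensor_submatrix, specSum_submatrix]

/-- population of the excited level -/
noncomputable def pop (ρ : Matrix (Bool × d) (Bool × d) ℂ) : ℝ := (block ρ true true).trace.re

lemma pop_false {ρ : Matrix (Bool × d) (Bool × d) ℂ} (h : IsDensity ρ) :
    (block ρ false false).trace.re = 1 - pop ρ := by
  have h1 := congrArg Complex.re (trace_block ρ)
  rw [h.2, Complex.add_re, Complex.one_re] at h1
  unfold pop
  linarith

lemma pop_mem {ρ : Matrix (Bool × d) (Bool × d) ℂ} (h : IsDensity ρ) :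
    pop ρ ∈ Set.Icc (0 : ℝ) 1 := by
  have h1 := trace_re_nonneg (block_posSemidef h.1 true)
  have h2 := trace_re_nonneg (block_posSemidef h.1 false)
  rw [pop_false h] at h2
  exact ⟨h1, by linarith⟩

theorem chan_key {γ ν : ℝ} (hγ : γ ∈ Set.Icc (0 : ℝ) 1) (hν : ν ∈ Set.Icc (0 : ℝ) 1)
    [Nonempty e] {Ψ : Matrix d d ℂ → Matrix e e ℂ} (hΨ : IsChannel Ψ)
    {D : Matrix d d ℂ} (hD : IsDensity D)
    {ρ : Matrix (Bool × d) (Bool × d) ℂ} (h : IsDensity ρ) :
    (1 - pop ρ) * vnEntropy (Ψ (nrm D (block ρ false false)))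
      + pop ρ * vnEntropy (Ψ (nrm D (block ρ true true))) + gfun γ ν (pop ρ)
      ≤ vnEntropy (qubitTensor (gadMap γ ν) Ψ ρ) := by
  have k := key hγ hν (blocks_psd hΨ.2.1 h.1)
  rw [← tensor_entropy hΨ h.1, hΨ.2.2, hΨ.2.2] at k
  have w1 := weight_entropy hΨ hD (block_posSemidef h.1 false)
  have w2 := weight_entropy hΨ hD (block_posSemidef h.1 true)
  rw [pop_false h] at w1 k
  have hpop : (block ρ true true).trace.re = pop ρ := rfl
  rw [hpop] at w2 k
  have e1 : 1 - pop ρ + pop ρ = 1 := by ring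
  rw [e1, Dfun_eq] at k
  have b := binEntropy_mu (γ * ν * (1 - ν) + γ * (1 - γ) * (pop ρ - ν) ^ 2)
  have hg : gfun γ ν (pop ρ)
      = binEntropy ((1 + √(1 - 4 * (γ * ν * (1 - ν) + γ * (1 - γ) * (pop ρ - ν) ^ 2))) / 2) := rfl
  rw [hg, ← b]
  linarith

/-- classical subadditivity in the form we need -/
lemma negMulLog_le {α y : ℝ} (hα : 0 ≤ α) (hy : 0 ≤ y) (h0 : y = 0 → α = 0) :
    negMulLog α ≤ - α * log y + y - α := by
  rcases hy.eq_or_lt with h | h
  · rw [h0 h.symm, ← h]; simp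
  · rcases hα.eq_or_lt with h1 | h1
    · rw [← h1]; simp; exact h.le
    · have h2 := Real.log_le_sub_one_of_pos (div_pos h h1)
      rw [Real.log_div h.ne' h1.ne'] at h2
      have h3 := mul_le_mul_of_nonneg_left h2 h1.le
      have h4 : α * (y / α - 1) = y - α := by field_simp
      rw [h4] at h3
      unfold negMulLog
      linarith

lemma subadd_classical {ι : Type*} [Fintype ι] {α β : ι → ℝ} (hα : ∀ i, 0 ≤ α i)
    (hβ : ∀ i, 0 ≤ β i) (h1 : ∑ i, α i + ∑ i, β i = 1) :
    ∑ i, negMulLog (α i) + ∑ i, negMulLog (β i)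
      ≤ negMulLog (∑ i, α i) + negMulLog (∑ i, β i) + ∑ i, negMulLog (α i + β i) := by
  set u := ∑ i, α i with hu
  set w := ∑ i, β i with hw
  have hu0 : 0 ≤ u := Finset.sum_nonneg fun i _ => hα i
  have hw0 : 0 ≤ w := Finset.sum_nonneg fun i _ => hβ i
  have hx0 : ∀ i, 0 ≤ α i + β i := fun i => add_nonneg (hα i) (hβ i)
  have hαu : ∀ i, α i ≤ u := fun i => Finset.single_le_sum (fun j _ => hα j) (Finset.mem_univ i)
  have hβw : ∀ i, β i ≤ w := fun i => Finset.single_le_sum (fun j _ => hβ j) (Finset.mem_univ i)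
  have hsx : ∑ i, (α i + β i) = 1 := by rw [Finset.sum_add_distrib]; exact h1
  -- pointwise
  have A : ∀ i, negMulLog (α i) ≤ - α i * (log u + log (α i + β i)) + u * (α i + β i) - α i := by
    intro i
    by_cases hz : α i = 0
    · rw [hz]
      simp
      exact mul_nonneg hu0 (hβ i)
    · have hp : 0 < α i := lt_of_le_of_ne (hα i) (Ne.symm hz)
      have hup : 0 < u := lt_of_lt_of_le hp (hαu i)
      have hxp : 0 < α i + β i := by linarith [hβ i]
      rw [← Real.log_mul hup.ne' hxp.ne']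
      exact negMulLog_le (hα i) (mul_pos hup hxp).le (fun h => absurd h (mul_pos hup hxp).ne')
  have B : ∀ i, negMulLog (β i) ≤ - β i * (log w + log (α i + β i)) + w * (α i + β i) - β i := by
    intro i
    by_cases hz : β i = 0
    · rw [hz]
      simp
      exact mul_nonneg hw0 (hα i)
    · have hp : 0 < β i := lt_of_le_of_ne (hβ i) (Ne.symm hz)
      have hup : 0 < w := lt_of_lt_of_le hp (hβw i)
      have hxp : 0 < α i + β i := by linarith [hα i]
      rw [← Real.log_mul hup.ne' hxp.ne']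
      exact negMulLog_le (hβ i) (mul_pos hup hxp).le (fun h => absurd h (mul_pos hup hxp).ne')
  calc ∑ i, negMulLog (α i) + ∑ i, negMulLog (β i)
      ≤ ∑ i, (- α i * (log u + log (α i + β i)) + u * (α i + β i) - α i)
        + ∑ i, (- β i * (log w + log (α i + β i)) + w * (α i + β i) - β i) :=
        add_le_add (Finset.sum_le_sum fun i _ => A i) (Finset.sum_le_sum fun i _ => B i)
    _ = ∑ i, (negMulLog (α i + β i) + (- log u * α i - log w * β i)
          + ((u + w) * (α i + β i) - (α i + β i))) := by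
        rw [← Finset.sum_add_distrib]
        refine Finset.sum_congr rfl fun i _ => ?_
        unfold negMulLog
        ring
    _ = _ := by
        rw [Finset.sum_add_distrib, Finset.sum_add_distrib, Finset.sum_sub_distrib,
          Finset.sum_sub_distrib, ← Finset.mul_sum, ← Finset.mul_sum, ← Finset.mul_sum, hsx,
          ← hu, ← hw, h1]
        unfold negMulLog
        ring

/-- quantum subadditivity in the form we need -/
theorem subadd_quantum {P Q Q' R : Matrix e e ℂ} (h : (fromBlocks P Q Q' R).PosSemidef)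
    (ht : P.trace.re + R.trace.re = 1) :
    specSum negMulLog (fromBlocks P Q Q' R)
      ≤ negMulLog P.trace.re + negMulLog R.trace.re + specSum negMulLog (P + R) := by
  obtain ⟨pP, pR⟩ := posSemidef_blocks h
  have hPR : (P + R).IsHermitian := pP.isHermitian.add pR.isHermitian
  have dx := isDz_of_isHermitian hPR
  set U : Matrix e e ℂ := (hPR.eigenvectorUnitary : Matrix e e ℂ) with hU
  set x := hPR.eigenvalues with hx
  set V : Matrix (e ⊕ e) (e ⊕ e) ℂ := fromBlocks Uᴴ 0 0 Uᴴ with hV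
  have hVV : Vᴴ * V = 1 := by
    rw [hV, fromBlocks_conjTranspose, fromBlocks_multiply, ← fromBlocks_one]
    simp [dx.hU']
  set M' := V * fromBlocks P Q Q' R * Vᴴ with hM'
  have hs : specSum negMulLog M' = specSum negMulLog (fromBlocks P Q Q' R) :=
    specSum_unitary _ _ _ hVV
  have pM' : M'.PosSemidef := h.mul_mul_conjTranspose_same V
  have hM'e : M' = fromBlocks (Uᴴ * P * U) (Uᴴ * Q * U) (Uᴴ * Q' * U) (Uᴴ * R * U) := by
    rw [hM', hV, fromBlocks_conjTranspose, fromBlocks_multiply, fromBlocks_multiply]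
    simp
  have dM' := isDz_of_isHermitian pM'.isHermitian
  have h1 := specSum_le_diag dM' Real.concaveOn_negMulLog (fun i => dM'.nonneg pM' i)
  rw [hs, Fintype.sum_sum_type] at h1
  set α : e → ℝ := fun i => ((Uᴴ * P * U) i i).re with hα
  set β : e → ℝ := fun i => ((Uᴴ * R * U) i i).re with hβ
  have e1 : ∀ i, (M' (Sum.inl i) (Sum.inl i)).re = α i := by
    intro i; rw [hM'e]; rfl
  have e2 : ∀ i, (M' (Sum.inr i) (Sum.inr i)).re = β i := by
    intro i; rw [hM'e]; rfl
  simp only [e1, e2] at h1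
  have pP' : (Uᴴ * P * U).PosSemidef := pP.conjTranspose_mul_mul_same U
  have pR' : (Uᴴ * R * U).PosSemidef := pR.conjTranspose_mul_mul_same U
  have hα0 : ∀ i, 0 ≤ α i := fun i => (Complex.le_def.mp (pP'.diag_nonneg (i := i))).1
  have hβ0 : ∀ i, 0 ≤ β i := fun i => (Complex.le_def.mp (pR'.diag_nonneg (i := i))).1
  have hαs : ∑ i, α i = P.trace.re := by
    have : (Uᴴ * P * U).trace = P.trace := by
      rw [Matrix.trace_mul_comm, ← Matrix.mul_assoc, dx.hU', Matrix.one_mul]
    rw [← this, Matrix.trace, Complex.re_sum]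
    rfl
  have hβs : ∑ i, β i = R.trace.re := by
    have : (Uᴴ * R * U).trace = R.trace := by
      rw [Matrix.trace_mul_comm, ← Matrix.mul_assoc, dx.hU', Matrix.one_mul]
    rw [← this, Matrix.trace, Complex.re_sum]
    rfl
  have hxs : ∀ i, x i = α i + β i := by
    intro i
    have h2 := congrFun (congrFun dx.conj i) i
    rw [Matrix.mul_add, Matrix.add_mul, diagonal_apply_eq, Matrix.add_apply] at h2
    have h3 := congrArg Complex.re h2
    rw [Complex.add_re, Complex.ofReal_re] at h3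
    exact h3.symm
  have h2 := subadd_classical hα0 hβ0 (by rw [hαs, hβs]; exact ht)
  rw [hαs, hβs] at h2
  have h3 : specSum negMulLog (P + R) = ∑ i, negMulLog (α i + β i) := by
    rw [dx.specSum]
    exact Finset.sum_congr rfl fun i _ => by rw [hxs]
  rw [h3]
  linarith

end Crest.Agent.GadCap
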