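import Mathlib

/-! Scalar potentials. -/

set_option autoImplicit false

namespace Crest.Agent.GadCap

open Real Filter Topology

/-- The scalar data: `a' = 1 - a`, `b' = 1 - b`, `k2 = a - b`, and the eigenvalues `μ1, μ2` of the
scalar output together with the weights. -/
structure SPar where
  (a b a' b' u w μ1 μ2 θ1 θ2 : ℝ)
  ha : a + a' = 1
  hb : b + b' = 1
  pa : 0 < a
  pb : 0 < b
  pa' : 0 < a'
  pb' : 0 < b'
  hk : b < a
  pu : 0 < u
  pw : 0 < w
  hθ : θ1 + θ2 = 1
  pθ1 : 0 ≤ θ1
  pθ2 : 0 ≤ θ2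
  pμ2 : 0 < μ2
  pμ1 : 0 < μ1
  hm0 : θ1 * μ2 + θ2 * μ1 = a * u + b * w
  hm1 : θ1 * μ1 + θ2 * μ2 = a' * u + b' * w
  hdet : μ1 * μ2 = (a * u + b * w) * (a' * u + b' * w) - (a - b) * u * w

/-- potential in the time variable -/
noncomputable def phi (p q μ2 μ1 β s : ℝ) : ℝ :=
  p * log (s + μ2) + q * log (s + μ1) - log (s + β)

lemma log_two_point {p q x y : ℝ} (hp : 0 ≤ p) (hq : 0 ≤ q) (hpq : p + q = 1) (hx : 0 < x)
    (hy : 0 < y) : p * log x + q * log y ≤ log (p * x + q * y) := by
  have := strictConcaveOn_log_Ioi.concaveOn.2 (Set.mem_Ioi.mpr hx) (Set.mem_Ioi.mpr hy) hp hq hpq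
  simpa using this

namespace SPar

variable (P : SPar)

/-- potential of side 0 -/
noncomputable def phi0 (s : ℝ) : ℝ := phi P.θ1 P.θ2 P.μ2 P.μ1 (P.b * P.w) s

/-- potential of side 1 -/
noncomputable def phi1 (s : ℝ) : ℝ := phi P.θ2 P.θ1 P.μ2 P.μ1 (P.a' * P.u) s

/-- potential as a function of the eigenvalue -/
noncomputable def G0 (x : ℝ) : ℝ := if x ≤ 0 then 0 else P.phi0 (max (P.u / x - P.b * P.w) 0)

noncomputable def G1 (y : ℝ) : ℝ := if y ≤ 0 then 0 else P.phi1 (max (P.w / y - P.a' * P.u) 0)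

lemma tau_mul {u β x : ℝ} (hx : 0 < x) :
    u ≤ x * (max (u / x - β) 0 + β) := by
  have h1 : u / x ≤ max (u / x - β) 0 + β := by
    have := le_max_left (u / x - β) 0
    linarith
  calc u = x * (u / x) := by field_simp
    _ ≤ _ := mul_le_mul_of_nonneg_left h1 hx.le

/-- the potentials are dominated by the log of the kernel -/
lemma pot {x y : ℝ} (hx : 0 ≤ x) (hy : 0 ≤ y) :
    P.G0 x + P.G1 y ≤ log (1 + P.a * x + P.b' * y + P.a' * P.b * x * y) := by
  have pa := P.pa
  have pb := P.pb
  have pa' := P.pa'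
  have pb' := P.pb'
  have pu := P.pu
  have pw := P.pw
  have pμ1 := P.pμ1
  have pμ2 := P.pμ2
  have hm0 := P.hm0
  have hm1 := P.hm1
  have hdet := P.hdet
  have hθ := P.hθ
  have hbw : 0 < P.b * P.w := mul_pos pb pw
  have hau : 0 < P.a' * P.u := mul_pos pa' pu
  rcases hx.eq_or_lt with hx0 | hx0
  · rcases hy.eq_or_lt with hy0 | hy0
    · simp [G0, G1, ← hx0, ← hy0]
    · have e1 : P.G0 x = 0 := by simp [G0, ← hx0]
      have e2 : P.G1 y = P.phi1 (max (P.w / y - P.a' * P.u) 0) := by simp [G1, hy0]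
      set s := max (P.w / y - P.a' * P.u) 0 with hs
      have hs0 : 0 ≤ s := le_max_right _ _
      have hys := tau_mul (u := P.w) (β := P.a' * P.u) hy0
      rw [← hs] at hys
      rw [e1, e2, zero_add, ← hx0]
      have hK : P.θ2 * (s + P.μ2) + P.θ1 * (s + P.μ1)
          ≤ (1 + P.a * 0 + P.b' * y + P.a' * P.b * 0 * y) * (s + P.a' * P.u) := by
        nlinarith [mul_le_mul_of_nonneg_left hys pb'.le]
      have h1 := log_two_point P.pθ2 P.pθ1 (by linarith [P.hθ]) (by linarith : 0 < s + P.μ2)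
        (by linarith : 0 < s + P.μ1)
      have h2 := Real.log_le_log (by
        have : P.θ2 * (s + P.μ2) + P.θ1 * (s + P.μ1) = s + (P.a' * P.u + P.b' * P.w) := by
          rw [← hm1]; linear_combination s * hθ
        rw [this]; positivity) hK
      rw [Real.log_mul (by positivity) (by positivity)] at h2
      unfold phi1 phi
      linarith
  · rcases hy.eq_or_lt with hy0 | hy0
    · have e1 : P.G1 y = 0 := by simp [G1, ← hy0]
      have e2 : P.G0 x = P.phi0 (max (P.u / x - P.b * P.w) 0) := by simp [G0, hx0]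
      set s := max (P.u / x - P.b * P.w) 0 with hs
      have hs0 : 0 ≤ s := le_max_right _ _
      have hys := tau_mul (u := P.u) (β := P.b * P.w) hx0
      rw [← hs] at hys
      rw [e1, e2, add_zero, ← hy0]
      have hK : P.θ1 * (s + P.μ2) + P.θ2 * (s + P.μ1)
          ≤ (1 + P.a * x + P.b' * 0 + P.a' * P.b * x * 0) * (s + P.b * P.w) := by
        nlinarith [mul_le_mul_of_nonneg_left hys pa.le]
      have h1 := log_two_point P.pθ1 P.pθ2 P.hθ (by linarith : 0 < s + P.μ2)
        (by linarith : 0 < s + P.μ1)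
      have h2 := Real.log_le_log (by
        have : P.θ1 * (s + P.μ2) + P.θ2 * (s + P.μ1) = s + (P.a * P.u + P.b * P.w) := by
          rw [← hm0]; linear_combination s * hθ
        rw [this]; positivity) hK
      rw [Real.log_mul (by positivity) (by positivity)] at h2
      unfold phi0 phi
      linarith
    · have e1 : P.G0 x = P.phi0 (max (P.u / x - P.b * P.w) 0) := by simp [G0, hx0]
      have e2 : P.G1 y = P.phi1 (max (P.w / y - P.a' * P.u) 0) := by simp [G1, hy0]
      rw [e1, e2]
      set t := max (P.u / x - P.b * P.w) 0 with ht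
      set s := max (P.w / y - P.a' * P.u) 0 with hs
      have hs0 : 0 ≤ s := le_max_right _ _
      have ht0 : 0 ≤ t := le_max_right _ _
      have hxt := tau_mul (u := P.u) (β := P.b * P.w) hx0
      have hys := tau_mul (u := P.w) (β := P.a' * P.u) hy0
      rw [← ht] at hxt
      rw [← hs] at hys
      set T := t + P.b * P.w with hT
      set S := s + P.a' * P.u with hS
      have hTp : 0 < T := by rw [hT]; positivity
      have hSp : 0 < S := by rw [hS]; positivity
      have hId : P.θ1 * ((t + P.μ2) * (s + P.μ1)) + P.θ2 * ((t + P.μ1) * (s + P.μ2))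
          = T * S + P.a * P.u * S + P.b' * P.w * T + P.a' * P.b * P.u * P.w := by
        have e3 : P.a * P.b' - (P.a - P.b) = P.a' * P.b := by
          have := P.ha; have := P.hb
          have e1 : P.a' = 1 - P.a := by linarith
          have e2 : P.b' = 1 - P.b := by linarith
          rw [e1, e2]; ring
        rw [hT, hS]
        linear_combination (t * s + P.μ1 * P.μ2) * hθ + s * hm0 + t * hm1 + hdet
          + P.u * P.w * e3
      have hK : P.θ1 * ((t + P.μ2) * (s + P.μ1)) + P.θ2 * ((t + P.μ1) * (s + P.μ2))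
          ≤ (1 + P.a * x + P.b' * y + P.a' * P.b * x * y) * (T * S) := by
        rw [hId]
        have h1 : P.a * P.u * S ≤ P.a * x * (T * S) := by
          calc P.a * P.u * S = (P.a * S) * P.u := by ring
            _ ≤ (P.a * S) * (x * T) :=
              mul_le_mul_of_nonneg_left hxt (by positivity : 0 ≤ P.a * S)
            _ = P.a * x * (T * S) := by ring
        have h2 : P.b' * P.w * T ≤ P.b' * y * (T * S) := by
          calc P.b' * P.w * T = (P.b' * T) * P.w := by ring
            _ ≤ (P.b' * T) * (y * S) :=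
              mul_le_mul_of_nonneg_left hys (by positivity : 0 ≤ P.b' * T)
            _ = P.b' * y * (T * S) := by ring
        have h3 : P.a' * P.b * P.u * P.w ≤ P.a' * P.b * x * y * (T * S) := by
          calc P.a' * P.b * P.u * P.w = (P.a' * P.b) * (P.u * P.w) := by ring
            _ ≤ (P.a' * P.b) * ((x * T) * (y * S)) :=
              mul_le_mul_of_nonneg_left (mul_le_mul hxt hys pw.le (by positivity))
                (by positivity : 0 ≤ P.a' * P.b)
            _ = P.a' * P.b * x * y * (T * S) := by ring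
        have h4 : (1 + P.a * x + P.b' * y + P.a' * P.b * x * y) * (T * S)
            = T * S + P.a * x * (T * S) + P.b' * y * (T * S)
              + P.a' * P.b * x * y * (T * S) := by ring
        linarith
      have h1 := log_two_point P.pθ1 P.pθ2 P.hθ
        (by positivity : 0 < (t + P.μ2) * (s + P.μ1)) (by positivity : 0 < (t + P.μ1) * (s + P.μ2))
      have h2 := Real.log_le_log (by rw [hId]; positivity) hK
      rw [Real.log_mul (by positivity) (by positivity), Real.log_mul hTp.ne' hSp.ne'] at h2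
      rw [Real.log_mul (by positivity) (by positivity),
        Real.log_mul (by positivity) (by positivity)] at h1
      unfold phi0 phi1 phi
      rw [← hT, ← hS]
      linarith

end SPar

lemma phi_hasDerivAt {p q μ2 μ1 β s : ℝ} (h2 : 0 < s + μ2) (h1 : 0 < s + μ1) (hβ : 0 < s + β) :
    HasDerivAt (phi p q μ2 μ1 β) (p * (s + μ2)⁻¹ + q * (s + μ1)⁻¹ - (s + β)⁻¹) s := by
  have aux : ∀ c : ℝ, 0 < s + c → HasDerivAt (fun s => log (s + c)) ((s + c)⁻¹) s := by
    intro c hc
    have := (Real.hasDerivAt_log hc.ne').comp s ((hasDerivAt_id s).add_const c)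
    simpa [Function.comp_def] using this
  exact (((aux μ2 h2).const_mul p).add ((aux μ1 h1).const_mul q)).sub (aux β hβ)

lemma phi_continuousOn {p q μ2 μ1 β : ℝ} (h2 : 0 < μ2) (h1 : 0 < μ1) (hβ : 0 < β) :
    ContinuousOn (phi p q μ2 μ1 β) (Set.Ici 0) := by
  intro s hs
  have hs : 0 ≤ s := hs
  exact (phi_hasDerivAt (by linarith) (by linarith) (by linarith)).continuousAt.continuousWithinAt

lemma phi_antitoneOn {p q μ2 μ1 β : ℝ} (hpq : p + q = 1)
    (h2 : 0 < μ2) (h1 : 0 < μ1) (hβ : 0 < β) (hm : β ≤ p * μ2 + q * μ1)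
    (hm' : (p * μ1 + q * μ2) * β ≤ μ1 * μ2) : AntitoneOn (phi p q μ2 μ1 β) (Set.Ici 0) := by
  refine antitoneOn_of_deriv_nonpos (convex_Ici 0) (phi_continuousOn h2 h1 hβ) ?_ ?_
  · intro s hs
    rw [interior_Ici] at hs
    have hs : 0 < s := hs
    exact (phi_hasDerivAt (by linarith) (by linarith)
      (by linarith)).differentiableAt.differentiableWithinAt
  · intro s hs
    rw [interior_Ici] at hs
    have hs : 0 < s := hs
    have e2 : 0 < s + μ2 := by linarith
    have e1 : 0 < s + μ1 := by linarith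
    have eβ : 0 < s + β := by linarith
    rw [(phi_hasDerivAt (p := p) (q := q) e2 e1 eβ).deriv]
    have key : (p * (s + μ1) + q * (s + μ2)) * (s + β) ≤ (s + μ2) * (s + μ1) := by
      have : (s + μ2) * (s + μ1) - (p * (s + μ1) + q * (s + μ2)) * (s + β)
          = s * (p * μ2 + q * μ1 - β) + (μ1 * μ2 - (p * μ1 + q * μ2) * β) := by
        have : q = 1 - p := by linarith
        subst this
        ring
      nlinarith [mul_nonneg hs.le (sub_nonneg.mpr hm)]
    have h3 : p * (s + μ2)⁻¹ + q * (s + μ1)⁻¹ - (s + β)⁻¹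
        = ((p * (s + μ1) + q * (s + μ2)) * (s + β) - (s + μ2) * (s + μ1))
          / ((s + μ2) * (s + μ1) * (s + β)) := by
      field_simp
    rw [h3]
    exact div_nonpos_of_nonpos_of_nonneg (by linarith) (by positivity)

lemma phi_tendsto {p q μ2 μ1 β : ℝ} (hpq : p + q = 1) :
    Tendsto (phi p q μ2 μ1 β) atTop (𝓝 0) := by
  have h2 := (Real.tendsto_log_comp_add_sub_log μ2).const_mul p
  have h1 := (Real.tendsto_log_comp_add_sub_log μ1).const_mul q
  have h0 := Real.tendsto_log_comp_add_sub_log β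
  have := (h2.add h1).sub h0
  simp only [mul_zero, add_zero, sub_zero] at this
  refine this.congr fun s => ?_
  unfold phi
  have : q = 1 - p := by linarith
  subst this
  ring

/-- what we use about the potentials -/
structure GoodPot (φ : ℝ → ℝ) : Prop where
  anti : AntitoneOn φ (Set.Ici 0)
  cont : ContinuousOn φ (Set.Ici 0)
  tend : Tendsto φ atTop (𝓝 0)

lemma GoodPot.nonneg {φ : ℝ → ℝ} (h : GoodPot φ) {s : ℝ} (hs : 0 ≤ s) : 0 ≤ φ s := by
  refine le_of_tendsto h.tend ?_
  filter_upwards [eventually_ge_atTop s] with x hx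
  exact h.anti hs (hs.trans hx) hx

/-- thresholds -/
lemma GoodPot.thresholds {φ : ℝ → ℝ} (h : GoodPot φ) {ε : ℝ} (hε : 0 < ε) :
    ∃ (N : ℕ) (s : Fin N → ℝ), (∀ j, 0 ≤ s j) ∧ ∀ τ, 0 ≤ τ →
      ε * (∑ j, if τ ≤ s j then (1 : ℝ) else 0) ≤ φ τ ∧
      φ τ - ε ≤ ε * (∑ j, if τ ≤ s j then (1 : ℝ) else 0) := by
  have hex : ∀ j : Fin ⌊φ 0 / ε⌋₊, ∃ s : ℝ, 0 ≤ s ∧ φ s = ((j : ℕ) + 1) * ε := by
    intro j
    have hj : (((j : ℕ) + 1 : ℕ) : ℝ) ≤ φ 0 / ε := by
      have := j.2
      exact (Nat.le_floor_iff' (Nat.succ_ne_zero _)).mp this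
    rw [le_div_iff₀ hε] at hj
    push_cast at hj
    have hpos : 0 < ((j : ℕ) + 1 : ℝ) * ε := by positivity
    obtain ⟨S, hS1, hS2⟩ := ((h.tend.eventually_lt_const hpos).and (eventually_ge_atTop 0)).exists
    have := intermediate_value_Icc' hS2 (h.cont.mono (fun x hx => hx.1))
    obtain ⟨s, hs1, hs2⟩ := this ⟨hS1.le, hj⟩
    exact ⟨s, hs1.1, hs2⟩
  choose s hs0 hs using hex
  refine ⟨_, s, hs0, fun τ hτ => ?_⟩
  rw [Finset.sum_boole]
  constructor
  · have hsub : (Finset.univ.filter fun j => τ ≤ s j).card ≤ ⌊φ τ / ε⌋₊ := by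
      have : (Finset.univ.filter fun j => τ ≤ s j).card
          ≤ (Finset.range ⌊φ τ / ε⌋₊).card := by
        refine Finset.card_le_card_of_injOn (fun j => (j : ℕ)) ?_ ?_
        · intro j hj
          rw [Finset.mem_coe, Finset.mem_filter] at hj
          have h1 := h.anti hτ (hτ.trans hj.2) hj.2
          rw [hs j] at h1
          rw [Finset.mem_coe, Finset.mem_range]
          refine (Nat.le_floor_iff' (Nat.succ_ne_zero _)).mpr ?_
          rw [le_div_iff₀ hε]
          push_cast
          exact h1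
        · intro i _ j _ hij
          exact Fin.ext hij
      simpa using this
    have h2 : (⌊φ τ / ε⌋₊ : ℝ) ≤ φ τ / ε := Nat.floor_le (div_nonneg (h.nonneg hτ) hε.le)
    have h3 : ((Finset.univ.filter fun j => τ ≤ s j).card : ℝ) ≤ φ τ / ε :=
      le_trans (by exact_mod_cast hsub) h2
    rw [le_div_iff₀ hε] at h3
    linarith
  · have hsub : ⌈φ τ / ε⌉₊ - 1 ≤ (Finset.univ.filter fun j => τ ≤ s j).card := by
      have : (Finset.range (⌈φ τ / ε⌉₊ - 1)).card
          ≤ (Finset.univ.filter fun j => τ ≤ s j).card := by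
        have hlt : ∀ k, k < ⌈φ τ / ε⌉₊ - 1 → ((k : ℝ) + 1) * ε < φ τ := by
          intro k hk
          have : k + 1 < ⌈φ τ / ε⌉₊ := by omega
          have := Nat.lt_ceil.mp this
          rw [lt_div_iff₀ hε] at this
          push_cast at this
          exact this
        have hN : ∀ k, k < ⌈φ τ / ε⌉₊ - 1 → k < ⌊φ 0 / ε⌋₊ := by
          intro k hk
          refine (Nat.le_floor_iff' (Nat.succ_ne_zero _)).mpr ?_
          rw [le_div_iff₀ hε]
          push_cast
          exact (hlt k hk).le.trans (h.anti (Set.mem_Ici.mpr le_rfl) hτ hτ)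
        refine Finset.card_le_card_of_surjOn (fun j => (j : ℕ)) ?_
        intro k hk
        rw [Finset.mem_coe, Finset.mem_range] at hk
        refine ⟨⟨k, hN k hk⟩, ?_, rfl⟩
        rw [Finset.mem_coe, Finset.mem_filter]
        refine ⟨Finset.mem_univ _, ?_⟩
        by_contra hcon
        push Not at hcon
        have h5 := h.anti (hs0 ⟨k, hN k hk⟩) hτ hcon.le
        rw [hs ⟨k, hN k hk⟩] at h5
        exact absurd h5 (not_le.mpr (hlt k hk))
      simpa using this
    have h2 : φ τ / ε ≤ (⌈φ τ / ε⌉₊ : ℝ) := Nat.le_ceil _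
    have h3 : (⌈φ τ / ε⌉₊ : ℝ) ≤ (Finset.univ.filter fun j => τ ≤ s j).card + 1 := by
      have : ⌈φ τ / ε⌉₊ ≤ (Finset.univ.filter fun j => τ ≤ s j).card + 1 := by omega
      exact_mod_cast this
    have h4 := h2.trans h3
    rw [div_le_iff₀ hε] at h4
    linarith

end Crest.Agent.GadCap
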