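import Mathlib

/-! Spectral sums of Hermitian matrices and a Jensen inequality for sums. -/

set_option autoImplicit false
set_option linter.unusedSectionVars false

namespace Crest.Agent.GadCap

open Matrix Finset
open scoped ComplexOrder

variable {n m : Type*} [Fintype n] [DecidableEq n] [Fintype m] [DecidableEq m]

/-- The sum of `f` over the real parts of the roots of the characteristic polynomial. -/
noncomputable def specSum (f : ℝ → ℝ) (M : Matrix n n ℂ) : ℝ :=
  ((M.charpoly.roots.map Complex.re).map f).sum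

/-- A diagonalization of a matrix by a unitary matrix, with real eigenvalues. -/
structure IsDz (M U : Matrix n n ℂ) (x : n → ℝ) : Prop where
  hU : Uᴴ * U = 1
  hU' : U * Uᴴ = 1
  hM : M = U * diagonal (fun i => (x i : ℂ)) * Uᴴ

/-- Mathlib's diagonalization. -/
lemma isDz_of_isHermitian {M : Matrix n n ℂ} (h : M.IsHermitian) :
    IsDz M (h.eigenvectorUnitary : Matrix n n ℂ) h.eigenvalues where
  hU := by
    have := h.eigenvectorUnitary.2
    exact (Unitary.mem_iff.mp this).1
  hU' := by
    have := h.eigenvectorUnitary.2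
    exact (Unitary.mem_iff.mp this).2
  hM := by
    conv_lhs => rw [h.spectral_theorem]
    rfl

namespace IsDz

variable {M U : Matrix n n ℂ} {x : n → ℝ}

lemma conj (d : IsDz M U x) : Uᴴ * M * U = diagonal (fun i => (x i : ℂ)) := by
  rw [d.hM]
  calc Uᴴ * (U * diagonal (fun i => (x i : ℂ)) * Uᴴ) * U
      = (Uᴴ * U) * diagonal (fun i => (x i : ℂ)) * (Uᴴ * U) := by
        simp only [Matrix.mul_assoc]
    _ = _ := by rw [d.hU, Matrix.one_mul, Matrix.mul_one]

lemma isHermitian (d : IsDz M U x) : M.IsHermitian := by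
  rw [d.hM]
  unfold Matrix.IsHermitian
  rw [conjTranspose_mul, conjTranspose_mul, conjTranspose_conjTranspose, diagonal_conjTranspose,
    ← Matrix.mul_assoc]
  congr 2
  congr 1
  ext i
  simp

lemma charpoly (d : IsDz M U x) :
    M.charpoly = ∏ i, (Polynomial.X - Polynomial.C (x i : ℂ)) := by
  rw [d.hM, Matrix.charpoly_mul_comm, ← Matrix.mul_assoc, d.hU, Matrix.one_mul, charpoly_diagonal]

end IsDz

lemma specSum_of_charpoly {ι : Type*} [Fintype ι] (f : ℝ → ℝ) {M : Matrix n n ℂ} (x : ι → ℝ)
    (h : M.charpoly = ∏ i, (Polynomial.X - Polynomial.C (x i : ℂ))) :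
    specSum f M = ∑ i, f (x i) := by
  unfold specSum
  rw [h, Polynomial.roots_prod _ _
    (by simp [Finset.prod_ne_zero_iff, Polynomial.X_sub_C_ne_zero])]
  simp only [Polynomial.roots_X_sub_C, Multiset.bind_singleton, Multiset.map_map,
    Function.comp_def, Complex.ofReal_re]
  rfl

lemma IsDz.specSum {M U : Matrix n n ℂ} {x : n → ℝ} (d : IsDz M U x) (f : ℝ → ℝ) :
    specSum f M = ∑ i, f (x i) :=
  specSum_of_charpoly f x d.charpoly

lemma specSum_eq (f : ℝ → ℝ) {M : Matrix n n ℂ} (h : M.IsHermitian) :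
    specSum f M = ∑ i, f (h.eigenvalues i) :=
  (isDz_of_isHermitian h).specSum f

lemma specSum_reindex (f : ℝ → ℝ) (e : n ≃ m) (M : Matrix n n ℂ) :
    specSum f (Matrix.reindex e e M) = specSum f M := by
  unfold specSum
  rw [Matrix.charpoly_reindex]

lemma specSum_submatrix (f : ℝ → ℝ) (e : m ≃ n) (M : Matrix n n ℂ) :
    specSum f (M.submatrix e e) = specSum f M := by
  have := specSum_reindex f e.symm M
  simpa [Matrix.reindex_apply] using this

lemma specSum_unitary (f : ℝ → ℝ) (M U : Matrix n n ℂ) (hU : Uᴴ * U = 1) :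
    specSum f (U * M * Uᴴ) = specSum f M := by
  unfold specSum
  rw [Matrix.mul_assoc, Matrix.charpoly_mul_comm, Matrix.mul_assoc, hU, Matrix.mul_one]

lemma specSum_diagonal (f : ℝ → ℝ) (x : n → ℝ) :
    specSum f (diagonal (fun i => (x i : ℂ))) = ∑ i, f (x i) :=
  specSum_of_charpoly f x (charpoly_diagonal _)

namespace IsDz

variable {M U : Matrix n n ℂ} {x : n → ℝ}

lemma trace (d : IsDz M U x) : M.trace = ((∑ i, x i : ℝ) : ℂ) := by
  rw [d.hM, Matrix.trace_mul_comm, ← Matrix.mul_assoc, d.hU, Matrix.one_mul, trace_diagonal]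
  push_cast
  rfl

lemma det_add (d : IsDz M U x) (t : ℝ) :
    ((t : ℂ) • (1 : Matrix n n ℂ) + M).det = ((∏ i, (t + x i) : ℝ) : ℂ) := by
  have h1 : (t : ℂ) • (1 : Matrix n n ℂ) + M
      = U * diagonal (fun i => ((t + x i : ℝ) : ℂ)) * Uᴴ := by
    have : diagonal (fun i => ((t + x i : ℝ) : ℂ))
        = (t : ℂ) • (1 : Matrix n n ℂ) + diagonal (fun i => (x i : ℂ)) := by
      rw [← diagonal_one, ← diagonal_smul, diagonal_add]
      congr 1
      ext i
      simp
    rw [this, Matrix.mul_add, Matrix.add_mul, ← d.hM]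
    congr 1
    rw [Matrix.mul_smul, Matrix.mul_one, Matrix.smul_mul, d.hU']
  rw [h1, Matrix.det_mul_right_comm, d.hU', Matrix.one_mul, det_diagonal]
  push_cast
  rfl

/-- eigenvalues of a PSD matrix are nonnegative -/
lemma nonneg (d : IsDz M U x) (h : M.PosSemidef) (i : n) : 0 ≤ x i := by
  have h1 : (Uᴴ * M * U).PosSemidef := h.conjTranspose_mul_mul_same U
  rw [d.conj, posSemidef_diagonal_iff] at h1
  exact_mod_cast h1 i

lemma pos (d : IsDz M U x) (h : M.PosDef) (i : n) : 0 < x i := by
  have h1 : (Uᴴ * M * U).PosDef := by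
    apply h.conjTranspose_mul_mul_same
    intro v w hvw
    have := congrArg (fun z => Uᴴ *ᵥ z) hvw
    simpa [Matrix.mulVec_mulVec, d.hU] using this
  rw [d.conj, posDef_diagonal_iff] at h1
  exact_mod_cast h1 i

lemma posSemidef (d : IsDz M U x) (h : ∀ i, 0 ≤ x i) : M.PosSemidef := by
  rw [d.hM]
  apply PosSemidef.mul_mul_conjTranspose_same
  rw [posSemidef_diagonal_iff]
  intro i
  exact_mod_cast h i

end IsDz

lemma sum_normSq_col {W : Matrix m n ℂ} (h : Wᴴ * W = 1) (k : n) :
    ∑ i, Complex.normSq (W i k) = 1 := by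
  have := congrFun (congrFun h k) k
  rw [Matrix.mul_apply] at this
  simp only [conjTranspose_apply, one_apply_eq] at this
  have h2 : ((∑ i, Complex.normSq (W i k) : ℝ) : ℂ) = 1 := by
    rw [← this]
    push_cast
    refine Finset.sum_congr rfl fun i _ => ?_
    rw [Complex.normSq_eq_conj_mul_self]
    rfl
  exact_mod_cast h2

lemma sum_normSq_row {W : Matrix m n ℂ} (h : W * Wᴴ = 1) (i : m) :
    ∑ k, Complex.normSq (W i k) = 1 := by
  have := sum_normSq_col (W := Wᴴ) (by simpa using h) i
  simpa using this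

lemma conj_diag_apply (W : Matrix m n ℂ) (x : m → ℝ) (k : n) :
    (Wᴴ * diagonal (fun i => (x i : ℂ)) * W) k k
      = ((∑ i, Complex.normSq (W i k) * x i : ℝ) : ℂ) := by
  rw [Matrix.mul_apply]
  simp only [Matrix.mul_diagonal, conjTranspose_apply]
  push_cast
  refine Finset.sum_congr rfl fun i _ => ?_
  rw [Complex.normSq_eq_conj_mul_self]
  simp only [RCLike.star_def]
  ring

/-- Jensen inequality for the spectrum of a sum of Hermitian matrices. -/
theorem jensen_sum {N X Y UN UX UY : Matrix n n ℂ} {ν x y : n → ℝ} (dN : IsDz N UN ν)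
    (dX : IsDz X UX x) (dY : IsDz Y UY y) (hN : N = X + Y)
    {s : Set ℝ} {f : ℝ → ℝ} (hf : ConcaveOn ℝ s f) (g h : n → ℝ)
    (hs : ∀ i j, x i + y j ∈ s) (hgh : ∀ i j, g i + h j ≤ f (x i + y j)) :
    ∑ i, g i + ∑ j, h j ≤ ∑ k, f (ν k) := by
  classical
  set W := UXᴴ * UN with hW
  set V := UYᴴ * UN with hV
  have hWW : Wᴴ * W = 1 := by
    rw [hW, conjTranspose_mul, conjTranspose_conjTranspose]
    calc UNᴴ * UX * (UXᴴ * UN) = UNᴴ * (UX * UXᴴ) * UN := by
          simp only [Matrix.mul_assoc]
      _ = 1 := by rw [dX.hU', Matrix.mul_one, dN.hU]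
  have hWW' : W * Wᴴ = 1 := by
    rw [hW, conjTranspose_mul, conjTranspose_conjTranspose]
    calc UXᴴ * UN * (UNᴴ * UX) = UXᴴ * (UN * UNᴴ) * UX := by
          simp only [Matrix.mul_assoc]
      _ = 1 := by rw [dN.hU', Matrix.mul_one, dX.hU]
  have hVV : Vᴴ * V = 1 := by
    rw [hV, conjTranspose_mul, conjTranspose_conjTranspose]
    calc UNᴴ * UY * (UYᴴ * UN) = UNᴴ * (UY * UYᴴ) * UN := by
          simp only [Matrix.mul_assoc]
      _ = 1 := by rw [dY.hU', Matrix.mul_one, dN.hU]
  have hVV' : V * Vᴴ = 1 := by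
    rw [hV, conjTranspose_mul, conjTranspose_conjTranspose]
    calc UYᴴ * UN * (UNᴴ * UY) = UYᴴ * (UN * UNᴴ) * UY := by
          simp only [Matrix.mul_assoc]
      _ = 1 := by rw [dN.hU', Matrix.mul_one, dY.hU]
  have key : ∀ k, ν k = ∑ i, Complex.normSq (W i k) * x i
      + ∑ j, Complex.normSq (V j k) * y j := by
    intro k
    have e1 := dN.conj
    have e2 : UNᴴ * N * UN = Wᴴ * diagonal (fun i => (x i : ℂ)) * W
        + Vᴴ * diagonal (fun i => (y i : ℂ)) * V := by
      rw [hN, dX.hM, dY.hM, hW, hV, conjTranspose_mul, conjTranspose_conjTranspose,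
        conjTranspose_mul, conjTranspose_conjTranspose]
      simp only [Matrix.mul_add, Matrix.add_mul, Matrix.mul_assoc]
    have e3 := congrFun (congrFun (e1.symm.trans e2) k) k
    rw [diagonal_apply_eq, Matrix.add_apply, conj_diag_apply, conj_diag_apply] at e3
    exact_mod_cast e3
  have step : ∀ k, ∑ i, Complex.normSq (W i k) * g i + ∑ j, Complex.normSq (V j k) * h j
      ≤ f (ν k) := by
    intro k
    have hP := sum_normSq_col hWW k
    have hQ := sum_normSq_col hVV k
    have hw1 : ∑ p : n × n, Complex.normSq (W p.1 k) * Complex.normSq (V p.2 k) = 1 := by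
      rw [Fintype.sum_prod_type]
      simp_rw [← Finset.mul_sum]
      rw [hQ]
      simpa using hP
    have J := hf.le_map_sum (t := Finset.univ)
      (w := fun p : n × n => Complex.normSq (W p.1 k) * Complex.normSq (V p.2 k))
      (p := fun p : n × n => x p.1 + y p.2)
      (fun p _ => mul_nonneg (Complex.normSq_nonneg _) (Complex.normSq_nonneg _)) hw1
      (fun p _ => hs p.1 p.2)
    have e4 : ∀ (a b : n → ℝ), ∑ p : n × n, (Complex.normSq (W p.1 k) * Complex.normSq (V p.2 k))
        * (a p.1 + b p.2) = ∑ i, Complex.normSq (W i k) * a i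
          + ∑ j, Complex.normSq (V j k) * b j := by
      intro a b
      rw [Fintype.sum_prod_type]
      have : ∀ i, ∑ j, (Complex.normSq (W i k) * Complex.normSq (V j k)) * (a i + b j)
          = Complex.normSq (W i k) * a i + Complex.normSq (W i k)
            * ∑ j, Complex.normSq (V j k) * b j := by
        intro i
        have : ∀ j, (Complex.normSq (W i k) * Complex.normSq (V j k)) * (a i + b j)
            = (Complex.normSq (W i k) * a i) * Complex.normSq (V j k)
              + Complex.normSq (W i k) * (Complex.normSq (V j k) * b j) := by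
          intro j; ring
        simp_rw [this]
        rw [Finset.sum_add_distrib, ← Finset.mul_sum, ← Finset.mul_sum, hQ, mul_one]
      simp_rw [this]
      rw [Finset.sum_add_distrib, ← Finset.sum_mul, hP, one_mul]
    simp only [smul_eq_mul] at J
    rw [e4 x y, ← key k] at J
    refine le_trans ?_ J
    rw [← e4 g h]
    refine Finset.sum_le_sum fun p _ => ?_
    exact mul_le_mul_of_nonneg_left (hgh p.1 p.2)
      (mul_nonneg (Complex.normSq_nonneg _) (Complex.normSq_nonneg _))
  calc ∑ i, g i + ∑ j, h j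
      = ∑ k, (∑ i, Complex.normSq (W i k) * g i + ∑ j, Complex.normSq (V j k) * h j) := by
        rw [Finset.sum_add_distrib]
        congr 1
        · rw [Finset.sum_comm]
          refine Finset.sum_congr rfl fun i _ => ?_
          rw [← Finset.sum_mul, sum_normSq_row hWW' i, one_mul]
        · rw [Finset.sum_comm]
          refine Finset.sum_congr rfl fun i _ => ?_
          rw [← Finset.sum_mul, sum_normSq_row hVV' i, one_mul]
    _ ≤ _ := Finset.sum_le_sum fun k _ => step k

/-- The spectral sum of a concave function is at most its sum over the diagonal. -/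
theorem specSum_le_diag {M : Matrix n n ℂ} {U : Matrix n n ℂ} {x : n → ℝ} (d : IsDz M U x)
    {s : Set ℝ} {f : ℝ → ℝ} (hf : ConcaveOn ℝ s f) (hs : ∀ i, x i ∈ s) :
    specSum f M ≤ ∑ i, f ((M i i).re) := by
  rw [d.specSum]
  have key : ∀ i, (M i i).re = ∑ k, Complex.normSq (Uᴴ k i) * x k := by
    intro i
    have := conj_diag_apply (Uᴴ) x i
    rw [conjTranspose_conjTranspose, ← d.hM] at this
    rw [this]
    simp
  have hc : ∀ i, ∑ k, Complex.normSq (Uᴴ k i) = 1 := fun i =>
    sum_normSq_col (W := Uᴴ) (by simpa using d.hU') i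
  have hr : ∀ k, ∑ i, Complex.normSq (Uᴴ k i) = 1 := fun k =>
    sum_normSq_row (W := Uᴴ) (by simpa using d.hU) k
  calc ∑ k, f (x k) = ∑ i, ∑ k, Complex.normSq (Uᴴ k i) * f (x k) := by
        rw [Finset.sum_comm]
        refine Finset.sum_congr rfl fun k _ => ?_
        rw [← Finset.sum_mul, hr, one_mul]
    _ ≤ ∑ i, f ((M i i).re) := by
        refine Finset.sum_le_sum fun i _ => ?_
        rw [key i]
        have := hf.le_map_sum (t := Finset.univ) (w := fun k => Complex.normSq (Uᴴ k i))
          (p := x) (fun k _ => Complex.normSq_nonneg _) (hc i) (fun k _ => hs k)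
        simpa using this

end Crest.Agent.GadCap
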