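import Crest.Agent.GadCap.Qubit

/-! The upper bound on the Holevo information of the tensor map. -/

set_option autoImplicit false
set_option linter.unusedSectionVars false

namespace Crest.Agent.GadCap

open Matrix Finset Filter Topology Real
open Crest.Quantum Crest.MathPhysics.AmpDamp
open scoped ComplexOrder

variable {d e : Type*} [Fintype e] [DecidableEq e] [Fintype d] [DecidableEq d]

lemma outM_posSemidef {γ ν : ℝ} (hγ : γ ∈ Set.Icc (0 : ℝ) 1) (hν : ν ∈ Set.Icc (0 : ℝ) 1)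
    {A R R' C : Matrix e e ℂ} (h : (fromBlocks A R R' C).PosSemidef) :
    (outM γ ν A R R' C).PosSemidef := by
  obtain ⟨hγ0, hγ1⟩ := hγ
  obtain ⟨hν0, hν1⟩ := hν
  set κ : ℂ := ((√(1 - γ) : ℝ) : ℂ) with hκ
  have hκκ : κ * κ = ((1 - γ : ℝ) : ℂ) := by
    rw [hκ, ← Complex.ofReal_mul, Real.mul_self_sqrt (by linarith)]
  have hκs : star κ = κ := by simp [hκ]
  have p0 := h.mul_mul_conjTranspose_same 
    (fromBlocks (1 : Matrix e e ℂ) 0 0 (κ • 1) : Matrix (e ⊕ e) (e ⊕ e) ℂ)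
  have p1 := h.mul_mul_conjTranspose_same 
    (fromBlocks 0 1 0 0 : Matrix (e ⊕ e) (e ⊕ e) ℂ)
  have p2 := h.mul_mul_conjTranspose_same 
    (fromBlocks (κ • 1) 0 0 1 : Matrix (e ⊕ e) (e ⊕ e) ℂ)
  have p3 := h.mul_mul_conjTranspose_same 
    (fromBlocks 0 0 1 0 : Matrix (e ⊕ e) (e ⊕ e) ℂ)
  rw [fromBlocks_conjTranspose, fromBlocks_multiply, fromBlocks_multiply] at p0 p1 p2 p3
  simp only [Matrix.mul_zero, Matrix.zero_mul, add_zero, zero_add, Matrix.one_mul, Matrix.mul_one,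
    conjTranspose_one, conjTranspose_zero, conjTranspose_smul, hκs, Matrix.smul_mul,
    Matrix.mul_smul, smul_smul, hκκ] at p0 p1 p2 p3
  have q0 := posSemidef_smul p0 (t := 1 - ν) (by linarith)
  have q1 := posSemidef_smul p1 (t := (1 - ν) * γ) (mul_nonneg (by linarith) hγ0)
  have q2 := posSemidef_smul p2 (t := ν) hν0
  have q3 := posSemidef_smul p3 (t := ν * γ) (mul_nonneg hν0 hγ0)
  have := ((q0.add q1).add q2).add q3
  convert this using 1
  unfold outM
  simp only [fromBlocks_smul, fromBlocks_add, smul_smul, smul_zero, add_zero]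
  rw [← hκ]
  congr 1
  · push_cast; module
  · push_cast; module
  · push_cast; module
  · push_cast; module

lemma block_add (M N : Matrix (Bool × d) (Bool × d) ℂ) (s t : Bool) :
    block (M + N) s t = block M s t + block N s t := rfl

lemma block_smul (c : ℂ) (M : Matrix (Bool × d) (Bool × d) ℂ) (s t : Bool) :
    block (c • M) s t = c • block M s t := rfl

lemma block_sum {ι : Type*} [Fintype ι] (M : ι → Matrix (Bool × d) (Bool × d) ℂ) (s t : Bool) :
    block (∑ a, M a) s t = ∑ a, block (M a) s t := by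
  ext i j
  simp [block, Matrix.sum_apply]

lemma tensor_linear (Φ : Matrix Bool Bool ℂ → Matrix Bool Bool ℂ)
    {Ψ : Matrix d d ℂ → Matrix e e ℂ} (hΨ : IsLinearMap ℂ Ψ) :
    IsLinearMap ℂ (qubitTensor Φ Ψ) where
  map_add := by
    intro M N
    ext p q
    simp only [qubitTensor, Matrix.of_apply, block_add, hΨ.map_add, Matrix.add_apply, mul_add,
      Finset.sum_add_distrib]
  map_smul := by
    intro c M
    ext p q
    simp only [qubitTensor, Matrix.of_apply, block_smul, hΨ.map_smul, Matrix.smul_apply,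
      smul_eq_mul, Finset.mul_sum]
    refine Finset.sum_congr rfl fun s _ => Finset.sum_congr rfl fun t _ => ?_
    ring

lemma sum_linear {ι : Type*} [Fintype ι] {Φ : Matrix d d ℂ → Matrix e e ℂ}
    (hΦ : IsLinearMap ℂ Φ) (q : ι → ℝ) (ρ : ι → Matrix d d ℂ) :
    ∑ a, (q a : ℂ) • Φ (ρ a) = Φ (∑ a, (q a : ℂ) • ρ a) := by
  have := map_sum (IsLinearMap.mk' Φ hΦ) (fun a => (q a : ℂ) • ρ a) Finset.univ
  rw [IsLinearMap.mk'_apply] at this
  rw [this]
  refine Finset.sum_congr rfl fun a _ => ?_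
  rw [IsLinearMap.mk'_apply, hΦ.map_smul]

lemma avg_density {ι : Type*} [Fintype ι] {q : ι → ℝ} {ρ : ι → Matrix d d ℂ} (h : IsEns q ρ) :
    IsDensity (∑ a, (q a : ℂ) • ρ a) := by
  refine ⟨posSemidef_sum _ fun a _ => posSemidef_smul (h.2.2 a).1 (h.1 a), ?_⟩
  rw [trace_sum]
  have : ∀ a, ((q a : ℂ) • ρ a).trace = (q a : ℂ) := by
    intro a
    rw [trace_smul, (h.2.2 a).2, smul_eq_mul, mul_one]
  rw [Finset.sum_congr rfl fun a _ => this a]
  exact_mod_cast h.2.1

lemma pop_avg {ι : Type*} [Fintype ι] (q : ι → ℝ) (ρ : ι → Matrix (Bool × d) (Bool × d) ℂ) :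
    pop (∑ a, (q a : ℂ) • ρ a) = ∑ a, q a * pop (ρ a) := by
  unfold pop
  rw [block_sum, trace_sum, Complex.re_sum]
  refine Finset.sum_congr rfl fun a _ => ?_
  rw [block_smul, trace_smul, smul_eq_mul, Complex.re_ofReal_mul]

/-- weights of the derived ensemble -/
noncomputable def q2 {ι : Type*} (q : ι → ℝ) (ρ : ι → Matrix (Bool × d) (Bool × d) ℂ)
    (i : ι × Bool) : ℝ := q i.1 * (block (ρ i.1) i.2 i.2).trace.re

noncomputable def ρ2 {ι : Type*} (D : Matrix d d ℂ) (ρ : ι → Matrix (Bool × d) (Bool × d) ℂ)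
    (i : ι × Bool) : Matrix d d ℂ := nrm D (block (ρ i.1) i.2 i.2)

lemma ens2 {ι : Type*} [Fintype ι] {q : ι → ℝ} {ρ : ι → Matrix (Bool × d) (Bool × d) ℂ}
    (h : IsEns q ρ) {D : Matrix d d ℂ} (hD : IsDensity D) : IsEns (q2 q ρ) (ρ2 D ρ) := by
  refine ⟨fun i => mul_nonneg (h.1 _) (trace_re_nonneg (block_posSemidef (h.2.2 _).1 _)), ?_,
    fun i => nrm_density hD (block_posSemidef (h.2.2 _).1 _)⟩
  rw [Fintype.sum_prod_type]
  simp only [q2, Fintype.sum_bool]
  rw [← h.2.1]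
  refine Finset.sum_congr rfl fun a _ => ?_
  rw [pop_false (h.2.2 a)]
  have : (block (ρ a) true true).trace.re = pop (ρ a) := rfl
  rw [this]
  ring

theorem upper {γ ν : ℝ} (hγ : γ ∈ Set.Icc (0 : ℝ) 1) (hν : ν ∈ Set.Icc (0 : ℝ) 1)
    [Nonempty e] {Ψ : Matrix d d ℂ → Matrix e e ℂ} (hΨ : IsChannel Ψ)
    {D : Matrix d d ℂ} (hD : IsDensity D) {ι : Type*} [Fintype ι] {q : ι → ℝ}
    {ρ : ι → Matrix (Bool × d) (Bool × d) ℂ} (h : IsEns q ρ) :
    hol (qubitTensor (gadMap γ ν) Ψ) q ρ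
      ≤ (binEntropy ((1 - γ) * (∑ a, q a * pop (ρ a)) + γ * ν) - ∑ a, q a * gfun γ ν (pop (ρ a)))
        + hol Ψ (q2 q ρ) (ρ2 D ρ) := by
  unfold hol
  rw [sum_linear (tensor_linear _ hΨ.1), sum_linear hΨ.1]
  set ρb := ∑ a, (q a : ℂ) • ρ a with hρb
  have hρbd : IsDensity ρb := avg_density h
  -- the average of the derived ensemble
  have h1 : ∑ i, (q2 q ρ i : ℂ) • ρ2 D ρ i = block ρb false false + block ρb true true := by
    rw [Fintype.sum_prod_type, hρb, block_sum, block_sum, ← Finset.sum_add_distrib]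
    refine Finset.sum_congr rfl fun a _ => ?_
    rw [Fintype.sum_bool, block_smul, block_smul]
    simp only [q2, ρ2]
    rw [Complex.ofReal_mul, Complex.ofReal_mul, ← smul_smul, ← smul_smul,
      nrm_smul (block_posSemidef (h.2.2 a).1 _), nrm_smul (block_posSemidef (h.2.2 a).1 _),
      add_comm]
  rw [h1]
  -- entropy of the average output
  have h2 : vnEntropy (qubitTensor (gadMap γ ν) Ψ ρb)
      ≤ binEntropy ((1 - γ) * pop ρb + γ * ν)
        + vnEntropy (Ψ (block ρb false false + block ρb true true)) := by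
    have pb := blocks_psd hΨ.2.1 hρbd.1
    have po := outM_posSemidef hγ hν pb
    have ht1 : (((1 - γ * ν : ℝ) : ℂ) • Ψ (block ρb false false)
        + ((γ * (1 - ν) : ℝ) : ℂ) • Ψ (block ρb true true)).trace.re
        = 1 - ((1 - γ) * pop ρb + γ * ν) := by
      rw [trace_add, trace_smul, trace_smul, hΨ.2.2, hΨ.2.2, smul_eq_mul, smul_eq_mul,
        Complex.add_re, Complex.re_ofReal_mul, Complex.re_ofReal_mul, pop_false hρbd]
      have : (block ρb true true).trace.re = pop ρb := rfl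
      rw [this]
      ring
    have ht2 : (((γ * ν : ℝ) : ℂ) • Ψ (block ρb false false)
        + ((1 - γ + γ * ν : ℝ) : ℂ) • Ψ (block ρb true true)).trace.re
        = (1 - γ) * pop ρb + γ * ν := by
      rw [trace_add, trace_smul, trace_smul, hΨ.2.2, hΨ.2.2, smul_eq_mul, smul_eq_mul,
        Complex.add_re, Complex.re_ofReal_mul, Complex.re_ofReal_mul, pop_false hρbd]
      have : (block ρb true true).trace.re = pop ρb := rfl
      rw [this]
      ring
    have hsum : (((1 - γ * ν : ℝ) : ℂ) • Ψ (block ρb false false)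
        + ((γ * (1 - ν) : ℝ) : ℂ) • Ψ (block ρb true true))
        + (((γ * ν : ℝ) : ℂ) • Ψ (block ρb false false)
        + ((1 - γ + γ * ν : ℝ) : ℂ) • Ψ (block ρb true true))
        = Ψ (block ρb false false + block ρb true true) := by
      rw [hΨ.1.map_add]
      push_cast
      module
    have k := subadd_quantum (P := ((1 - γ * ν : ℝ) : ℂ) • Ψ (block ρb false false)
        + ((γ * (1 - ν) : ℝ) : ℂ) • Ψ (block ρb true true))
      (R := ((γ * ν : ℝ) : ℂ) • Ψ (block ρb false false)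
        + ((1 - γ + γ * ν : ℝ) : ℂ) • Ψ (block ρb true true)) po (by rw [ht1, ht2]; ring)
    rw [ht1, ht2, hsum] at k
    rw [tensor_entropy hΨ hρbd.1, Real.binEntropy_eq_negMulLog_add_negMulLog_one_sub,
      vnEntropy_eq (channel_psd_one hΨ.2.1
        ((block_posSemidef hρbd.1 false).add (block_posSemidef hρbd.1 true))).isHermitian]
    refine le_trans k (le_of_eq ?_)
    ring
  have h3 : pop ρb = ∑ a, q a * pop (ρ a) := pop_avg q ρ
  rw [h3] at h2
  -- the output entropies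
  have h4 : ∑ i, q2 q ρ i * vnEntropy (Ψ (ρ2 D ρ i)) + ∑ a, q a * gfun γ ν (pop (ρ a))
      ≤ ∑ a, q a * vnEntropy (qubitTensor (gadMap γ ν) Ψ (ρ a)) := by
    rw [Fintype.sum_prod_type, ← Finset.sum_add_distrib]
    refine Finset.sum_le_sum fun a _ => ?_
    rw [Fintype.sum_bool]
    simp only [q2, ρ2]
    have k := mul_le_mul_of_nonneg_left (chan_key hγ hν hΨ hD (h.2.2 a)) (h.1 a)
    rw [pop_false (h.2.2 a)]
    have : (block (ρ a) true true).trace.re = pop (ρ a) := rfl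
    rw [this]
    linarith
  linarith

/-! ### the qubit ensemble -/

lemma gad_linear (γ ν : ℝ) : IsLinearMap ℂ (gadMap γ ν) where
  map_add := by
    intro M N
    ext s t
    cases s <;> cases t <;> simp [gadMap] <;> ring
  map_smul := by
    intro c M
    ext s t
    cases s <;> cases t <;> simp [gadMap] <;> ring

noncomputable def q1 {ι : Type*} (q : ι → ℝ) (i : ι × Bool) : ℝ := q i.1 / 2

noncomputable def ρ1 {ι : Type*} (p : ι → ℝ) (i : ι × Bool) : Matrix Bool Bool ℂ :=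
  qst (p i.1) (√(1 - p i.1) * (if i.2 = true then √(p i.1) else - √(p i.1)))

lemma ens1 {ι : Type*} [Fintype ι] {q : ι → ℝ} {p : ι → ℝ} (hq : ∀ a, 0 ≤ q a)
    (hq1 : ∑ a, q a = 1) (hp : ∀ a, p a ∈ Set.Icc (0 : ℝ) 1) : IsEns (q1 q) (ρ1 p) := by
  refine ⟨fun i => div_nonneg (hq _) (by norm_num), ?_, fun i => ?_⟩
  · rw [Fintype.sum_prod_type]
    simp only [q1, Fintype.sum_bool]
    rw [← hq1]
    refine Finset.sum_congr rfl fun a _ => ?_
    ring
  · apply qst_density (hp _)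
    split_ifs
    · exact Real.sq_sqrt (hp _).1
    · rw [neg_sq]; exact Real.sq_sqrt (hp _).1

lemma hol1 {γ ν : ℝ} (hγ : γ ∈ Set.Icc (0 : ℝ) 1) {ι : Type*} [Fintype ι] {q : ι → ℝ} {p : ι → ℝ}
    (hq1 : ∑ a, q a = 1) (hp : ∀ a, p a ∈ Set.Icc (0 : ℝ) 1) :
    hol (gadMap γ ν) (q1 q) (ρ1 p)
      = binEntropy ((1 - γ) * (∑ a, q a * p a) + γ * ν) - ∑ a, q a * gfun γ ν (p a) := by
  unfold hol
  rw [sum_linear (gad_linear γ ν)]
  have h1 : ∑ i, (q1 q i : ℂ) • ρ1 p i = qst (∑ a, q a * p a) 0 := by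
    rw [Fintype.sum_prod_type]
    have : ∀ a, ∑ b : Bool, (q1 q (a, b) : ℂ) • ρ1 p (a, b) = (q a : ℂ) • qst (p a) 0 := by
      intro a
      rw [Fintype.sum_bool]
      ext i j
      cases i <;> cases j <;> simp [q1, ρ1, qst] <;> ring
    rw [Finset.sum_congr rfl fun a _ => this a]
    ext i j
    rw [Matrix.sum_apply]
    have hc : (∑ a, (q a : ℂ)) = 1 := by exact_mod_cast hq1
    cases i <;> cases j <;> simp [qst, mul_sub, hc]
  rw [h1, gad_diag_entropy]
  congr 1
  rw [Fintype.sum_prod_type]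
  refine Finset.sum_congr rfl fun a _ => ?_
  rw [Fintype.sum_bool]
  simp only [q1, ρ1, if_true, Bool.false_eq_true, if_false]
  rw [gad_pure_entropy hγ (hp a) (Real.sq_sqrt (hp a).1),
    gad_pure_entropy hγ (hp a) (by rw [neg_sq]; exact Real.sq_sqrt (hp a).1)]
  ring

end Crest.Agent.GadCap
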